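import Vale.Agent.P147.Defs

/-! Deterministic facts on finite paths. -/

namespace Vale.Agent.P147

open MeasureTheory
open scoped ENNReal Classical

variable {d : ℕ}

@[simp] lemma disp_nil : disp ([] : Pa d) = 0 := by simp [disp]
@[simp] lemma disp_cons (e : St d) (l : Pa d) : disp (e :: l) = vec e + disp l := by simp [disp]
@[simp] lemma disp_append (a b : Pa d) : disp (a ++ b) = disp a + disp b := by simp [disp]
lemma disp_replicate (n : ℕ) (e : St d) : disp (List.replicate n e) = (n : ℤ) • vec e := by
  simp [disp]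
@[simp] lemma dep_nil (x : V d) : dep x [] = ∅ := rfl
@[simp] lemma dep_cons (x : V d) (e : St d) (l : Pa d) :
    dep x (e :: l) = insert x (dep (x + vec e) l) := rfl
lemma dep_append (x : V d) (a b : Pa d) : dep x (a ++ b) = dep x a ∪ dep (x + disp a) b := by
  induction a generalizing x with
  | nil => simp
  | cons e a ih => simp [ih, add_assoc, Finset.insert_union]
lemma mem_dep_shift (x y : V d) (l : Pa d) : y ∈ dep x l ↔ y - x ∈ dep 0 l := by
  induction l generalizing x y with
  | nil => simp
  | cons e l ih =>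
    simp only [dep_cons, Finset.mem_insert, zero_add]
    rw [ih (x + vec e), ih (vec e), sub_eq_zero, sub_sub]
lemma mem_dep_iff (x y : V d) (l : Pa d) :
    y ∈ dep x l ↔ ∃ a e r, l = a ++ e :: r ∧ y = x + disp a := by
  induction l generalizing x with
  | nil => simp
  | cons f l ih =>
    simp only [dep_cons, Finset.mem_insert, ih]
    constructor
    · rintro (rfl | ⟨a, e, r, rfl, rfl⟩)
      · exact ⟨[], f, l, rfl, by simp⟩
      · exact ⟨f :: a, e, r, rfl, by simp [add_assoc]⟩
    · rintro ⟨a, e, r, h, rfl⟩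
      cases a with
      | nil => left; simp
      | cons g a =>
        right
        simp only [List.cons_append, List.cons.injEq] at h
        obtain ⟨rfl, rfl⟩ := h
        exact ⟨a, e, r, rfl, by simp [add_assoc]⟩
lemma mem_dep_replicate (x y : V d) (n : ℕ) (e : St d) :
    y ∈ dep x (List.replicate n e) ↔ ∃ i : ℕ, i < n ∧ y = x + (i : ℤ) • vec e := by
  induction n generalizing x with
  | zero => simp
  | succ n ih =>
    simp only [List.replicate_succ, dep_cons, Finset.mem_insert, ih]
    constructor
    · rintro (rfl | ⟨i, hi, rfl⟩)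
      · exact ⟨0, by omega, by simp⟩
      · exact ⟨i + 1, by omega, by push_cast; rw [add_smul, one_smul]; abel⟩
    · rintro ⟨i, hi, rfl⟩
      cases i with
      | zero => left; simp
      | succ i => right; exact ⟨i, by omega, by push_cast; rw [add_smul, one_smul]; abel⟩
lemma card_dep_shift (x : V d) (l : Pa d) : (dep x l).card = (dep 0 l).card := by
  have : dep x l = (dep 0 l).image (fun y => x + y) := by
    ext y
    simp only [Finset.mem_image, mem_dep_shift x y]
    exact ⟨fun h => ⟨_, h, by abel⟩, fun ⟨z, hz, h⟩ => by rw [← h]; simpa using hz⟩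
  rw [this, Finset.card_image_of_injective _ (add_right_injective x)]
lemma sz_append_le (a b : Pa d) : sz (a ++ b) ≤ sz a + sz b := by
  unfold sz
  rw [dep_append, ← card_dep_shift (0 + disp a) b]
  exact_mod_cast Finset.card_union_le _ _
lemma card_dep_le_length (x : V d) (l : Pa d) : (dep x l).card ≤ l.length := by
  induction l generalizing x with
  | nil => simp
  | cons e l ih => exact (Finset.card_insert_le _ _).trans (by simpa using ih _)
lemma sz_le_length (l : Pa d) : sz l ≤ l.length := by
  unfold sz; exact_mod_cast card_dep_le_length 0 l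
lemma abs_vec_le (e : St d) (i : Fin d) : |vec e i| ≤ 1 := by
  unfold vec
  by_cases h : i = e.1
  · subst h; cases e.2 <;> simp
  · simp [Pi.single_eq_of_ne h]
lemma abs_disp_le_length (l : Pa d) (i : Fin d) : |disp l i| ≤ l.length := by
  induction l with
  | nil => simp
  | cons e l ih =>
    have := abs_vec_le e i
    have := abs_add_le (vec e i) (disp l i)
    simp only [disp_cons, Pi.add_apply, List.length_cons]
    push_cast; linarith
lemma abs_dep_le_length {x y : V d} {l : Pa d} (h : y ∈ dep x l) (i : Fin d) :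
    |y i - x i| ≤ l.length := by
  obtain ⟨a, e, r, rfl, rfl⟩ := (mem_dep_iff _ _ _).1 h
  have := abs_disp_le_length a i
  simp only [Pi.add_apply, add_sub_cancel_left, List.length_append, List.length_cons]
  push_cast; linarith
lemma abs_dep_end_le_length {x y : V d} {l : Pa d} (h : y ∈ dep x l) (i : Fin d) :
    |y i - (x + disp l) i| ≤ l.length := by
  obtain ⟨a, e, r, rfl, rfl⟩ := (mem_dep_iff _ _ _).1 h
  have := abs_disp_le_length (e :: r) i
  have h2 : (x + disp a) i - (x + disp (a ++ e :: r)) i = -disp (e :: r) i := by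
    simp only [disp_append, Pi.add_apply]; ring
  rw [h2, abs_neg, List.length_append]
  push_cast; linarith
lemma dep_ivt (i : Fin d) (l : Pa d) (x : V d) (t : ℤ) :
    ((x i ≤ t ∧ t < x i + disp l i) ∨ (t ≤ x i ∧ x i + disp l i < t)) →
      ∃ y ∈ dep x l, y i = t := by
  induction l generalizing x with
  | nil => simp
  | cons e l ih =>
    intro h
    by_cases hx : x i = t
    · exact ⟨x, by simp, hx⟩
    · have := abs_le.1 (abs_vec_le e i)
      obtain ⟨y, hy, h'⟩ := ih (x + vec e) (by
        simp only [disp_cons, Pi.add_apply] at h ⊢; omega)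
      exact ⟨y, by simp [hy], h'⟩
lemma abs_disp_le_card (l : Pa d) (i : Fin d) : |disp l i| ≤ (dep 0 l).card := by
  have h1 := Finset.card_image_le (s := dep 0 l) (f := fun y => y i)
  rcases le_total 0 (disp l i) with h | h
  · have : Finset.Ico 0 (disp l i) ⊆ (dep 0 l).image fun y => y i := fun t ht => by
      obtain ⟨y, hy, h'⟩ := dep_ivt i l 0 t (Or.inl (by simpa using ht))
      exact Finset.mem_image.2 ⟨y, hy, h'⟩
    have h2 := Finset.card_le_card this
    rw [Int.card_Ico] at h2
    rw [abs_of_nonneg h]; omega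
  · have : Finset.Ioc (disp l i) 0 ⊆ (dep 0 l).image fun y => y i := fun t ht => by
      obtain ⟨y, hy, h'⟩ := dep_ivt i l 0 t (Or.inr (by
        have := Finset.mem_Ioc.1 ht; simp; omega))
      exact Finset.mem_image.2 ⟨y, hy, h'⟩
    have h2 := Finset.card_le_card this
    rw [Int.card_Ioc] at h2
    rw [abs_of_nonpos h]; omega

@[simp] lemma lev_zero (ℓ : V d) : lev ℓ 0 = 0 := by simp [lev]
lemma lev_add (ℓ x y : V d) : lev ℓ (x + y) = lev ℓ x + lev ℓ y := by
  simp [lev, mul_add, Finset.sum_add_distrib]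
lemma lev_sub (ℓ x y : V d) : lev ℓ (x - y) = lev ℓ x - lev ℓ y := by
  simp [lev, mul_sub, Finset.sum_sub_distrib]
lemma lev_neg (ℓ x : V d) : lev (-ℓ) x = -lev ℓ x := by simp [lev]
lemma lev_smul (ℓ x : V d) (n : ℤ) : lev ℓ (n • x) = n * lev ℓ x := by
  simp only [lev, Pi.smul_apply, smul_eq_mul, Finset.mul_sum]
  exact Finset.sum_congr rfl fun i _ => by ring
lemma lev_vec (ℓ : V d) (e : St d) : lev ℓ (vec e) = if e.2 then ℓ e.1 else -ℓ e.1 := by
  unfold lev vec
  rw [Finset.sum_eq_single e.1]
  · cases e.2 <;> simp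
  · intro i _ hi; simp [Pi.single_eq_of_ne hi]
  · simp
lemma Top.neg {ℓ : V d} {lam : ℤ} {i0 : Fin d} (h : Top ℓ lam i0) : Top (-ℓ) lam i0 :=
  ⟨h.1, fun i => by simpa using h.2.1 i, by simpa using h.2.2⟩
lemma Top.abs_lev_vec_le {ℓ : V d} {lam : ℤ} {i0 : Fin d} (h : Top ℓ lam i0) (e : St d) :
    |lev ℓ (vec e)| ≤ lam := by
  rw [lev_vec]; split_ifs
  · exact h.2.1 _
  · simpa using h.2.1 _
lemma Top.exists_up {ℓ : V d} {lam : ℤ} {i0 : Fin d} (h : Top ℓ lam i0) :
    ∃ b : Bool, lev ℓ (vec (i0, b)) = lam := by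
  rcases le_total 0 (ℓ i0) with h0 | h0
  · exact ⟨true, by rw [lev_vec]; simpa [abs_of_nonneg h0] using h.2.2⟩
  · exact ⟨false, by rw [lev_vec]; simpa [abs_of_nonpos h0] using h.2.2⟩
lemma exists_top {ℓ : V d} (h : ℓ ≠ 0) : ∃ lam i0, Top ℓ lam i0 := by
  obtain ⟨j, hj⟩ := Function.ne_iff.1 h
  obtain ⟨i0, -, hi⟩ := Finset.exists_max_image Finset.univ (fun i => |ℓ i|) ⟨j, Finset.mem_univ _⟩
  exact ⟨|ℓ i0|, i0, (abs_pos.2 hj).trans_le (hi j (Finset.mem_univ _)),
    fun i => hi i (Finset.mem_univ _), rfl⟩

lemma PF.unique {A : Pa d → Prop} (hA : PF A) {a b r s : Pa d} (ha : A a) (hb : A b)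
    (h : a ++ r = b ++ s) : a = b := by
  rcases List.append_eq_append_iff.1 h with ⟨t, rfl, -⟩ | ⟨t, rfl, -⟩
  · rw [hA a t ha hb]; simp
  · rw [hA b t hb ha]; simp
lemma PF.mono {A B : Pa d → Prop} (hA : PF A) (h : ∀ l, B l → A l) : PF B :=
  fun a r ha hr => hA a r (h _ ha) (h _ hr)
/-- first passage families have no member extending another one -/
lemma pf_first (x : V d) (S : V d → Prop) :
    PF fun l => S (x + disp l) ∧ ∀ y ∈ dep x l, ¬S y := by
  intro a r ha hr
  cases r with
  | nil => rfl
  | cons e r => exact absurd ha.1 (hr.2 _ ((mem_dep_iff _ _ _).2 ⟨a, e, r, rfl, rfl⟩))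
/-- a path that ends in `S` or departs from `S` has an initial segment that is a first passage -/
lemma exists_first (x : V d) (S : V d → Prop) (l : Pa d)
    (h : S (x + disp l) ∨ ∃ y ∈ dep x l, S y) :
    ∃ a r, l = a ++ r ∧ S (x + disp a) ∧ ∀ y ∈ dep x a, ¬S y := by
  induction l generalizing x with
  | nil => exact ⟨[], [], rfl, by simpa using h, by simp⟩
  | cons e l ih =>
    by_cases hx : S x
    · exact ⟨[], e :: l, rfl, by simpa using hx, by simp⟩
    · obtain ⟨a, r, rfl, h1, h2⟩ := ih (x + vec e) (by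
        rcases h with h | ⟨y, hy, h⟩
        · left; simpa [add_assoc] using h
        · right
          rcases Finset.mem_insert.1 hy with rfl | hy
          · exact absurd h hx
          · exact ⟨y, hy, h⟩)
      refine ⟨e :: a, r, rfl, by simpa [add_assoc] using h1, fun y hy => ?_⟩
      rcases Finset.mem_insert.1 hy with rfl | hy
      · exact hx
      · exact h2 y hy

@[simp] lemma q_nil (ω : V d → St d → ℝ) (x : V d) : q ω x [] = 1 := rfl
@[simp] lemma q_cons (ω : V d → St d → ℝ) (x : V d) (e : St d) (l : Pa d) :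
    q ω x (e :: l) = ENNReal.ofReal (ω x e) * q ω (x + vec e) l := rfl
lemma q_append (ω : V d → St d → ℝ) (x : V d) (a b : Pa d) :
    q ω x (a ++ b) = q ω x a * q ω (x + disp a) b := by
  induction a generalizing x with
  | nil => simp
  | cons e a ih => simp [ih, add_assoc, mul_assoc]
lemma q_le_one {ω : V d → St d → ℝ} (h : SubSt ω) (x : V d) (l : Pa d) : q ω x l ≤ 1 := by
  induction l generalizing x with
  | nil => simp
  | cons e l ih =>
    exact mul_le_one' ((Finset.single_le_sum (f := fun e => ENNReal.ofReal (ω x e))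
      (fun _ _ => zero_le) (Finset.mem_univ e)).trans (h x)) (ih _)
lemma tsum_list_eq (f : Pa d → ℝ≥0∞) : ∑' l, f l = f [] + ∑ e, ∑' l, f (e :: l) := by
  have hinj : Function.Injective fun p : St d × Pa d => p.1 :: p.2 := fun p p' h => by
    simp only [List.cons.injEq] at h; exact Prod.ext h.1 h.2
  rw [ENNReal.tsum_eq_add_tsum_ite [], ← tsum_fintype (L := SummationFilter.unconditional _),
    ← ENNReal.tsum_prod (f := fun e l => f (e :: l))]
  congr 1
  refine (hinj.tsum_eq ?_).symm.trans (tsum_congr fun p => by simp)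
  intro l hl
  cases l with
  | nil => simp at hl
  | cons e l => exact ⟨(e, l), rfl⟩
lemma L0_aux {ω : V d → St d → ℝ} (h : SubSt ω) (n : ℕ) : ∀ (A : Pa d → Prop), PF A → ∀ x : V d,
    ∑' l, (if A l ∧ l.length ≤ n then q ω x l else 0) ≤ 1 := by
  induction n with
  | zero =>
    intro A _ x
    rw [tsum_list_eq]
    simp only [List.length_cons, nonpos_iff_eq_zero, Nat.add_eq_zero_iff, one_ne_zero, and_false,
      if_false, tsum_zero, Finset.sum_const_zero, add_zero]
    split_ifs <;> simp
  | succ n ih =>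
    intro A hA x
    rw [tsum_list_eq]
    by_cases h0 : A []
    · have : ∀ e l, ¬A (e :: l) := fun e l hl => by simpa using hA [] (e :: l) h0 hl
      simp [this, h0]
    · simp only [h0, false_and, if_false, zero_add]
      refine le_trans (Finset.sum_le_sum fun e _ => ?_) (h x)
      have := ih (fun l => A (e :: l)) (fun a r ha hr => hA (e :: a) r ha hr) (x + vec e)
      calc _ = ENNReal.ofReal (ω x e) *
            ∑' l, (if A (e :: l) ∧ l.length ≤ n then q ω (x + vec e) l else 0) := by
            rw [← ENNReal.tsum_mul_left]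
            refine tsum_congr fun l => ?_
            simp only [List.length_cons, Nat.add_le_add_iff_right, q_cons]
            split_ifs <;> simp
        _ ≤ _ := mul_le_of_le_one_right' this
lemma L0 {ω : V d → St d → ℝ} (h : SubSt ω) {A : Pa d → Prop} (hA : PF A) (x : V d) :
    ∑' l, (if A l then q ω x l else 0) ≤ 1 := by
  rw [ENNReal.tsum_eq_iSup_sum]
  refine iSup_le fun s => le_trans ?_ (L0_aux h (s.sup List.length) A hA x)
  refine le_trans (Finset.sum_le_sum fun l hl => ?_) (ENNReal.sum_le_tsum s)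
  have : l.length ≤ s.sup List.length := Finset.le_sup hl
  simp [this]
/-- if every member of `A` extends a member `b` of `B`, and the continuations after `b` have mass
at most `f b`, the mass of `A` is at most the `f`-weighted mass of `B`. -/
lemma ext_le' (ω : V d → St d → ℝ) {A B : Pa d → Prop}
    (hAB : ∀ l, A l → ∃ b r, B b ∧ l = b ++ r) (x : V d) (f : Pa d → ℝ≥0∞)
    (hf : ∀ b, B b → ∑' r, (if A (b ++ r) then q ω (x + disp b) r else 0) ≤ f b) :
    ∑' l, (if A l then q ω x l else 0) ≤ ∑' b, (if B b then q ω x b * f b else 0) := by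
  calc _ ≤ ∑' l, ∑' p : Pa d × Pa d,
        (if p.1 ++ p.2 = l then (if B p.1 ∧ A (p.1 ++ p.2) then q ω x (p.1 ++ p.2) else 0)
          else 0) := by
        refine ENNReal.tsum_le_tsum fun l => ?_
        split_ifs with hl
        · obtain ⟨b, r, hb, rfl⟩ := hAB l hl
          refine le_trans ?_ (ENNReal.le_tsum (b, r))
          simp [hb, hl]
        · exact zero_le
    _ = ∑' p : Pa d × Pa d, (if B p.1 ∧ A (p.1 ++ p.2) then q ω x (p.1 ++ p.2) else 0) := by
        rw [ENNReal.tsum_comm]
        refine tsum_congr fun p => ?_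
        rw [tsum_eq_single (p.1 ++ p.2)]
        · simp
        · intro l hl; rw [if_neg (Ne.symm hl)]
    _ ≤ _ := by
        rw [ENNReal.tsum_prod']
        refine ENNReal.tsum_le_tsum fun b => ?_
        split_ifs with hb
        · refine le_trans (le_of_eq ?_) (mul_le_mul_right (hf b hb) _)
          rw [← ENNReal.tsum_mul_left]
          refine tsum_congr fun r => ?_
          simp only [hb, true_and, q_append]
          split_ifs <;> simp
        · simp [hb]
lemma ext_le {ω : V d → St d → ℝ} (h : SubSt ω) {A B : Pa d → Prop} (hA : PF A)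
    (hAB : ∀ l, A l → ∃ b r, B b ∧ l = b ++ r) (x : V d) :
    ∑' l, (if A l then q ω x l else 0) ≤ ∑' l, (if B l then q ω x l else 0) := by
  simpa using ext_le' ω hAB x (fun _ => 1) fun b _ =>
    L0 h (A := fun r => A (b ++ r)) (fun a r ha hr => hA (b ++ a) r ha (by simpa using hr)) _

end Vale.Agent.P147
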