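import Vale.Agent.P147.Br

/-! Smoothing and anti-concentration for convolution powers. -/

namespace Vale.Agent.P147

open scoped ENNReal Classical

variable {d : ℕ}

/-- binomial expectation -/
def binE {R : Type*} [Semiring R] (p q : R) : ℕ → (ℕ → R) → R
  | 0, g => g 0
  | k + 1, g => q * binE p q k g + p * binE p q k fun a => g (a + 1)

lemma bin_const {R : Type*} [Semiring R] {p q : R} (h : p + q = 1) (k : ℕ) (x : R) :
    binE p q k (fun _ => x) = x := by
  induction k with
  | zero => rfl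
  | succ k ih => rw [binE, ih, ← add_mul, add_comm, h, one_mul]

lemma bin_lin (p q s t : ℝ) (k : ℕ) (f g : ℕ → ℝ) :
    binE p q k (fun a => s * f a + t * g a) = s * binE p q k f + t * binE p q k g := by
  induction k generalizing f g with
  | zero => rfl
  | succ k ih =>
    simp only [binE]
    rw [ih, ih (fun a => f (a + 1)) fun a => g (a + 1)]
    ring

lemma bin_mono {R : Type*} [Semiring R] [PartialOrder R] [IsOrderedRing R] {p q : R} (hp : 0 ≤ p)
    (hq : 0 ≤ q) (k : ℕ) {f g : ℕ → R} (h : ∀ a, a ≤ k → f a ≤ g a) :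
    binE p q k f ≤ binE p q k g := by
  induction k generalizing f g with
  | zero => exact h 0 le_rfl
  | succ k ih =>
    exact add_le_add (mul_le_mul_of_nonneg_left (ih fun a ha => h a (by omega)) hq)
      (mul_le_mul_of_nonneg_left (ih fun a ha => h (a + 1) (by omega)) hp)

lemma bin_stein {p q : ℝ} (h : p + q = 1) (k : ℕ) (g : ℕ → ℝ) :
    binE p q (k + 1) (fun a => (a - (k + 1) * p) * g a) =
      (k + 1) * p * q * (binE p q k (fun a => g (a + 1)) - binE p q k g) := by
  obtain rfl : q = 1 - p := by linarith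
  induction k generalizing g with
  | zero =>
    simp only [binE]
    push_cast
    ring
  | succ k ih =>
    have e1 : (fun a : ℕ => ((a : ℝ) - ((k + 1 : ℕ) + 1) * p) * g a) =
        fun a : ℕ => 1 * (((a : ℝ) - (k + 1) * p) * g a) + -p * g a := by
      funext a
      push_cast
      ring
    have e2 : (fun a : ℕ => (((a + 1 : ℕ) : ℝ) - ((k + 1 : ℕ) + 1) * p) * g (a + 1)) =
        fun a : ℕ => 1 * (((a : ℝ) - (k + 1) * p) * g (a + 1)) + (1 - p) * g (a + 1) := by
      funext a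
      push_cast
      ring
    rw [binE, e2, e1, bin_lin, bin_lin, ih, ih fun a => g (a + 1)]
    simp only [binE]
    push_cast
    ring

lemma bin_tvR {p q : ℝ} (hp : 0 < p) (hq : 0 < q) (h : p + q = 1) (k : ℕ) {g : ℕ → ℝ}
    (hg : ∀ a, |g a| ≤ 1) :
    binE p q k (fun a => g (a + 1)) - binE p q k g ≤ (Real.sqrt ((k + 1) * p * q))⁻¹ := by
  have hs2 := Real.sq_sqrt (show 0 ≤ (k + 1) * p * q by positivity)
  have hs := Real.sqrt_pos.2 (show 0 < (k + 1) * p * q by positivity)
  set s := Real.sqrt ((k + 1) * p * q)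
  have hv := bin_stein h k fun a => a - (k + 1) * p
  have e : (fun a : ℕ => ((a + 1 : ℕ) : ℝ) - (k + 1) * p) =
      fun a : ℕ => 1 * ((a : ℝ) - (k + 1) * p) + 1 * 1 := by
    funext a
    push_cast
    ring
  rw [e, bin_lin, bin_const h] at hv
  have h1 := bin_mono hp.le hq.le (k + 1) (f := fun a => 2 * s * ((a - (k + 1) * p) * g a) + 0 * 0)
    (g := fun a => 1 * ((a - (k + 1) * p) * (a - (k + 1) * p)) + s ^ 2 * 1) fun a _ => by
      have := sq_abs (g a)
      have : g a ^ 2 ≤ 1 := by nlinarith [hg a, abs_nonneg (g a)]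
      nlinarith [sq_nonneg (a - (k + 1) * p - s * g a), sq_nonneg s]
  rw [bin_lin, bin_lin, bin_const h, bin_const h, hv, bin_stein h, ← hs2] at h1
  rw [← one_div, le_div_iff₀ hs]
  nlinarith [sq_pos_of_pos hs]

lemma bin_toReal {p q : ℝ≥0∞} (h : p + q = 1) (k : ℕ) {g : ℕ → ℝ≥0∞} (hg : ∀ a, g a ≤ 1) :
    (binE p q k g).toReal = binE p.toReal q.toReal k fun a => (g a).toReal := by
  have hb : ∀ {g : ℕ → ℝ≥0∞} k, (∀ a, g a ≤ 1) → binE p q k g ≠ ⊤ := fun k hg =>
    ne_top_of_le_ne_top ENNReal.one_ne_top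
      ((bin_mono zero_le zero_le k fun a _ => hg a).trans_eq (bin_const h k 1))
  have hp : p ≠ ⊤ := ne_top_of_le_ne_top ENNReal.one_ne_top (h ▸ le_self_add)
  have hq : q ≠ ⊤ := ne_top_of_le_ne_top ENNReal.one_ne_top (h ▸ le_add_self)
  induction k generalizing g with
  | zero => rfl
  | succ k ih =>
    rw [binE, binE, ENNReal.toReal_add (ENNReal.mul_ne_top hq (hb k hg))
      (ENNReal.mul_ne_top hp (hb k fun a => hg _)), ENNReal.toReal_mul, ENNReal.toReal_mul, ih hg,
      ih fun a => hg _]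

lemma bin_tv {c p q : ℝ≥0∞} (hc : c ≠ 0) (hp : c ≤ p) (hq : c ≤ q) (h : p + q = 1) (k : ℕ)
    {g : ℕ → ℝ≥0∞} (hg : ∀ a, g a ≤ 1) :
    binE p q k g ≤ binE p q k (fun a => g (a + 1)) +
        ENNReal.ofReal (c.toReal⁻¹ / Real.sqrt (k + 1)) ∧
      binE p q k (fun a => g (a + 1)) ≤ binE p q k g +
        ENNReal.ofReal (c.toReal⁻¹ / Real.sqrt (k + 1)) := by
  have hb : ∀ {g : ℕ → ℝ≥0∞}, (∀ a, g a ≤ 1) → binE p q k g ≠ ⊤ := fun hg =>
    ne_top_of_le_ne_top ENNReal.one_ne_top
      ((bin_mono zero_le zero_le k fun a _ => hg a).trans_eq (bin_const h k 1))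
  have hp1 : p ≠ ⊤ := ne_top_of_le_ne_top ENNReal.one_ne_top (h ▸ le_self_add)
  have hq1 : q ≠ ⊤ := ne_top_of_le_ne_top ENNReal.one_ne_top (h ▸ le_add_self)
  have hc0 := ENNReal.toReal_pos hc (ne_top_of_le_ne_top hp1 hp)
  have hp2 := ENNReal.toReal_mono hp1 hp
  have hq2 := ENNReal.toReal_mono hq1 hq
  have h' : p.toReal + q.toReal = 1 := by rw [← ENNReal.toReal_add hp1 hq1, h, ENNReal.toReal_one]
  have ht : (Real.sqrt ((k + 1) * p.toReal * q.toReal))⁻¹ ≤ c.toReal⁻¹ / Real.sqrt (k + 1) := by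
    rw [div_eq_mul_inv, ← mul_inv]
    refine inv_anti₀ (by positivity) (Real.le_sqrt_of_sq_le ?_)
    rw [mul_pow, Real.sq_sqrt (by positivity), mul_comm, mul_assoc, sq]
    exact mul_le_mul_of_nonneg_left (mul_le_mul hp2 hq2 hc0.le (hc0.le.trans hp2)) (by positivity)
  have g1 : ∀ a, |(g a).toReal| ≤ 1 := fun a => by
    rw [abs_of_nonneg ENNReal.toReal_nonneg]
    exact ENNReal.toReal_mono ENNReal.one_ne_top (hg a)
  have k1 := bin_tvR (hc0.trans_le hp2) (hc0.trans_le hq2) h' k g1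
  have k2 := bin_tvR (hc0.trans_le hp2) (hc0.trans_le hq2) h' k
    (g := fun a => -1 * (g a).toReal + 0 * 0) fun a => by simpa using g1 a
  rw [bin_lin, bin_lin _ _ _ _ _ fun a => (g a).toReal, ← bin_toReal h k hg,
    ← bin_toReal h k fun a => hg _] at k2
  rw [← bin_toReal h k hg, ← bin_toReal h k fun a => hg _] at k1
  have key : ∀ {x y : ℝ≥0∞} {t : ℝ}, x ≠ ⊤ → y ≠ ⊤ → x.toReal - y.toReal ≤ t →
      x ≤ y + ENNReal.ofReal t := fun {x y t} hx hy hxy => by
    rw [← ENNReal.ofReal_toReal hx, ← ENNReal.ofReal_toReal hy]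
    exact (ENNReal.ofReal_le_ofReal (by linarith)).trans ENNReal.ofReal_add_le
  exact ⟨key (hb hg) (hb fun a => hg _) (by linarith), key (hb fun a => hg _) (hb hg) (by linarith)⟩

lemma bin_cpow (π : V d → ℝ≥0∞) (p q : ℝ≥0∞) (g : ℕ → ℕ → V d → ℝ≥0∞)
    (h : ∀ i m y, ∑' z, π z * g i m (y + z) = q * g i (m + 1) y + p * g (i + 1) m y)
    (k i m : ℕ) (y : V d) :
    ∑' z, cpow π k z * g i m (y + z) = binE p q k fun a => g (i + a) (m + k - a) y := by
  induction k generalizing i m with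
  | zero => simp [cpow, tsum_dlt (fun z => g i m (y + z)), binE]
  | succ k ih =>
    rw [cpow, tsum_conv, binE]
    calc _ = ∑' z, cpow π k z * ∑' u, π u * g i m (y + z + u) := by
          simp only [← ENNReal.tsum_mul_left]
          rw [ENNReal.tsum_comm]
          simp only [mul_left_comm, add_comm, add_left_comm]
      _ = q * ∑' z, cpow π k z * g i (m + 1) (y + z) +
          p * ∑' z, cpow π k z * g (i + 1) m (y + z) := by
          simp only [h, mul_add, ENNReal.tsum_add, ← ENNReal.tsum_mul_left, mul_left_comm]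
      _ = _ := by
          rw [ih, ih]
          congr 3
          · funext a
            rw [add_right_comm, add_assoc]
          · funext a
            rw [add_right_comm, add_assoc i, ← add_assoc m, Nat.add_sub_add_right]

lemma bin_tau (C : ℝ) (k r : ℕ) : (r : ℝ≥0∞) * ENNReal.ofReal (C / Real.sqrt (k + 1)) =
    ENNReal.ofReal (C * r / Real.sqrt (k + 1)) := by
  rw [← ENNReal.ofReal_natCast, ← ENNReal.ofReal_mul (Nat.cast_nonneg r), mul_div_assoc', mul_comm]


theorem micro_bound (c : ℝ≥0∞) (hc : c ≠ 0) : ∃ C : ℝ, 0 ≤ C ∧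
    ∀ (p p' : ℝ≥0∞), c ≤ p → c ≤ p' → p + p' = 1 → ∀ (v : V d) (π : V d → ℝ≥0∞),
      (∀ z, π z = (if z = 0 then p' else 0) + (if z = v then p else 0)) →
      ∀ (k r : ℕ), 0 < r → ∀ F : V d → ℝ≥0∞, (∀ y, F y ≤ 1) → ∀ B : ℝ≥0∞,
        (∀ y, ∑' z, unif v r z * F (y + z) ≤ B) → ∀ y,
          ∑' z, cpow π k z * F (y + z) ≤ B + ENNReal.ofReal (C * r / Real.sqrt (k + 1)) := by
  refine ⟨c.toReal⁻¹, by positivity, fun p p' hp hp' hpp v π hπ k r hr F hF B hB y => ?_⟩
  set τ := ENNReal.ofReal (c.toReal⁻¹ / Real.sqrt (k + 1))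
  have hT : ∀ (G : V d → ℝ≥0∞) (y : V d), ∑' z, cpow π k z * G (y + z) =
      binE p p' k fun a => G (y + (a : ℤ) • v) := fun G y => by
    have := bin_cpow π p p' (fun i _ y => G (y + (i : ℤ) • v)) (fun i m y => by
      simp only [hπ, add_mul, ENNReal.tsum_add, ite_mul, zero_mul, tsum_ite_eq, add_zero]
      rw [Nat.cast_succ, add_smul, one_smul, add_assoc y v, add_comm v]) k 0 0 y
    simpa using this
  have h1 : ∀ (i : ℕ), ∑' z, cpow π k z * F (y + z) ≤
      ∑' z, cpow π k z * F (y + (i : ℤ) • v + z) + i * τ := fun i => by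
    induction i with
    | zero => simp
    | succ i ih =>
      refine ih.trans ?_
      rw [hT, hT, Nat.cast_succ, Nat.cast_succ, add_mul, one_mul, add_comm _ τ, ← add_assoc]
      refine add_le_add_left ((bin_tv hc hp hp' hpp k fun _ => hF _).1.trans_eq ?_) _
      congr 2
      funext a
      rw [Nat.cast_succ, add_smul, add_smul, one_smul, add_assoc, add_assoc, add_assoc,
        add_comm v]
  have hr' : (r : ℝ≥0∞) * (r : ℝ≥0∞)⁻¹ = 1 :=
    ENNReal.mul_inv_cancel (by exact_mod_cast hr.ne') (ENNReal.natCast_ne_top r)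
  have h2 : ∀ x : ℝ≥0∞, ∑ _i ∈ Finset.range r, (r : ℝ≥0∞)⁻¹ * x = x := fun x => by
    rw [Finset.sum_const, Finset.card_range, nsmul_eq_mul, ← mul_assoc, hr', one_mul]
  have h3 : ∑ i ∈ Finset.range r, (r : ℝ≥0∞)⁻¹ * ∑' z, cpow π k z * F (y + (i : ℤ) • v + z) ≤
      B := by
    have e : ∀ x, ∑' u, unif v r u * F (x + u) =
        ∑ i ∈ Finset.range r, (r : ℝ≥0∞)⁻¹ * F (x + (i : ℤ) • v) := fun x => by
      simp only [unif, Finset.sum_mul]
      rw [Summable.tsum_finsetSum fun _ _ => ENNReal.summable]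
      simp only [ite_mul, zero_mul, tsum_ite_eq]
    calc _ = ∑' z, cpow π k z * ∑' u, unif v r u * F (y + z + u) := by
          simp only [e, Finset.mul_sum, ← ENNReal.tsum_mul_left]
          rw [Summable.tsum_finsetSum fun _ _ => ENNReal.summable]
          simp only [mul_left_comm, add_right_comm]
      _ ≤ ∑' z, cpow π k z * B := ENNReal.tsum_le_tsum fun z => mul_le_mul_right (hB _) _
      _ = B := (hT (fun _ => B) 0).trans (bin_const hpp k B)
  calc _ = _ := (h2 _).symm
    _ ≤ ∑ i ∈ Finset.range r, (r : ℝ≥0∞)⁻¹ *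
        (∑' z, cpow π k z * F (y + (i : ℤ) • v + z) + r * τ) :=
      Finset.sum_le_sum fun i hi => mul_le_mul_right ((h1 i).trans (add_le_add_right
        (mul_le_mul_left (by exact_mod_cast (Finset.mem_range.1 hi).le) _) _)) _
    _ ≤ B + r * τ := by
      simp only [mul_add, Finset.sum_add_distrib, h2]
      exact add_le_add_left h3 _
    _ = _ := by rw [bin_tau]

/-- averaging operator -/
noncomputable def binOp (ν F : V d → ℝ≥0∞) (y : V d) : ℝ≥0∞ := ∑' z, ν z * F (y + z)

/-- bounded functions monotone in one coordinate -/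
def binOk (j : Fin d) (F : V d → ℝ≥0∞) : Prop :=
  (∀ y, F y ≤ 1) ∧ ∀ y y', y j ≤ y' j → F y ≤ F y'

lemma bin_comm (ν ν' : V d → ℝ≥0∞) : Function.Commute (binOp ν) (binOp ν') := fun F => by
  funext y
  simp only [binOp, ← ENNReal.tsum_mul_left]
  rw [ENNReal.tsum_comm]
  simp only [mul_left_comm, add_right_comm]

lemma bin_ok {ν : V d → ℝ≥0∞} (h : ∑' z, ν z ≤ 1) {j : Fin d} {F : V d → ℝ≥0∞}
    (hF : binOk j F) : binOk j (binOp ν F) :=
  ⟨fun _ => le_trans (ENNReal.tsum_le_tsum fun _ => mul_le_of_le_one_right' (hF.1 _)) h,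
    fun _ _ hy => ENNReal.tsum_le_tsum fun _ => mul_le_mul_right
      (hF.2 _ _ (add_le_add_left hy _)) _⟩


theorem big_bound (c : ℝ≥0∞) (hc : c ≠ 0) : ∃ C : ℝ, 0 ≤ C ∧
    ∀ (πm πp : V d → ℝ≥0∞) (j : Fin d) (α D : ℤ), 0 < D → c ≤ ∑' z, πm z → c ≤ ∑' z, πp z →
      ∑' z, πm z + ∑' z, πp z = 1 → (∀ z, πm z ≠ 0 → z j ≤ α) → (∀ z, πp z ≠ 0 → α + D ≤ z j) →
      ∀ (k N : ℕ) (a : ℤ),
        ∑' z, cpow (fun z => πm z + πp z) k z * (if a ≤ z j ∧ z j < a + N * D then 1 else 0) ≤
          ENNReal.ofReal (C * N / Real.sqrt (k + 1)) := by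
  refine ⟨c.toReal⁻¹, by positivity, fun πm πp j α D hD hm hp hs h1 h2 k N a => ?_⟩
  set τ := ENNReal.ofReal (c.toReal⁻¹ / Real.sqrt (k + 1))
  set q := ∑' z, πm z with hq
  set p := ∑' z, πp z with hp'
  have hq0 : q ≠ 0 := fun h => hc (le_zero_iff.1 (h ▸ hm))
  have hp0 : p ≠ 0 := fun h => hc (le_zero_iff.1 (h ▸ hp))
  have hq1 : q ≠ ⊤ := ne_top_of_le_ne_top ENNReal.one_ne_top (hs ▸ le_self_add)
  have hp1 : p ≠ ⊤ := ne_top_of_le_ne_top ENNReal.one_ne_top (hs ▸ le_add_self)
  have mA : ∑' z, q⁻¹ * πm z = 1 := by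
    rw [ENNReal.tsum_mul_left, ENNReal.inv_mul_cancel hq0 hq1]
  have mB : ∑' z, p⁻¹ * πp z = 1 := by
    rw [ENNReal.tsum_mul_left, ENNReal.inv_mul_cancel hp0 hp1]
  set A := binOp fun z => q⁻¹ * πm z with hA
  set B := binOp fun z => p⁻¹ * πp z with hB
  set H : V d → ℝ≥0∞ := fun y => if 0 ≤ y j then 1 else 0 with hH
  have gH : binOk j H := ⟨fun y => by simp only [hH]; split_ifs <;> simp, fun y y' h => by
    simp only [hH]
    split_ifs with a b <;> first | omega | simp⟩
  have g0 : ∀ i m, binOk j (B^[i] (A^[m] H)) := fun i m =>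
    Function.Iterate.rec _ (Function.Iterate.rec _ gH (fun _ => bin_ok mA.le) m)
      (fun _ => bin_ok mB.le) i
  have eA : ∀ i m, B^[i] (A^[m + 1] H) = A (B^[i] (A^[m] H)) := fun i m => by
    rw [Function.iterate_succ_apply', (bin_comm _ _).iterate_left i]
  have eB : ∀ i m, B^[i + 1] (A^[m] H) = B (B^[i] (A^[m] H)) := fun i m =>
    Function.iterate_succ_apply' _ _ _
  have hT := fun y => bin_cpow (fun z => πm z + πp z) p q (fun i m => B^[i] (A^[m] H))
    (fun i m y => by
      rw [eA, eB]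
      generalize B^[i] (A^[m] H) = f
      simp only [hA, hB, binOp, mul_assoc, ENNReal.tsum_mul_left, add_mul, ENNReal.tsum_add]
      rw [ENNReal.mul_inv_cancel_left hq0 hq1, ENNReal.mul_inv_cancel_left hp0 hp1]) k 0 0 y
  simp only [Function.iterate_zero, id, zero_add] at hT
  have hs' : p + q = 1 := by rw [add_comm, hs]
  have step : ∀ y y' : V d, y' j ≤ y j + D → binE p q k (fun a => B^[a] (A^[k - a] H) y') ≤
      binE p q k (fun a => B^[a] (A^[k - a] H) y) + τ := fun y y' hy => by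
    have t1 := (bin_tv hc hp hm hs' k (g := fun a => if a ≤ k then B^[a] (A^[k - a] H) y else 1)
      fun a => by
        split_ifs
        · exact (g0 _ _).1 y
        · exact le_rfl).2
    refine (bin_mono zero_le zero_le k fun a ha => ?_).trans (t1.trans (add_le_add_left
      (bin_mono zero_le zero_le k fun a ha => (if_pos ha).le) _))
    split_ifs with h
    · obtain ⟨m, hm⟩ := Nat.exists_eq_add_of_le h
      rw [show k - a = m + 1 by omega, show k - (a + 1) = m by omega, eA, eB]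
      set f := B^[a] (A^[m] H)
      calc A f y' ≤ ∑' z, q⁻¹ * πm z * f fun _ => y j + D + α := by
            refine ENNReal.tsum_le_tsum fun z => ?_
            by_cases hz : πm z = 0
            · simp [hz]
            · exact mul_le_mul_right ((g0 a m).2 _ _ (add_le_add hy (h1 z hz))) _
        _ = ∑' z, p⁻¹ * πp z * f fun _ => y j + D + α := by
            rw [ENNReal.tsum_mul_right, ENNReal.tsum_mul_right, mA, mB]
        _ ≤ B f y := by
            refine ENNReal.tsum_le_tsum fun z => ?_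
            by_cases hz : πp z = 0
            · simp [hz]
            · refine mul_le_mul_right ((g0 a m).2 _ _ ?_) _
              have := h2 z hz
              rw [Pi.add_apply]
              omega
    · exact (g0 _ _).1 y'
  have it : ∀ N : ℕ, binE p q k (fun i => B^[i] (A^[k - i] H) fun _ => -a) ≤
      binE p q k (fun i => B^[i] (A^[k - i] H) fun _ => -a - N * D) + N * τ := fun N => by
    induction N with
    | zero => simp
    | succ N ih =>
      rw [Nat.cast_succ (R := ℝ≥0∞), add_mul, one_mul, add_comm _ τ, ← add_assoc]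
      exact ih.trans (add_le_add_left (step _ _ (by push_cast; linarith)) _)
  have fin : binE p q k (fun i => B^[i] (A^[k - i] H) fun _ => -a - N * D) ≠ ⊤ :=
    ne_top_of_le_ne_top ENNReal.one_ne_top
      ((bin_mono zero_le zero_le k fun a _ => (g0 _ _).1 _).trans_eq (bin_const hs' k 1))
  rw [← bin_tau, ← ENNReal.add_le_add_iff_left fin]
  refine le_trans ?_ (it N)
  rw [← hT, ← hT, ← ENNReal.tsum_add]
  refine ENNReal.tsum_le_tsum fun z => ?_
  rw [← mul_add]
  refine mul_le_mul_right ?_ _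
  have : 0 ≤ N * D := by positivity
  simp only [hH, Pi.add_apply]
  split_ifs <;> first | omega | simp

end Vale.Agent.P147
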