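import Vale.Agent.P147.Env

/-! Bridges, sub-weights, concatenation, smoothing calculus. -/

namespace Vale.Agent.P147

open MeasureTheory
open scoped ENNReal Classical

variable {d : ℕ} {μ : Measure (St d → ℝ)} [IsProbabilityMeasure μ]
  {ℓ : V d} {lam : ℤ} {i0 : Fin d}

lemma br_pf (ℓ : V d) (h : ℤ) : PF (Br ℓ h) :=
  (pf_first 0 fun y => h ≤ lev ℓ y).mono fun l hl =>
    ⟨by simpa using hl.2, fun y hy => not_le.2 (hl.1 y hy).2⟩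
lemma br_nil {h : ℤ} (hh : h ≤ 0) : Br ℓ h [] := ⟨by simp, by simpa using hh⟩
lemma Br.eq_nil {h : ℤ} {l : Pa d} (hl : Br ℓ h l) (hh : h ≤ 0) : l = [] := by
  cases l with
  | nil => rfl
  | cons e l => have := hl.1 0 (by simp); simp at this; omega
lemma Br.gain_nonneg {h : ℤ} {l : Pa d} (hl : Br ℓ h l) : 0 ≤ lev ℓ (disp l) := by
  rcases le_or_gt h 0 with hh | hh
  · rw [hl.eq_nil hh]; simp
  · exact hh.le.trans hl.2
lemma Br.gain_lt (hT : Top ℓ lam i0) {h : ℤ} {l : Pa d} (hl : Br ℓ h l) (hh : 0 ≤ h) :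
    lev ℓ (disp l) < h + lam := by
  rcases List.eq_nil_or_concat l with rfl | ⟨a, e, rfl⟩
  · have := hT.1; simp; omega
  · have h1 := (hl.1 (0 + disp a) ((mem_dep_iff _ _ _).2 ⟨a, e, [], by simp, rfl⟩)).2
    have h2 := abs_le.1 (hT.abs_lev_vec_le e)
    simp only [List.concat_eq_append, disp_append, disp_cons, disp_nil, add_zero, lev_add,
      zero_add] at h1 ⊢
    omega
lemma Br.append {h₁ h : ℤ} {a b : Pa d} (ha : Br ℓ h₁ a) (hb : Br ℓ (h - lev ℓ (disp a)) b)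
    (hh : h₁ ≤ h) : Br ℓ h (a ++ b) := by
  refine ⟨fun y hy => ?_, ?_⟩
  · rw [dep_append, Finset.mem_union] at hy
    rcases hy with hy | hy
    · have := ha.1 y hy; omega
    · have := hb.1 _ ((mem_dep_shift _ _ _).1 hy)
      have := ha.gain_nonneg
      simp only [zero_add, lev_sub] at *; omega
  · have := hb.2
    rw [disp_append, lev_add]; omega
lemma Br.disjoint {h₁ h₂ : ℤ} {a b : Pa d} (ha : Br ℓ h₁ a) (hb : Br ℓ h₂ b) :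
    Disjoint (dep 0 a) (dep (disp a) b) := by
  rw [Finset.disjoint_left]
  intro y hy hy'
  have := ha.1 y hy
  have := hb.1 _ ((mem_dep_shift _ _ _).1 hy')
  have := ha.2
  simp only [lev_sub] at *; omega
lemma Br.w_append {h₁ h₂ : ℤ} {a b : Pa d} (ha : Br ℓ h₁ a) (hb : Br ℓ h₂ b) :
    w μ (a ++ b) = w μ a * w μ b :=
  Vale.Agent.P147.w_append (ha.disjoint hb)
/-- first passage of a lower level; the rest need not stay above its own start -/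
lemma Br.exists_init {h₁ h : ℤ} {l : Pa d} (hl : Br ℓ h l) (hh : h₁ ≤ h) :
    ∃ a r, Br ℓ h₁ a ∧ l = a ++ r := by
  obtain ⟨a, r, rfl, h1, h2⟩ := exists_first 0 (fun y => h₁ ≤ lev ℓ y) l
    (Or.inl (by simpa using hh.trans hl.2))
  refine ⟨a, r, ⟨fun y hy => ⟨(hl.1 y ?_).1, not_le.1 (h2 y hy)⟩, by simpa using h1⟩, rfl⟩
  rw [dep_append]; exact Finset.mem_union_left _ hy
lemma exists_straight (hT : Top ℓ lam i0) (h : ℤ) :
    ∃ (b : Bool) (n : ℕ), lev ℓ (vec (i0, b)) = lam ∧ Br ℓ h (List.replicate n (i0, b)) := by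
  obtain ⟨b, hb⟩ := hT.exists_up
  have hex : ∃ n : ℕ, h ≤ n * lam := ⟨h.toNat, by
    have := hT.1
    have h1 : h ≤ h.toNat := Int.self_le_toNat h
    nlinarith [Int.natCast_nonneg h.toNat]⟩
  refine ⟨b, Nat.find hex, hb, fun y hy => ?_, ?_⟩
  · obtain ⟨i, hi, rfl⟩ := (mem_dep_replicate _ _ _ _).1 hy
    have := Nat.find_min hex hi
    have := hT.1
    rw [zero_add, lev_smul, hb]
    exact ⟨by positivity, by omega⟩
  · rw [disp_replicate, lev_smul, hb]; exact Nat.find_spec hex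
lemma U_le_one (hμ : Elliptic μ) (ℓ : V d) (h : ℤ) : U μ ℓ h ≤ 1 := L0w hμ (br_pf ℓ h)
lemma U_anti (hμ : Elliptic μ) (ℓ : V d) {h₁ h : ℤ} (hh : h₁ ≤ h) : U μ ℓ h ≤ U μ ℓ h₁ :=
  ext_le_w hμ (br_pf ℓ h) fun _ hl => hl.exists_init hh
lemma exists_margin (hμ : Elliptic μ) (ℓ : V d) {δ : ℝ≥0∞} (hδ : δ ≠ 0) :
    ∃ K0 : ℤ, 0 < K0 ∧ ∀ K T, K0 ≤ K → K ≤ T → U μ ℓ K ≤ U μ ℓ T + δ := by
  have hfin : (⨅ n : ℕ, U μ ℓ n) ≠ ⊤ :=
    ne_top_of_le_ne_top ENNReal.one_ne_top ((iInf_le _ 0).trans (U_le_one hμ ℓ _))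
  obtain ⟨n, hn⟩ := iInf_lt_iff.1 (ENNReal.lt_add_right hfin hδ)
  refine ⟨n + 1, by omega, fun K T hK hT => (U_anti hμ ℓ (by omega)).trans (hn.le.trans ?_)⟩
  gcongr
  refine (iInf_le _ T.toNat).trans (U_anti hμ ℓ (Int.self_le_toNat T))

lemma Thin.mono {cap cap' : ℤ → ℝ≥0∞} {η : ℝ≥0∞} (h : Thin μ ℓ cap η) (hm : Monotone cap')
    (hle : ∀ h, cap h ≤ cap' h) : Thin μ ℓ cap' η := by
  refine ⟨h.1, hm, fun t => (h.2.2.1 t).trans (hle t), fun t => (h.2.2.2 t).trans ?_⟩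
  refine ENNReal.tsum_le_tsum fun l => ?_
  unfold cb
  split_ifs with h1 h2
  · rfl
  · exact absurd ⟨h1.1, h1.2.trans (hle t)⟩ h2
  · exact zero_le
  · rfl
lemma sub_cb (M : ℝ≥0∞) (h : ℤ) : Sub μ ℓ h (cb μ ℓ M h) := fun l => by
  unfold cb
  split_ifs with h1
  · exact ⟨le_rfl, fun _ => h1.1⟩
  · simp
lemma capd_cb (M : ℝ≥0∞) (h : ℤ) : Capd (cb μ ℓ M h) M := fun l => by
  unfold cb
  split_ifs with h1
  · exact fun _ => h1.2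
  · simp
lemma Sub.mono {h : ℤ} {m m' : Pa d → ℝ≥0∞} (hm : Sub μ ℓ h m) (hle : ∀ l, m' l ≤ m l) :
    Sub μ ℓ h m' := fun l =>
  ⟨(hle l).trans (hm l).1, fun h0 => (hm l).2 fun h1 => h0 (le_antisymm (h1 ▸ hle l) zero_le)⟩
lemma Sub.le_cb {h : ℤ} {m : Pa d → ℝ≥0∞} {M : ℝ≥0∞} (hm : Sub μ ℓ h m) (hc : Capd m M)
    (l : Pa d) : m l ≤ cb μ ℓ M h l := by
  by_cases h0 : m l = 0
  · simp [h0]
  · rw [cb, if_pos ⟨(hm l).2 h0, hc l h0⟩]; exact (hm l).1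
lemma Sub.mass_le_one (hμ : Elliptic μ) {h : ℤ} {m : Pa d → ℝ≥0∞} (hm : Sub μ ℓ h m) :
    ∑' l, m l ≤ 1 := by
  refine le_trans (ENNReal.tsum_le_tsum fun l => ?_) (U_le_one hμ ℓ h)
  by_cases h0 : m l = 0
  · simp [h0]
  · rw [if_pos ((hm l).2 h0)]; exact (hm l).1
lemma Thin.le_one (hμ : Elliptic μ) {cap : ℤ → ℝ≥0∞} {η : ℝ≥0∞} (h : Thin μ ℓ cap η) :
    η ≤ 1 := (h.2.2.2 0).trans ((sub_cb _ _).mass_le_one hμ)
/-- truncation in length keeps half of the mass -/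
lemma exists_trunc {m : Pa d → ℝ≥0∞} {c : ℝ≥0∞} (hc : c ≠ ⊤) (hm : c ≤ ∑' l, m l) :
    ∃ ρ0 : ℕ, ∀ ρ, ρ0 ≤ ρ → c / 2 ≤ ∑' l, if l.length ≤ ρ then m l else 0 := by
  by_cases h0 : c = 0
  · exact ⟨0, fun _ _ => by simp [h0]⟩
  have := (ENNReal.half_lt_self h0 hc).trans_le hm
  rw [ENNReal.tsum_eq_iSup_sum, lt_iSup_iff] at this
  obtain ⟨s, hs⟩ := this
  refine ⟨s.sup List.length, fun ρ hρ => hs.le.trans ?_⟩
  refine le_trans (Finset.sum_le_sum fun l hl => ?_) (ENNReal.sum_le_tsum s)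
  have : l.length ≤ ρ := (Finset.le_sup (f := List.length) hl).trans hρ
  simp [this]

lemma tsum_star (m₁ : Pa d → ℝ≥0∞) (m₂ : ℤ → Pa d → ℝ≥0∞) (F : Pa d → ℝ≥0∞) :
    ∑' l, star ℓ m₁ m₂ l * F l =
      ∑' a, m₁ a * ∑' b, m₂ (lev ℓ (disp a)) b * F (a ++ b) := by
  simp only [star, ← ENNReal.tsum_mul_right, ← ENNReal.tsum_mul_left]
  rw [ENNReal.tsum_comm, ENNReal.tsum_prod']
  refine tsum_congr fun a => tsum_congr fun b => ?_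
  rw [tsum_eq_single (a ++ b)]
  · simp [mul_assoc]
  · intro l hl; simp [Ne.symm hl]
lemma star_ne_zero {m₁ : Pa d → ℝ≥0∞} {m₂ : ℤ → Pa d → ℝ≥0∞} {l : Pa d}
    (h : star ℓ m₁ m₂ l ≠ 0) :
    ∃ a b, l = a ++ b ∧ m₁ a ≠ 0 ∧ m₂ (lev ℓ (disp a)) b ≠ 0 := by
  by_contra hc
  refine h (ENNReal.tsum_eq_zero.2 fun p => ?_)
  split_ifs with hp
  · by_contra h0
    exact hc ⟨p.1, p.2, hp.symm, left_ne_zero_of_mul h0, right_ne_zero_of_mul h0⟩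
  · rfl
lemma sub_star {h₁ h : ℤ} {m₁ : Pa d → ℝ≥0∞} {m₂ : ℤ → Pa d → ℝ≥0∞} (h1 : Sub μ ℓ h₁ m₁)
    (h2 : ∀ a, m₁ a ≠ 0 → Sub μ ℓ (h - lev ℓ (disp a)) (m₂ (lev ℓ (disp a)))) (hh : h₁ ≤ h) :
    Sub μ ℓ h (star ℓ m₁ m₂) := by
  intro l
  by_cases h0 : star ℓ m₁ m₂ l = 0
  · simp [h0]
  obtain ⟨a, b, rfl, ha, hb⟩ := star_ne_zero h0
  have hA := (h1 a).2 ha
  have hB := (h2 a ha b).2 hb
  refine ⟨?_, fun _ => hA.append hB hh⟩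
  rw [star, tsum_eq_single (a, b), if_pos rfl, hA.w_append hB]
  · exact mul_le_mul' (h1 a).1 (h2 a ha b).1
  · intro p hp
    split_ifs with he
    · by_contra h3
      have e1 := (br_pf ℓ h₁).unique ((h1 _).2 (left_ne_zero_of_mul h3)) hA he
      exact hp (Prod.ext e1 (by rw [e1] at he; exact List.append_cancel_left he))
    · rfl
lemma mass_star {m₁ : Pa d → ℝ≥0∞} {m₂ : ℤ → Pa d → ℝ≥0∞} {c₁ c₂ : ℝ≥0∞}
    (h1 : c₁ ≤ ∑' l, m₁ l) (h2 : ∀ a, m₁ a ≠ 0 → c₂ ≤ ∑' l, m₂ (lev ℓ (disp a)) l) :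
    c₁ * c₂ ≤ ∑' l, star ℓ m₁ m₂ l := by
  have := tsum_star (ℓ := ℓ) m₁ m₂ fun _ => 1
  simp only [mul_one] at this
  rw [this]
  refine (mul_le_mul_left h1 _).trans ?_
  rw [← ENNReal.tsum_mul_right]
  refine ENNReal.tsum_le_tsum fun a => ?_
  by_cases h0 : m₁ a = 0
  · simp [h0]
  · exact mul_le_mul_right (h2 a h0) _
lemma capd_star {m₁ : Pa d → ℝ≥0∞} {m₂ : ℤ → Pa d → ℝ≥0∞} {M₁ M₂ : ℝ≥0∞}
    (h1 : Capd m₁ M₁) (h2 : ∀ a, m₁ a ≠ 0 → Capd (m₂ (lev ℓ (disp a))) M₂) :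
    Capd (star ℓ m₁ m₂) (M₁ + M₂) := fun l hl => by
  obtain ⟨a, b, rfl, ha, hb⟩ := star_ne_zero hl
  exact (sz_append_le a b).trans (add_le_add (h1 a ha) (h2 a ha b hb))

lemma tsum_dlt (F : V d → ℝ≥0∞) : ∑' z, dlt z * F z = F 0 := by
  rw [tsum_eq_single 0]
  · simp [dlt]
  · intro z hz; simp [dlt, hz]
lemma tsum_conv (ν₁ ν₂ F : V d → ℝ≥0∞) :
    ∑' z, conv ν₁ ν₂ z * F z = ∑' y, ν₁ y * ∑' z, ν₂ z * F (y + z) := by
  simp only [conv, ← ENNReal.tsum_mul_right, ← ENNReal.tsum_mul_left]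
  rw [ENNReal.tsum_comm]
  refine tsum_congr fun y => ?_
  rw [← (Equiv.addLeft y).tsum_eq]
  simp [mul_assoc]
lemma conv_ne_zero {ν₁ ν₂ : V d → ℝ≥0∞} {z : V d} (h : conv ν₁ ν₂ z ≠ 0) :
    ∃ y, ν₁ y ≠ 0 ∧ ν₂ (z - y) ≠ 0 := by
  by_contra hc
  refine h (ENNReal.tsum_eq_zero.2 fun y => ?_)
  by_contra h0
  exact hc ⟨y, left_ne_zero_of_mul h0, right_ne_zero_of_mul h0⟩
lemma sm_neg {m : Pa d → ℝ≥0∞} {ν : V d → ℝ≥0∞} {ε : ℝ≥0∞} : Sm (-ℓ) m ν ε ↔ Sm ℓ m ν ε := by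
  simp [Sm, lev_neg]
lemma sm_dlt {m : Pa d → ℝ≥0∞} (hm : ∑' l, m l ≤ 1) : Sm ℓ m dlt 0 := by
  refine ⟨fun z hz => ?_, ?_, fun F _ x B hB => ?_⟩
  · have : z = 0 := by by_contra h; simp [dlt, h] at hz
    simp [this]
  · simpa using (tsum_dlt (d := d) fun _ => 1).le
  · simp only [tsum_dlt, add_zero] at hB ⊢
    refine (ENNReal.tsum_le_tsum fun l => mul_le_mul_right (hB _) _).trans ?_
    rw [ENNReal.tsum_mul_right]
    exact mul_le_of_le_one_left' hm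
lemma Sm.mono {m : Pa d → ℝ≥0∞} {ν : V d → ℝ≥0∞} {ε ε' : ℝ≥0∞} (h : Sm ℓ m ν ε) (hε : ε ≤ ε') :
    Sm ℓ m ν ε' :=
  ⟨h.1, h.2.1, fun F hF x B hB => (h.2.2 F hF x B hB).trans (by gcongr)⟩
lemma avg_le {α : Type*} {m : α → ℝ≥0∞} (hm : ∑' l, m l ≤ 1) {G : α → ℝ≥0∞} {B : ℝ≥0∞}
    (hG : ∀ l, m l ≠ 0 → G l ≤ B) : ∑' l, m l * G l ≤ B := by
  refine le_trans (ENNReal.tsum_le_tsum (g := fun l => m l * B) fun l => ?_) ?_
  · by_cases h0 : m l = 0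
    · simp [h0]
    · exact mul_le_mul_right (hG l h0) _
  · rw [ENNReal.tsum_mul_right]
    exact mul_le_of_le_one_left' hm
/-- composition of smoothings -/
lemma sm_star {m₁ : Pa d → ℝ≥0∞} {m₂ : ℤ → Pa d → ℝ≥0∞} {ν₁ ν₂ : V d → ℝ≥0∞} {ε₁ ε₂ : ℝ≥0∞}
    (h1 : Sm ℓ m₁ ν₁ ε₁) (hν₂ : (∀ z, ν₂ z ≠ 0 → lev ℓ z = 0) ∧ ∑' z, ν₂ z ≤ 1)
    (h2 : ∀ a, m₁ a ≠ 0 → Sm ℓ (m₂ (lev ℓ (disp a))) ν₂ ε₂ ∧ ∑' l, m₂ (lev ℓ (disp a)) l ≤ 1) :
    Sm ℓ (star ℓ m₁ m₂) (conv ν₁ ν₂) (ε₁ + ε₂) := by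
  refine ⟨fun z hz => ?_, ?_, fun F hF x B hB => ?_⟩
  · obtain ⟨y, hy, hy'⟩ := conv_ne_zero hz
    have := h1.1 y hy
    have := hν₂.1 _ hy'
    rw [lev_sub] at this; omega
  · have := tsum_conv ν₁ ν₂ fun _ => 1
    simp only [mul_one] at this
    rw [this]
    exact avg_le h1.2.1 fun _ _ => hν₂.2
  · let good : ℤ → Prop := fun g => ∃ a, m₁ a ≠ 0 ∧ lev ℓ (disp a) = g
    let G : V d → ℝ≥0∞ := fun y =>
      if good (lev ℓ (y - x)) then ∑' b, m₂ (lev ℓ (y - x)) b * F (y + disp b) else 0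
    have hG1 : ∀ y, G y ≤ 1 := fun y => by
      simp only [G]
      split_ifs with hg
      · obtain ⟨a, ha, he⟩ := hg
        rw [← he]
        exact avg_le (h2 a ha).2 fun _ _ => hF _
      · exact zero_le
    have hG2 : ∀ y, ∑' z, ν₁ z * G (y + z) ≤ B + ε₂ := fun y => by
      have he : ∀ z, ν₁ z * G (y + z) = ν₁ z * (if good (lev ℓ (y - x)) then
          ∑' b, m₂ (lev ℓ (y - x)) b * F (y + disp b + z) else 0) := fun z => by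
        by_cases h0 : ν₁ z = 0
        · simp [h0]
        · have : lev ℓ (y + z - x) = lev ℓ (y - x) := by
            rw [lev_sub, lev_sub, lev_add, h1.1 z h0, add_zero]
          simp only [G, this, add_right_comm y z]
      simp only [he]
      split_ifs with hg
      · obtain ⟨a, ha, he⟩ := hg
        rw [← he]
        refine le_trans (le_of_eq ?_) ((h2 a ha).1.2.2 (fun y => ∑' z, ν₁ z * F (y + z))
          (fun _ => avg_le h1.2.1 fun _ _ => hF _) y B fun y' => ?_)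
        · simp only [← ENNReal.tsum_mul_left]
          rw [ENNReal.tsum_comm]
          exact tsum_congr fun _ => tsum_congr fun _ => mul_left_comm _ _ _
        · refine le_trans (le_of_eq ?_) (hB y')
          rw [tsum_conv ν₁ ν₂ fun z => F (y' + z)]
          simp only [← ENNReal.tsum_mul_left]
          rw [ENNReal.tsum_comm]
          refine tsum_congr fun u => tsum_congr fun v => ?_
          rw [mul_left_comm, add_assoc, add_comm v u]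
      · simp
    rw [tsum_star m₁ m₂ fun l => F (x + disp l)]
    refine le_trans (ENNReal.tsum_le_tsum fun a => ?_)
      ((h1.2.2 G hG1 x _ hG2).trans (le_of_eq (by ring)))
    by_cases h0 : m₁ a = 0
    · simp [h0]
    · have : good (lev ℓ (disp a)) := ⟨a, h0, rfl⟩
      simp [G, this, add_assoc]
lemma conv_dlt_right (ν : V d → ℝ≥0∞) : conv ν dlt = ν := by
  funext z
  rw [conv, tsum_eq_single z]
  · simp [dlt]
  · intro y hy; simp [dlt, sub_eq_zero, Ne.symm hy]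
lemma conv_dlt_left (ν : V d → ℝ≥0∞) : conv dlt ν = ν := by
  funext z
  rw [conv, tsum_dlt fun y => ν (z - y), sub_zero]
lemma sm_star_left {m₁ : Pa d → ℝ≥0∞} {m₂ : ℤ → Pa d → ℝ≥0∞} {ν : V d → ℝ≥0∞} {ε : ℝ≥0∞}
    (h1 : Sm ℓ m₁ ν ε) (h2 : ∀ a, m₁ a ≠ 0 → ∑' l, m₂ (lev ℓ (disp a)) l ≤ 1) :
    Sm ℓ (star ℓ m₁ m₂) ν ε := by
  have h0 := sm_dlt (ℓ := ℓ) (m := fun _ : Pa d => 0) (by simp)
  have := sm_star h1 ⟨h0.1, h0.2.1⟩ fun a ha => ⟨sm_dlt (h2 a ha), h2 a ha⟩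
  rwa [conv_dlt_right, add_zero] at this
lemma sm_star_right {m₁ : Pa d → ℝ≥0∞} {m₂ : ℤ → Pa d → ℝ≥0∞} {ν : V d → ℝ≥0∞} {ε : ℝ≥0∞}
    (h1 : ∑' l, m₁ l ≤ 1) (hν : (∀ z, ν z ≠ 0 → lev ℓ z = 0) ∧ ∑' z, ν z ≤ 1)
    (h2 : ∀ a, m₁ a ≠ 0 → Sm ℓ (m₂ (lev ℓ (disp a))) ν ε) :
    Sm ℓ (star ℓ m₁ m₂) ν ε := by
  refine ⟨hν.1, hν.2, fun F hF x B hB => ?_⟩
  rw [tsum_star m₁ m₂ fun l => F (x + disp l)]
  refine avg_le h1 fun a ha => ?_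
  simpa [add_assoc] using (h2 a ha).2.2 F hF (x + disp a) B hB

end Vale.Agent.P147
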