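import Vale.Agent.P147.Br

/-! The chain of windows. -/

namespace Vale.Agent.P147

open MeasureTheory
open scoped ENNReal Classical

variable {d : ℕ} {μ : Measure (St d → ℝ)} [IsProbabilityMeasure μ]
  {ℓ : V d} {lam : ℤ} {i0 : Fin d}

/-- image of a weight -/
noncomputable def chainPush {α β : Type} (φ : β → α) (G : β → ℝ≥0∞) (a : α) : ℝ≥0∞ :=
  ∑' b, if φ b = a then G b else 0

lemma chain_push_sum {α β : Type} (φ : β → α) (G : β → ℝ≥0∞) (F : α → ℝ≥0∞) :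
    ∑' a, chainPush φ G a * F a = ∑' b, G b * F (φ b) := by
  simp only [chainPush, ← ENNReal.tsum_mul_right]
  rw [ENNReal.tsum_comm]
  refine tsum_congr fun b => ?_
  rw [tsum_eq_single (φ b) fun a ha => by rw [if_neg (Ne.symm ha), zero_mul], if_pos rfl]

lemma chain_push_ne {α β : Type} {φ : β → α} {G : β → ℝ≥0∞} {a : α}
    (h : chainPush φ G a ≠ 0) : ∃ b, φ b = a ∧ G b ≠ 0 := by
  by_contra hne
  refine h (ENNReal.tsum_eq_zero.2 fun b => ?_)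
  split_ifs with h1
  · by_contra h2
    exact hne ⟨b, h1, h2⟩
  · rfl

lemma chain_push_le {α β : Type} {φ : β → α} {G : β → ℝ≥0∞} {f : α → ℝ≥0∞}
    (hφ : ∀ b b', G b ≠ 0 → G b' ≠ 0 → φ b = φ b' → b = b') (h : ∀ b, G b ≤ f (φ b)) (a : α) :
    chainPush φ G a ≤ f a := by
  by_cases h0 : chainPush φ G a = 0
  · simp [h0]
  obtain ⟨b, rfl, hb⟩ := chain_push_ne h0
  rw [chainPush, tsum_eq_single b, if_pos rfl]
  · exact h b
  · intro b' hb'
    split_ifs with h1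
    · by_contra h2
      exact hb' (hφ _ _ h2 hb h1)
    · rfl

/-- an up-path followed by a down-path that stops below the starting level -/
def chainSh (ℓ : V d) (p : Pa d × Pa d) : Prop :=
  Br ℓ (lev ℓ (disp p.1)) p.1 ∧ Br (-ℓ) (lev ℓ (disp p.1) + 1) p.2

/-- endpoint -/
def chainV (p : Pa d × Pa d) : V d := disp p.1 + disp p.2

lemma chain_v {p : Pa d × Pa d} (hT : Top ℓ lam i0) (h : chainSh ℓ p) :
    -lam ≤ lev ℓ (chainV p) ∧ lev ℓ (chainV p) < 0 := by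
  have h1 := h.2.gain_lt hT.neg (by linarith [h.1.gain_nonneg])
  have h2 := h.2.2
  rw [lev_neg] at h1 h2
  rw [chainV, lev_add]
  constructor <;> linarith

lemma chain_dep {p : Pa d × Pa d} (h : chainSh ℓ p) {y : V d} (hy : y ∈ dep 0 (p.1 ++ p.2)) :
    0 ≤ lev ℓ y ∧ lev ℓ y ≤ lev ℓ (disp p.1) := by
  rw [dep_append, Finset.mem_union, zero_add] at hy
  rcases hy with hy | hy
  · exact ⟨(h.1.1 y hy).1, (h.1.1 y hy).2.le⟩
  · have := h.2.1 _ ((mem_dep_shift _ _ _).1 hy)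
    rw [lev_neg, lev_sub] at this
    constructor <;> linarith

lemma chain_top {p : Pa d × Pa d} (h : chainSh ℓ p) : disp p.1 ∈ dep 0 (p.1 ++ p.2) := by
  obtain ⟨a, b⟩ := p
  cases b with
  | nil =>
    have h1 := h.2.2
    have h2 := h.1.gain_nonneg
    simp only [disp_nil, lev_zero] at h1 h2
    linarith
  | cons e b => simp [dep_append]

lemma chain_mass (hμ : Elliptic μ) (hT : Top ℓ lam i0) :
    ∑' p : Pa d × Pa d, (if chainSh ℓ p then w μ (p.1 ++ p.2) else 0) ≤ 1 := by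
  refine le_trans ?_ (L0w hμ (pf_first 0 fun y => lev ℓ y < 0))
  have hs : ∀ p : Pa d × Pa d, (if chainSh ℓ p then w μ (p.1 ++ p.2) else 0) ≠ 0 →
      chainSh ℓ p := fun p hp => by
    by_contra h
    exact hp (if_neg h)
  have h1 := chain_push_sum (fun p : Pa d × Pa d => p.1 ++ p.2)
    (fun p => if chainSh ℓ p then w μ (p.1 ++ p.2) else 0) fun _ => 1
  simp only [mul_one] at h1
  rw [← h1]
  refine ENNReal.tsum_le_tsum (chain_push_le (fun p p' hp hp' e => ?_) fun p => ?_)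
  · have h2 := hs p hp
    have h3 := hs p' hp'
    have h4 : lev ℓ (disp p.1) = lev ℓ (disp p'.1) :=
      le_antisymm (chain_dep h3 (e ▸ chain_top h2)).2 (chain_dep h2 (e ▸ chain_top h3)).2
    have h5 := (br_pf ℓ _).unique h2.1 (h4 ▸ h3.1) e
    rw [h5] at e
    exact Prod.ext h5 (List.append_cancel_left e)
  · by_cases hp : chainSh ℓ p
    · rw [if_pos hp, if_pos]
      refine ⟨?_, fun y hy => not_lt.2 (chain_dep hp hy).1⟩
      rw [zero_add, disp_append]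
      exact (chain_v hT hp).2
    · simp [hp]

/-- domination, shape and range of the gain -/
def chainGood (μ : Measure (St d → ℝ)) (ℓ : V d) (Φ : Pa d × Pa d → ℝ≥0∞) (S : ℤ) (E : ℕ) : Prop :=
  ∀ p, Φ p ≤ w μ (p.1 ++ p.2) ∧
    (Φ p ≠ 0 → chainSh ℓ p ∧ S ≤ lev ℓ (disp p.1) ∧ lev ℓ (disp p.1) ≤ S + E)

omit [IsProbabilityMeasure μ] in
lemma chainGood.le {Φ : Pa d × Pa d → ℝ≥0∞} {S : ℤ} {E : ℕ} (h : chainGood μ ℓ Φ S E)
    (p : Pa d × Pa d) : Φ p ≤ if chainSh ℓ p then w μ (p.1 ++ p.2) else 0 := by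
  by_cases h0 : Φ p = 0
  · simp [h0]
  · rw [if_pos ((h p).2 h0).1]
    exact (h p).1

lemma chainGood.ne_top (hμ : Elliptic μ) (hT : Top ℓ lam i0) {Φ : Pa d × Pa d → ℝ≥0∞} {S : ℤ}
    {E : ℕ} (h : chainGood μ ℓ Φ S E) : ∑' p, Φ p ≠ ⊤ :=
  ne_top_of_le_ne_top ENNReal.one_ne_top ((ENNReal.tsum_le_tsum h.le).trans (chain_mass hμ hT))

/-- weight of one more window -/
noncomputable def chainG (ℓ : V d) (mX : Pa d → ℝ≥0∞) (mY : ℤ → Pa d → ℝ≥0∞)
    (Φ : Pa d × Pa d → ℝ≥0∞) (x : (Pa d × Pa d) × Pa d × Pa d) : ℝ≥0∞ :=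
  Φ x.1 * (mX x.2.1 * (mY (lev ℓ (chainV x.1 + disp x.2.1) + 1) x.2.2 *
    if Hit x.2.1 (chainV x.1 + disp x.2.1) x.2.2 then 0 else 1))

/-- one more window -/
noncomputable def chainStep (ℓ : V d) (mX : Pa d → ℝ≥0∞) (mY : ℤ → Pa d → ℝ≥0∞)
    (Φ : Pa d × Pa d → ℝ≥0∞) : Pa d × Pa d → ℝ≥0∞ :=
  chainPush (fun x => (x.2.1 ++ x.1.1, x.1.2 ++ x.2.2)) (chainG ℓ mX mY Φ)

lemma chain_step_sum (mX : Pa d → ℝ≥0∞) (mY : ℤ → Pa d → ℝ≥0∞) (Φ : Pa d × Pa d → ℝ≥0∞)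
    (F : V d → ℝ≥0∞) : ∑' p, chainStep ℓ mX mY Φ p * F (chainV p) =
      ∑' p, Φ p * ∑' β, mX β * ∑' γ, mY (lev ℓ (chainV p + disp β) + 1) γ *
        ((if Hit β (chainV p + disp β) γ then 0 else 1) * F (chainV p + disp β + disp γ)) := by
  rw [chainStep, chain_push_sum, ENNReal.tsum_prod']
  refine tsum_congr fun p => ?_
  rw [ENNReal.tsum_prod', ← ENNReal.tsum_mul_left]
  refine tsum_congr fun β => ?_
  rw [← ENNReal.tsum_mul_left, ← ENNReal.tsum_mul_left]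
  refine tsum_congr fun γ => ?_
  have : chainV (β ++ p.1, p.2 ++ γ) = chainV p + disp β + disp γ := by
    simp only [chainV, disp_append]
    abel
  simp only [chainG, this, mul_assoc]

lemma chain_range (hT : Top ℓ lam i0) {p : Pa d × Pa d} (hp : chainSh ℓ p) {n C0 : ℕ} {h : ℤ}
    (hn : (n : ℤ) ≤ h) (hn' : h ≤ n + C0) {β : Pa d} (hβ : Br ℓ h β) :
    (n : ℤ) - lam ≤ lev ℓ (chainV p + disp β) + 1 ∧
      lev ℓ (chainV p + disp β) + 1 ≤ n + C0 + lam := by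
  have h1 := chain_v hT hp
  have h2 := hβ.2
  have h3 := hβ.gain_lt hT (le_trans (Nat.cast_nonneg n) hn)
  rw [lev_add]
  constructor <;> linarith

lemma chain_weight (hT : Top ℓ lam i0) {p : Pa d × Pa d} (hp : chainSh ℓ p) {h t : ℤ}
    {β γ : Pa d} (hβ : Br ℓ h β) (hγ : Br (-ℓ) t γ) (hH : ¬ Hit β (chainV p + disp β) γ) :
    w μ (β ++ p.1 ++ (p.2 ++ γ)) = w μ (p.1 ++ p.2) * (w μ β * w μ γ) := by
  have k1 : ∀ y ∈ dep 0 β, lev ℓ y < lev ℓ (disp β) := fun y hy => (hβ.1 y hy).2.trans_le hβ.2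
  have k2 : ∀ y ∈ dep (disp β) (p.1 ++ p.2), lev ℓ (disp β) ≤ lev ℓ y := fun y hy => by
    have := (chain_dep hp ((mem_dep_shift _ _ _).1 hy)).1
    rw [lev_sub] at this
    linarith
  have k3 : ∀ y ∈ dep (chainV p + disp β) γ, lev ℓ y < lev ℓ (disp β) := fun y hy => by
    have := (hγ.1 _ ((mem_dep_shift _ _ _).1 hy)).1
    rw [lev_neg, lev_sub, lev_add] at this
    linarith [(chain_v hT hp).2]
  have := indep3 (μ := μ) (x := 0) (y := disp β) (z := chainV p + disp β) (a := β)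
    (b := p.1 ++ p.2) (c := γ)
    (Finset.disjoint_left.2 fun y h1 h2 => (k1 y h1).not_ge (k2 y h2))
    (Finset.disjoint_left.2 fun y h1 h2 => hH ⟨y, h1, h2⟩)
    (Finset.disjoint_left.2 fun y h1 h2 => (k3 y h2).not_ge (k2 y h1))
  rw [mul_left_comm, ← mul_assoc, ← this, w]
  refine lintegral_congr fun ω => ?_
  rw [show β ++ p.1 ++ (p.2 ++ γ) = β ++ (p.1 ++ p.2) ++ γ by simp, q_append, q_append, zero_add,
    zero_add, disp_append, disp_append, add_comm (disp β)]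
  rfl

section

variable {n C0 : ℕ} {h : ℤ} {mX : Pa d → ℝ≥0∞} {mY : ℤ → Pa d → ℝ≥0∞}
  {Φ : Pa d × Pa d → ℝ≥0∞} {S : ℤ} {E : ℕ}

lemma chain_good (hT : Top ℓ lam i0) {L : ℕ} (hL : (L : ℤ) = C0 + lam) (hn : (n : ℤ) ≤ h)
    (hn' : h ≤ n + C0) (hX : Sub μ ℓ h mX)
    (hY : ∀ t, (n : ℤ) - lam ≤ t → t ≤ n + C0 + lam → Sub μ (-ℓ) t (mY t))
    (hΦ : chainGood μ ℓ Φ S E) : chainGood μ ℓ (chainStep ℓ mX mY Φ) (S + n) (E + L) := by
  have supp : ∀ x, chainG ℓ mX mY Φ x ≠ 0 → Φ x.1 ≠ 0 ∧ Br ℓ h x.2.1 ∧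
      Br (-ℓ) (lev ℓ (chainV x.1 + disp x.2.1) + 1) x.2.2 ∧
      ¬ Hit x.2.1 (chainV x.1 + disp x.2.1) x.2.2 := by
    intro x hx
    simp only [chainG, mul_ne_zero_iff] at hx
    obtain ⟨h1, h2, h3, h4⟩ := hx
    have h5 := (hX _).2 h2
    have h6 := chain_range hT ((hΦ _).2 h1).1 hn hn' h5
    exact ⟨h1, h5, (hY _ h6.1 h6.2 _).2 h3, fun hH => h4 (if_pos hH)⟩
  intro p'
  refine ⟨chain_push_le (f := fun p : Pa d × Pa d => w μ (p.1 ++ p.2)) ?_ ?_ p', fun h0 => ?_⟩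
  · rintro ⟨⟨a, b⟩, β, γ⟩ ⟨⟨a', b'⟩, β', γ'⟩ hx hx' e
    obtain ⟨h1, h2, -, -⟩ := supp _ hx
    obtain ⟨h1', h2', -, -⟩ := supp _ hx'
    obtain ⟨e1, e2⟩ := Prod.mk.inj e
    dsimp only at *
    obtain rfl := (br_pf ℓ _).unique h2 h2' e1
    obtain rfl := List.append_cancel_left e1
    obtain rfl := (br_pf (-ℓ) _).unique ((hΦ _).2 h1).1.2 ((hΦ _).2 h1').1.2 e2
    rw [List.append_cancel_left e2]
  · intro x
    by_cases hx : chainG ℓ mX mY Φ x = 0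
    · simp [hx]
    obtain ⟨h1, h2, h3, h4⟩ := supp _ hx
    have h5 := ((hΦ _).2 h1).1
    have h6 := chain_range hT h5 hn hn' h2
    dsimp only
    rw [chain_weight hT h5 h2 h3 h4, chainG, if_neg h4, mul_one]
    exact mul_le_mul' (hΦ _).1 (mul_le_mul' (hX _).1 (hY _ h6.1 h6.2 _).1)
  · obtain ⟨x, rfl, hx⟩ := chain_push_ne h0
    obtain ⟨h1, h2, h3, -⟩ := supp _ hx
    obtain ⟨h5, h6, h7⟩ := (hΦ _).2 h1
    have h8 := h2.2
    have h9 := h2.gain_lt hT (le_trans (Nat.cast_nonneg n) hn)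
    have h10 := h5.1.gain_nonneg
    have h11 := h2.gain_nonneg
    simp only [chainSh, disp_append, lev_add]
    refine ⟨⟨h2.append (by simpa using h5.1) (by linarith), h5.2.append ?_ (by linarith)⟩,
      by linarith, by push_cast; linarith⟩
    rw [chainV, lev_add, lev_add] at h3
    rwa [lev_neg, show lev ℓ (disp x.2.1) + lev ℓ (disp x.1.1) + 1 - -lev ℓ (disp x.1.2) =
      lev ℓ (disp x.1.1) + lev ℓ (disp x.1.2) + lev ℓ (disp x.2.1) + 1 by ring]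

omit [IsProbabilityMeasure μ] in
lemma chain_lower (hT : Top ℓ lam i0) {c : ℝ≥0∞} (hn : (n : ℤ) ≤ h)
    (hn' : h ≤ n + C0) (hX : Sub μ ℓ h mX) (hX' : c ≤ ∑' l, mX l)
    (hY : ∀ t, (n : ℤ) - lam ≤ t → t ≤ n + C0 + lam → c ≤ ∑' l, mY t l)
    (hΦ : chainGood μ ℓ Φ S E) : c ^ 2 * ∑' p, Φ p ≤
      ∑' p, chainStep ℓ mX mY Φ p + ∑' p, Φ p * loss ℓ lam mX mY (chainV p) := by
  have h1 := chain_step_sum (ℓ := ℓ) mX mY Φ fun _ => 1
  simp only [mul_one] at h1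
  rw [h1, ← ENNReal.tsum_add, ← ENNReal.tsum_mul_left]
  refine ENNReal.tsum_le_tsum fun p => ?_
  by_cases h0 : Φ p = 0
  · simp [h0]
  have hp := ((hΦ p).2 h0).1
  rw [← mul_add, mul_comm, loss, if_pos (chain_v hT hp), ← ENNReal.tsum_add]
  refine mul_le_mul_right ?_ _
  calc c ^ 2 ≤ ∑' β, mX β * c := by
        rw [ENNReal.tsum_mul_right, sq]
        exact mul_le_mul_left hX' _
    _ ≤ _ := by
        refine ENNReal.tsum_le_tsum fun β => ?_
        by_cases hβ : mX β = 0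
        · simp [hβ]
        have h2 := chain_range hT hp hn hn' ((hX β).2 hβ)
        rw [← mul_add, ← ENNReal.tsum_add]
        refine mul_le_mul_right ((hY _ h2.1 h2.2).trans (ENNReal.tsum_le_tsum fun γ => ?_)) _
        split_ifs <;> simp

lemma chain_upper (hμ : Elliptic μ) (hT : Top ℓ lam i0) {B : ℝ≥0∞} (hn : (n : ℤ) ≤ h)
    (hn' : h ≤ n + C0) (hX : Sub μ ℓ h mX) (F : V d → ℝ≥0∞)
    (hY : ∀ t x, (n : ℤ) - lam ≤ t → t ≤ n + C0 + lam → ∑' γ, mY t γ * F (x + disp γ) ≤ B)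
    (hΦ : chainGood μ ℓ Φ S E) :
    ∑' p, chainStep ℓ mX mY Φ p * F (chainV p) ≤ B * ∑' p, Φ p := by
  rw [chain_step_sum, ← ENNReal.tsum_mul_left]
  refine ENNReal.tsum_le_tsum fun p => ?_
  by_cases h0 : Φ p = 0
  · simp [h0]
  rw [mul_comm B]
  refine mul_le_mul_right (avg_le (hX.mass_le_one hμ) fun β hβ => ?_) _
  have h2 := chain_range hT ((hΦ p).2 h0).1 hn hn' ((hX β).2 hβ)
  refine le_trans (ENNReal.tsum_le_tsum fun γ => ?_) (hY _ (chainV p + disp β) h2.1 h2.2)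
  split_ifs <;> simp

end

lemma chain_half {c m m' x : ℝ≥0∞} (hc : c ≤ 1) (hm : m ≠ ⊤) (h1 : c ^ 2 * m ≤ m' + x)
    (h2 : x ≤ c ^ 2 / 2 * m) : c ^ 2 / 2 * m ≤ m' := by
  have h3 : c ^ 2 / 2 * m ≠ ⊤ := ENNReal.mul_ne_top (ENNReal.div_ne_top
    (ENNReal.pow_ne_top (ne_top_of_le_ne_top ENNReal.one_ne_top hc)) two_ne_zero) hm
  have h4 := h1.trans (add_le_add_right h2 m')
  nth_rw 1 [← ENNReal.add_halves (c ^ 2), add_mul] at h4
  exact (ENNReal.add_le_add_iff_right h3).1 h4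

lemma chain_const (c : ℝ≥0∞) : c ^ 4 / 8 = c ^ 2 / 2 * (c / 2) ^ 2 := by
  have : (8 : ℝ≥0∞)⁻¹ = 2⁻¹ * 2⁻¹ * 2⁻¹ := by
    rw [← ENNReal.mul_inv (by simp) (by simp), ← ENNReal.mul_inv (by simp) (by simp)]
    norm_num
  simp only [div_eq_mul_inv, this]
  ring

lemma chain_const' (c : ℝ≥0∞) : (c / 2) ^ 2 ≤ c ^ 2 / 2 := by
  simp only [div_eq_mul_inv, mul_pow]
  refine mul_le_mul_right ?_ _
  rw [sq]
  exact mul_le_of_le_one_right' (by simp)

lemma chain_start (hd : 2 ≤ d) (hT : Top ℓ lam i0) (D : ℕ) :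
    ∃ (p : Pa d × Pa d) (j : Fin d), chainSh ℓ p ∧ |chainV p j| = D := by
  obtain ⟨j, hj⟩ : ∃ j : Fin d, j ≠ i0 := by
    have : Nontrivial (Fin d) := Fin.nontrivial_iff_two_le.2 hd
    exact exists_ne i0
  obtain ⟨b, hb⟩ := hT.exists_up
  obtain ⟨b', hb'⟩ : ∃ b' : Bool, 0 ≤ lev (-ℓ) (vec (j, b')) := by
    rcases le_total 0 (ℓ j) with h | h
    · exact ⟨false, by simpa [lev_vec] using h⟩
    · exact ⟨true, by simpa [lev_vec] using h⟩
  have hb'' := (abs_le.1 (hT.neg.abs_lev_vec_le (j, b'))).2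
  obtain ⟨b₂, m, -, hm⟩ := exists_straight hT.neg (D * lam + 1 - D * lev (-ℓ) (vec (j, b')))
  have hlam := hT.1
  refine ⟨(List.replicate D (i0, b), List.replicate D (j, b') ++ List.replicate m (i0, b₂)), j,
    ⟨⟨fun y hy => ?_, le_rfl⟩, fun y hy => ?_, ?_⟩, ?_⟩
  · obtain ⟨i, hi, rfl⟩ := (mem_dep_replicate _ _ _ _).1 hy
    have : (i : ℤ) < D := by exact_mod_cast hi
    rw [zero_add, disp_replicate, lev_smul, lev_smul, hb]
    exact ⟨by positivity, mul_lt_mul_of_pos_right this hlam⟩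
  · dsimp only at hy ⊢
    rw [disp_replicate, lev_smul, hb]
    rw [dep_append, Finset.mem_union, zero_add] at hy
    rcases hy with hy | hy
    · obtain ⟨i, hi, rfl⟩ := (mem_dep_replicate _ _ _ _).1 hy
      have : (i : ℤ) ≤ D := by exact_mod_cast hi.le
      rw [zero_add, lev_smul]
      exact ⟨by positivity, Int.lt_add_one_iff.2
        (mul_le_mul this hb'' hb' (Nat.cast_nonneg _))⟩
    · have h1 := hm.1 _ ((mem_dep_shift _ _ _).1 hy)
      rw [lev_sub, disp_replicate, lev_smul] at h1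
      have : 0 ≤ D * lev (-ℓ) (vec (j, b')) := by positivity
      constructor <;> linarith
  · have h1 := hm.2
    dsimp only
    rw [disp_append, lev_add, disp_replicate, disp_replicate, lev_smul, lev_smul, hb]
    linarith
  · simp only [chainV, disp_append, disp_replicate, Pi.add_apply, Pi.smul_apply, vec,
      Pi.single_eq_of_ne hj, Pi.single_eq_same, smul_eq_mul]
    cases b' <;> simp

lemma chain_nat (K L : ℕ) : ∃ N, K * ((N + 1) * L + L + 1) < 2 ^ N := by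
  refine ⟨2 * (K * (2 * L + 1)), ?_⟩
  generalize ha : K * (2 * L + 1) = a
  have h1 : a + 1 ≤ 2 ^ a := Nat.lt_two_pow_self
  have h2 : K ≤ a := by rw [← ha]; nlinarith
  calc K * ((2 * a + 1) * L + L + 1) = (a - K) * (a + 1) + K := by
        have : a - K = K * (2 * L) := by rw [← ha, mul_add, mul_one, Nat.add_sub_cancel]
        rw [this]
        ring
    _ < (a + 1) * (a + 1) := by nlinarith [Nat.sub_le a K]
    _ ≤ 2 ^ (2 * a) := by rw [two_mul, pow_add]; exact Nat.mul_le_mul h1 h1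

theorem chain (hμ : Elliptic μ) (hd : 2 ≤ d) (hT : Top ℓ lam i0) (c : ℝ≥0∞) (M n0 C0 : ℕ)
    (hM : 4 ≤ M * c ^ 2) (hn0 : 0 < n0)
    (hX : ℕ → ℤ) (mX : ℕ → Pa d → ℝ≥0∞) (mY : ℕ → ℤ → Pa d → ℝ≥0∞)
    (h1 : ∀ n, n0 ≤ n → (n : ℤ) ≤ hX n ∧ hX n ≤ n + C0 ∧ Sub μ ℓ (hX n) (mX n) ∧
      c ≤ ∑' l, mX n l)
    (h2 : ∀ (n : ℕ) (t : ℤ), n0 ≤ n → (n : ℤ) - lam ≤ t → t ≤ n + C0 + lam →
      Sub μ (-ℓ) t (mY n t) ∧ c ≤ ∑' l, mY n t l)
    (h3 : ∀ (n n' : ℕ) (t : ℤ) (x : V d), n0 ≤ n → n ≤ n' → n' ≤ M * n → (n : ℤ) - lam ≤ t →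
      t ≤ n + C0 + lam →
      ∑' γ, mY n t γ * loss ℓ lam (mX n') (mY n') (x + disp γ) ≤ c ^ 4 / 8) : False := by
  obtain ⟨a1, a2, a3, a4⟩ := h1 n0 le_rfl
  have hc1 : c ≤ 1 := a4.trans (a3.mass_le_one hμ)
  have hct : c ≠ ⊤ := ne_top_of_le_ne_top ENNReal.one_ne_top hc1
  have hc0 : c ≠ 0 := by
    rintro rfl
    simp at hM
  have hM2 : 2 ≤ M := by
    have : (4 : ℝ≥0∞) ≤ M := hM.trans (mul_le_of_le_one_right' (pow_le_one₀ zero_le hc1))
    have : 4 ≤ M := by exact_mod_cast this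
    omega
  obtain ⟨L, hL⟩ : ∃ L : ℕ, (L : ℤ) = C0 + lam :=
    ⟨C0 + lam.toNat, by push_cast; rw [Int.toNat_of_nonneg hT.1.le]⟩
  obtain ⟨ρ, hρX, hρY⟩ : ∃ ρ : ℕ, (c / 2 ≤ ∑' l, if l.length ≤ ρ then mX n0 l else 0) ∧
      ∀ t ∈ Finset.Icc ((n0 : ℤ) - lam) (n0 + C0 + lam),
        c / 2 ≤ ∑' l, if l.length ≤ ρ then mY n0 t l else 0 := by
    refine (Filter.Eventually.and (Filter.eventually_atTop.2 (exists_trunc hct a4))
      ((Filter.eventually_all_finset _).2 fun t ht => Filter.eventually_atTop.2 ?_)).exists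
    rw [Finset.mem_Icc] at ht
    exact exists_trunc hct (h2 n0 t le_rfl ht.1 ht.2).2
  obtain ⟨p0, j, hp0, hj⟩ := chain_start hd hT (3 * ρ + 1)
  let Φ0 : Pa d × Pa d → ℝ≥0∞ := fun p => if p = p0 then w μ (p0.1 ++ p0.2) else 0
  have hΦ0 : chainGood μ ℓ Φ0 (lev ℓ (disp p0.1)) 0 := by
    intro p
    by_cases hp : p = p0
    · subst hp
      exact ⟨by simp [Φ0], fun _ => ⟨hp0, le_rfl, by simp⟩⟩
    · simp [Φ0, hp]
  have hm0 : ∑' p, Φ0 p ≠ 0 := by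
    rw [tsum_eq_single p0 fun p hp => if_neg hp]
    simpa [Φ0] using w_ne_zero hμ _
  have tr : ∀ (m : Pa d → ℝ≥0∞) (l : Pa d), (if l.length ≤ ρ then m l else 0) ≤ m l :=
    fun m l => by split_ifs <;> simp
  have tr' : ∀ (m : Pa d → ℝ≥0∞) (l : Pa d), ¬ l.length ≤ ρ →
      (if l.length ≤ ρ then m l else 0) = 0 := fun m l h => if_neg h
  have key : ∀ N : ℕ, ∃ (Φ : Pa d × Pa d → ℝ≥0∞) (S : ℤ), chainGood μ ℓ Φ S ((N + 1) * L) ∧
      (c ^ 2 / 2) ^ N * ((c / 2) ^ 2 * ∑' p, Φ0 p) ≤ ∑' p, Φ p ∧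
      ∀ n', n0 * M ^ N ≤ n' → n' ≤ M * (n0 * M ^ N) →
        ∑' p, Φ p * loss ℓ lam (mX n') (mY n') (chainV p) ≤ c ^ 2 / 2 * ∑' p, Φ p := by
    intro N
    induction N with
    | zero =>
      have b1 := a3.mono (tr (mX n0))
      have b2 := chain_lower (mY := fun t l => if l.length ≤ ρ then mY n0 t l else 0) hT a1 a2 b1
        hρX (fun t k1 k2 => hρY t (Finset.mem_Icc.2 ⟨k1, k2⟩)) hΦ0
      have b3 : ∑' p, Φ0 p * loss ℓ lam (fun l => if l.length ≤ ρ then mX n0 l else 0)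
          (fun t l => if l.length ≤ ρ then mY n0 t l else 0) (chainV p) = 0 := by
        rw [tsum_eq_single p0 fun p hp => by simp [Φ0, hp], loss, if_pos (chain_v hT hp0)]
        refine mul_eq_zero_of_right _ (ENNReal.tsum_eq_zero.2 fun β => ?_)
        by_cases hβ : β.length ≤ ρ
        swap
        · rw [tr' _ _ hβ, zero_mul]
        refine mul_eq_zero_of_right _ (ENNReal.tsum_eq_zero.2 fun γ => ?_)
        by_cases hγ : γ.length ≤ ρ
        swap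
        · rw [tr' _ _ hγ, zero_mul]
        refine mul_eq_zero_of_right _ (if_neg ?_)
        rintro ⟨x, k1, k2⟩
        have k3 := abs_le.1 (abs_dep_le_length k1 j)
        have k4 := abs_le.1 (abs_dep_le_length k2 j)
        have k5 := abs_le.1 (abs_disp_le_length β j)
        simp only [Pi.add_apply, Pi.zero_apply] at k3 k4
        rcases abs_cases (chainV p0 j) with k6 | k6 <;> omega
      rw [b3, add_zero] at b2
      refine ⟨_, _, by simpa using (chain_good (mY := fun t l => if l.length ≤ ρ then mY n0 t l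
        else 0) hT hL a1 a2 b1 (fun t k1 k2 => (h2 n0 t le_rfl k1 k2).1.mono (tr _)) hΦ0),
        by simpa using b2, fun n' k1 k2 => ?_⟩
      rw [pow_zero, mul_one] at k1 k2
      refine (chain_upper (B := c ^ 4 / 8) hμ hT a1 a2 b1 _ (fun t x k3 k4 => le_trans
        (ENNReal.tsum_le_tsum fun γ => mul_le_mul_left (tr _ γ) _)
        (h3 n0 n' t x le_rfl k1 k2 k3 k4)) hΦ0).trans ?_
      rw [chain_const, mul_assoc]
      exact mul_le_mul_right b2 _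
    | succ N ih =>
      obtain ⟨Φ, S, b1, b2, b3⟩ := ih
      have e : n0 * M ^ (N + 1) = M * (n0 * M ^ N) := by ring
      have hn : n0 ≤ n0 * M ^ (N + 1) := Nat.le_mul_of_pos_right _ (by positivity)
      obtain ⟨c1, c2, c3, c4⟩ := h1 _ hn
      have b4 := chain_half hc1 (b1.ne_top hμ hT)
        (chain_lower hT c1 c2 c3 c4 (fun t k1 k2 => (h2 _ t hn k1 k2).2) b1)
        (b3 _ (by rw [e]; exact Nat.le_mul_of_pos_left _ (by omega)) e.le)
      refine ⟨_, _, by simpa only [add_mul (N + 1), one_mul] using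
        (chain_good hT hL c1 c2 c3 (fun t k1 k2 => (h2 _ t hn k1 k2).1) b1), ?_,
        fun n' k1 k2 => ?_⟩
      · rw [pow_succ', mul_assoc]
        exact (mul_le_mul_right b2 _).trans b4
      · refine (chain_upper hμ hT c1 c2 c3 _ (fun t x k3 k4 => h3 _ n' t x hn k1 k2 k3 k4)
          b1).trans ?_
        rw [chain_const, mul_assoc]
        exact mul_le_mul_right ((mul_le_mul_left (chain_const' c) _).trans b4) _
  have hκ : c ^ 2 / 2 * ((c / 2) ^ 2 * ∑' p, Φ0 p) ≠ 0 :=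
    mul_ne_zero (ENNReal.div_ne_zero.2 ⟨pow_ne_zero _ hc0, ENNReal.ofNat_ne_top⟩)
      (mul_ne_zero (pow_ne_zero _ (ENNReal.div_ne_zero.2 ⟨hc0, ENNReal.ofNat_ne_top⟩)) hm0)
  obtain ⟨K, hK⟩ := ENNReal.exists_nat_mul_gt hκ ENNReal.one_ne_top
  obtain ⟨N, hN⟩ := chain_nat K L
  obtain ⟨Φ, S, b1, b2, b3⟩ := key N
  have hn : n0 ≤ n0 * M ^ N := Nat.le_mul_of_pos_right _ (by positivity)
  have hn' : M ^ N ≤ n0 * M ^ N := Nat.le_mul_of_pos_left _ hn0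
  generalize n0 * M ^ N = n at b3 hn hn'
  have good : ∀ n' ∈ Finset.Ico n (2 * n),
      chainGood μ ℓ (chainStep ℓ (mX n') (mY n') Φ) (S + n') ((N + 1) * L + L) ∧
        c ^ 2 / 2 * ∑' p, Φ p ≤ ∑' p, chainStep ℓ (mX n') (mY n') Φ p := by
    intro n' hn''
    rw [Finset.mem_Ico] at hn''
    obtain ⟨c1, c2, c3, c4⟩ := h1 n' (hn.trans hn''.1)
    exact ⟨chain_good hT hL c1 c2 c3 (fun t k1 k2 => (h2 _ t (hn.trans hn''.1) k1 k2).1) b1,
      chain_half hc1 (b1.ne_top hμ hT) (chain_lower hT c1 c2 c3 c4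
        (fun t k1 k2 => (h2 _ t (hn.trans hn''.1) k1 k2).2) b1)
        (b3 _ hn''.1 (hn''.2.le.trans (Nat.mul_le_mul_right _ hM2)))⟩
  have up : ∑ n' ∈ Finset.Ico n (2 * n), ∑' p, chainStep ℓ (mX n') (mY n') Φ p ≤
      (((N + 1) * L + L + 1 : ℕ) : ℝ≥0∞) * 1 := by
    refine le_trans ?_ (mul_le_mul_right (chain_mass hμ hT) _)
    rw [← Summable.tsum_finsetSum fun _ _ => ENNReal.summable, ← ENNReal.tsum_mul_left]
    refine ENNReal.tsum_le_tsum fun p => ?_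
    rw [← Finset.sum_filter_ne_zero]
    refine (Finset.sum_le_card_nsmul _ _ _ fun n' hn'' =>
      (good n' (Finset.mem_filter.1 hn'').1).1.le p).trans ?_
    rw [nsmul_eq_mul]
    refine mul_le_mul_left (Nat.cast_le.2 ?_) _
    refine (Finset.card_le_card_of_injOn (t := Finset.Icc (lev ℓ (disp p.1) - S -
      ((N + 1) * L + L : ℕ)) (lev ℓ (disp p.1) - S)) (fun n' : ℕ => (n' : ℤ))
      (fun n' hn'' => ?_) fun a _ b _ e => Nat.cast_injective e).trans ?_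
    · rw [Finset.mem_coe, Finset.mem_filter] at hn''
      obtain ⟨-, k1, k2⟩ := ((good n' hn''.1).1 p).2 hn''.2
      rw [Finset.mem_coe, Finset.mem_Icc]
      constructor <;> linarith
    · rw [Int.card_Icc]
      omega
  have low : (n : ℝ≥0∞) * (c ^ 2 / 2 * ∑' p, Φ p) ≤
      ∑ n' ∈ Finset.Ico n (2 * n), ∑' p, chainStep ℓ (mX n') (mY n') Φ p := by
    have := Finset.card_nsmul_le_sum _ _ _ fun n' h => (good n' h).2
    rwa [Nat.card_Ico, nsmul_eq_mul, show 2 * n - n = n by omega] at this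
  have two : (2 : ℝ≥0∞) ≤ M * (c ^ 2 / 2) := by
    rw [← mul_div_assoc, ENNReal.le_div_iff_mul_le (by simp) (by simp)]
    exact le_trans (by norm_num) hM
  have fin : ((2 ^ N : ℕ) : ℝ≥0∞) ≤ (K * ((N + 1) * L + L + 1) : ℕ) := by
    calc ((2 ^ N : ℕ) : ℝ≥0∞) = 2 ^ N * 1 := by simp
      _ ≤ (M * (c ^ 2 / 2)) ^ N * (K * (c ^ 2 / 2 * ((c / 2) ^ 2 * ∑' p, Φ0 p))) :=
        mul_le_mul' (pow_le_pow_left' two N) hK.le
      _ = K * ((M ^ N : ℕ) * (c ^ 2 / 2 * ((c ^ 2 / 2) ^ N * ((c / 2) ^ 2 * ∑' p, Φ0 p)))) := by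
        push_cast
        ring
      _ ≤ K * (n * (c ^ 2 / 2 * ∑' p, Φ p)) := by gcongr
      _ ≤ _ := by
        rw [Nat.cast_mul K]
        exact mul_le_mul_right (low.trans (up.trans (mul_one _).le)) _
  exact hN.not_ge (Nat.cast_le.1 fin)

end Vale.Agent.P147
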