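import Vale.Agent.P147.Stage
import Vale.Agent.P147.Bin

/-! Bridges whose endpoint is smoothed in all transversal directions. -/

namespace Vale.Agent.P147

open MeasureTheory
open scoped ENNReal Classical

variable {d : ℕ} {μ : Measure (St d → ℝ)} [IsProbabilityMeasure μ]
  {ℓ : V d} {lam : ℤ} {i0 : Fin d}

lemma Core_tsum_unif (v : V d) (r : ℕ) (G : V d → ℝ≥0∞) :
    ∑' y, unif v r y * G y = ∑ i ∈ Finset.range r, (r : ℝ≥0∞)⁻¹ * G ((i : ℤ) • v) := by
  simp only [unif, Finset.sum_mul]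
  rw [Summable.tsum_finsetSum fun _ _ => ENNReal.summable]
  refine Finset.sum_congr rfl fun i _ => ?_
  rw [tsum_eq_single ((i : ℤ) • v) fun y hy => by rw [if_neg hy, zero_mul], if_pos rfl]

lemma Core_unif_ne {v z : V d} {r : ℕ} (h : unif v r z ≠ 0) : ∃ i : ℕ, i < r ∧ z = (i : ℤ) • v := by
  obtain ⟨i, hi, h⟩ := Finset.exists_ne_zero_of_sum_ne_zero h
  refine ⟨i, Finset.mem_range.1 hi, ?_⟩
  by_contra k
  exact h (if_neg k)

lemma Core_unif_mass (v : V d) (r : ℕ) : ∑' y, unif v r y ≤ 1 := by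
  have := Core_tsum_unif v r fun _ => 1
  simp only [mul_one, Finset.sum_const, Finset.card_range, nsmul_eq_mul] at this
  rw [this]
  exact ENNReal.mul_inv_le_one _

lemma Core_tsum_pair {A B : Pa d} (h : A ≠ B) (P : Pa d → Prop) (f : Pa d → ℝ≥0∞) :
    ∑' σ, (if (σ = A ∨ σ = B) ∧ P σ then f σ else 0) =
      (if P A then f A else 0) + if P B then f B else 0 := by
  rw [tsum_eq_sum (s := {A, B}) fun σ hσ => if_neg fun k => hσ (by simpa using k.1),
    Finset.sum_pair h]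
  simp

lemma Core_ite {P : Prop} {i j : Decidable P} {a b : ℝ≥0∞} : @ite _ P i a b = @ite _ P j a b := by
  rw [Subsingleton.elim i j]

/-- The transversal vector of direction `j`. -/
def Core_v (ℓ : V d) (lam : ℤ) (i0 : Fin d) (b : Bool) (j : Fin d) : V d :=
  lam • vec (j, true) - ℓ j • vec (i0, b)

lemma Core_vec_ne {e : St d} {i : Fin d} (h : i ≠ e.1) : vec e i = 0 := Pi.single_eq_of_ne h _

lemma Core_v_self {b : Bool} {j : Fin d} (hj : j ≠ i0) : Core_v ℓ lam i0 b j j = lam := by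
  have e : vec (j, true) j = 1 := by simp [vec]
  simp [Core_v, Core_vec_ne (e := (i0, b)) hj, e]

lemma Core_v_ne {b : Bool} {j i : Fin d} (h : i ≠ j) (h' : i ≠ i0) :
    Core_v ℓ lam i0 b j i = 0 := by
  simp [Core_v, Core_vec_ne (e := (i0, b)) h', Core_vec_ne (e := (j, true)) h]

lemma Core_v_abs (hT : Top ℓ lam i0) {b : Bool} {j : Fin d} (hj : j ≠ i0) (i : Fin d) :
    |Core_v ℓ lam i0 b j i| ≤ lam := by
  by_cases h : i = j
  · rw [h, Core_v_self hj, abs_of_pos hT.1]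
  · have e : Core_v ℓ lam i0 b j i = -(ℓ j * vec (i0, b) i) := by
      simp [Core_v, Core_vec_ne (e := (j, true)) h]
    rw [e, abs_neg, abs_mul]
    exact (mul_le_of_le_one_right (abs_nonneg _) (abs_vec_le _ _)).trans (hT.2.1 j)

lemma Core_v_lev {b : Bool} (hb : lev ℓ (vec (i0, b)) = lam) (j : Fin d) :
    lev ℓ (Core_v ℓ lam i0 b j) = 0 := by
  rw [Core_v, lev_sub, lev_smul, lev_smul, hb, lev_vec]
  simp only [if_true]
  ring

/-- The two patterns. -/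
lemma Core_pat (hT : Top ℓ lam i0) {b : Bool} (hb : lev ℓ (vec (i0, b)) = lam) (j : Fin d) :
    ∃ (A B : Pa d) (g : ℤ), 0 < g ∧ g ≤ 4 * lam ^ 2 ∧ disp B = disp A + Core_v ℓ lam i0 b j ∧
      ∀ σ, σ = A ∨ σ = B → Br ℓ g σ ∧ lev ℓ (disp σ) = g ∧ (σ.length : ℤ) ≤ 4 * lam := by
  have h0 := hT.1
  obtain ⟨t1, t2⟩ := abs_le.1 (hT.2.1 j)
  obtain ⟨n, rfl⟩ := Int.eq_ofNat_of_zero_le h0.le
  obtain ⟨a, ha⟩ := Int.eq_ofNat_of_zero_le (a := 3 * (n : ℤ) + ℓ j) (by omega)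
  have hj : lev ℓ (vec (j, true)) = ℓ j := by rw [lev_vec]; simp
  have eA : lev ℓ (disp (List.replicate a (i0, b))) = (3 * n + ℓ j) * n := by
    rw [disp_replicate, lev_smul, hb, ha]
  have eB : lev ℓ (disp (List.replicate n (i0, b) ++ (List.replicate n (j, true) ++
      List.replicate (2 * n) (i0, b)))) = (3 * n + ℓ j) * n := by
    simp only [disp_append, disp_replicate, lev_add, lev_smul, hb, hj]
    push_cast
    ring
  refine ⟨List.replicate a (i0, b), List.replicate n (i0, b) ++ (List.replicate n (j, true) ++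
    List.replicate (2 * n) (i0, b)), (3 * n + ℓ j) * n, by nlinarith, by nlinarith, ?_, ?_⟩
  · simp only [disp_append, disp_replicate, Core_v, ← ha]
    push_cast
    module
  · rintro σ (rfl | rfl)
    · refine ⟨⟨fun y hy => ?_, eA.ge⟩, eA, by simp; omega⟩
      obtain ⟨i, hi, rfl⟩ := (mem_dep_replicate _ _ _ _).1 hy
      have hi' : (i : ℤ) < a := by exact_mod_cast hi
      rw [zero_add, lev_smul, hb, ha]
      exact ⟨by positivity, by nlinarith⟩
    · refine ⟨⟨fun y hy => ?_, eB.ge⟩, eB, by simp; omega⟩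
      simp only [dep_append, Finset.mem_union, mem_dep_replicate, disp_replicate, zero_add] at hy
      rcases hy with ⟨i, hi, rfl⟩ | ⟨i, hi, rfl⟩ | ⟨i, hi, rfl⟩
      all_goals
        have hi' := Int.ofNat_lt.2 hi
        have hi0 := Int.natCast_nonneg i
        simp only [lev_add, lev_smul, hb, hj]
        push_cast at hi'
        exact ⟨by nlinarith, by nlinarith⟩

/-- Smoothing in one direction. -/
lemma Core_one (hμ : Elliptic μ) (hT : Top ℓ lam i0) (η : ℝ≥0∞) {b : Bool}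
    (hb : lev ℓ (vec (i0, b)) = lam) {j : Fin d} (hj : j ≠ i0) :
    ∃ (c : ℝ≥0∞) (C : ℝ), (η ≠ 0 → c ≠ 0) ∧ 0 ≤ C ∧
      ∀ cap : ℤ → ℝ≥0∞, Thin μ ℓ cap η → ∀ I r : ℕ, 0 < I → 0 < r →
        ∀ h : ℤ, I * (4 * lam ^ 2 + lam) ≤ h → ∃ m, Sub μ ℓ h m ∧ c ≤ ∑' l, m l ∧
          Capd m (3 * cap h) ∧
          Sm ℓ m (unif (Core_v ℓ lam i0 b j) r) (ENNReal.ofReal (C * r / Real.sqrt I)) := by
  obtain ⟨A, B, g, g0, g1, hAB, hP⟩ := Core_pat hT hb j
  have hv : Core_v ℓ lam i0 b j ≠ 0 := fun e => hT.1.ne' ((Core_v_self hj).symm.trans (congrFun e j))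
  have hne : A ≠ B := fun e => hv (by rw [← e] at hAB; simpa using hAB)
  have hW : w μ A + w μ B = ∑' σ, if σ = A ∨ σ = B then w μ σ else 0 := by
    simpa using (Core_tsum_pair hne (fun _ => True) (w μ)).symm
  have hW0 : w μ A + w μ B ≠ 0 := fun e => w_ne_zero hμ A (add_eq_zero.1 e).1
  have hW1 : w μ A + w μ B ≠ ⊤ := ENNReal.add_ne_top.2
    ⟨ne_top_of_le_ne_top ENNReal.one_ne_top (w_le_one hμ A),
      ne_top_of_le_ne_top ENNReal.one_ne_top (w_le_one hμ B)⟩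
  have hπ : ∀ z, patLaw μ (fun σ => σ = A ∨ σ = B) (disp A) z =
      (if z = 0 then (w μ A + w μ B)⁻¹ * w μ A else 0) +
        (if z = Core_v ℓ lam i0 b j then (w μ A + w μ B)⁻¹ * w μ B else 0) := by
    intro z
    have e := Core_tsum_pair hne (fun σ => disp σ = disp A + z) (w μ)
    simp only [hAB, add_right_inj, left_eq_add, eq_comm (b := z)] at e
    have e' : patLaw μ (fun σ => σ = A ∨ σ = B) (disp A) z = (w μ A + w μ B)⁻¹ * _ :=
      congrArg₂ (· * ·)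
        (congrArg Inv.inv (hW.trans (tsum_congr fun σ => Core_ite)).symm)
        ((tsum_congr fun σ => Core_ite).trans e)
    simp only [e', mul_add, mul_ite, mul_zero]
  have hi := ENNReal.inv_ne_zero.2 hW1
  obtain ⟨C, hC, hM⟩ := micro_bound (d := d)
    (min ((w μ A + w μ B)⁻¹ * w μ B) ((w μ A + w μ B)⁻¹ * w μ A))
    (lt_min (ENNReal.mul_pos hi (w_ne_zero hμ B)) (ENNReal.mul_pos hi (w_ne_zero hμ A))).ne'
  have hM' := hM _ _ (min_le_left _ _) (min_le_right _ _)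
    (by rw [← mul_add, add_comm (w μ B), ENNReal.inv_mul_cancel hW0 hW1]) _ _ hπ
  generalize w μ A + w μ B = W at hW hW0 hW1
  have hc : η ≠ 0 → η ^ 2 * W / 2 ≠ 0 := fun h =>
    ENNReal.div_ne_zero.2 ⟨mul_ne_zero (pow_ne_zero _ h) hW0, ENNReal.ofNat_ne_top⟩
  refine ⟨η ^ 2 * W / 2, C / Real.sqrt (η ^ 2 * W / 2).toReal, hc, by positivity,
    fun cap hth I r hI hr h hh => ?_⟩
  have hfin : η ^ 2 * W / 2 ≠ ⊤ := ENNReal.div_ne_top (ENNReal.mul_ne_top
    (ENNReal.pow_ne_top (ne_top_of_le_ne_top ENNReal.one_ne_top (hth.le_one hμ))) hW1) two_ne_zero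
  have hκ := ENNReal.toReal_pos (hc hth.1) hfin
  have hI' : (0 : ℝ) < I := by exact_mod_cast hI
  have h0 := hT.1
  obtain ⟨m, m1, m2, m3, m4⟩ := stage hμ hT hth (fun σ => σ = A ∨ σ = B) g (4 * lam ^ 2 + lam) g0
    (by omega) (fun σ hσ => ⟨(hP σ hσ).1, (hP σ hσ).2.1, by
      refine (sz_le_length σ).trans (le_trans ?_ (hth.2.2.1 _))
      rw [← ENNReal.ofReal_natCast]
      refine ENNReal.ofReal_le_ofReal ?_
      have : (σ.length : ℤ) ≤ 4 * lam ^ 2 + lam := (hP σ hσ).2.2.trans (by nlinarith)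
      exact_mod_cast this⟩) W (hW.trans (tsum_congr fun σ => Core_ite)) hW0 (disp A)
    (hP A (Or.inl rfl)).2.1 I ⌊(I : ℝ) * (η ^ 2 * W / 2).toReal⌋₊ hI (by
      rw [← ENNReal.ofReal_toReal hfin, ← ENNReal.ofReal_natCast, ← ENNReal.ofReal_natCast I,
        ← ENNReal.ofReal_mul hI'.le, ENNReal.toReal_ofReal hκ.le]
      exact ENNReal.ofReal_le_ofReal (Nat.floor_le (by positivity))) h hh
  refine ⟨m, m1, m2, m3, fun z hz => ?_, Core_unif_mass _ _, fun F hF x B' hB => ?_⟩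
  · obtain ⟨i, -, rfl⟩ := Core_unif_ne hz
    rw [lev_smul, Core_v_lev hb, mul_zero]
  · refine (m4.2.2 F hF x _ (hM' _ r hr F hF B' hB)).trans ?_
    rw [add_zero]
    refine add_le_add le_rfl (ENNReal.ofReal_le_ofReal ?_)
    rw [div_mul_eq_mul_div, div_div, ← Real.sqrt_mul hκ.le]
    refine div_le_div_of_nonneg_left (by positivity) (by positivity) (Real.sqrt_le_sqrt ?_)
    rw [mul_comm]
    exact (Nat.lt_floor_add_one _).le

/-- Smoothing in a set of directions. -/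
lemma Core_ind (hμ : Elliptic μ) (hT : Top ℓ lam i0) (η : ℝ≥0∞) (J : Finset (Fin d))
    (hJ : i0 ∉ J) :
    ∃ (c : ℝ≥0∞) (C : ℝ), (η ≠ 0 → c ≠ 0) ∧ 0 ≤ C ∧
      ∀ cap : ℤ → ℝ≥0∞, Thin μ ℓ cap η → ∀ I r : ℕ, 0 < I → 0 < r → ∃ ν : V d → ℝ≥0∞,
        (∀ z, ν z ≤ ((r : ℝ≥0∞)⁻¹) ^ J.card) ∧
        (∀ z, ν z ≠ 0 → ∀ i, |z i| ≤ J.card * lam * r ∧ (i ∉ J → i ≠ i0 → z i = 0)) ∧
        ∀ h : ℤ, J.card * (I * (4 * lam ^ 2 + lam) + lam) ≤ h → ∃ m, Sub μ ℓ h m ∧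
          c ≤ ∑' l, m l ∧ Capd m ((3 * J.card + 1) * cap h) ∧
          Sm ℓ m ν (ENNReal.ofReal (C * r / Real.sqrt I)) := by
  obtain ⟨b, hb⟩ := hT.exists_up
  have h0 := hT.1
  induction J using Finset.induction_on with
  | empty =>
    refine ⟨η, 0, id, le_rfl, fun cap hth I r _ _ => ⟨dlt, fun z => ?_, fun z hz i => ?_,
      fun h _ => ⟨cb μ ℓ (cap h) h, sub_cb _ _, hth.2.2.2 h, by simpa using capd_cb _ _,
        (sm_dlt ((sub_cb _ _).mass_le_one hμ)).mono zero_le⟩⟩⟩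
    · unfold dlt
      split_ifs <;> simp
    · have e : z = 0 := by
        by_contra k
        exact hz (if_neg k)
      simp [e]
  | insert j J hj ih =>
    rw [Finset.mem_insert, not_or] at hJ
    have hj0 : j ≠ i0 := Ne.symm hJ.1
    obtain ⟨c₂, C₂, c2, hC₂, H₂⟩ := ih hJ.2
    obtain ⟨c₁, C₁, c1, hC₁, H₁⟩ := Core_one hμ hT η hb hj0
    refine ⟨c₁ * c₂, C₁ + C₂, fun h => mul_ne_zero (c1 h) (c2 h), by positivity,
      fun cap hth I r hI hr => ?_⟩
    obtain ⟨ν, n1, n2, n3⟩ := H₂ cap hth I r hI hr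
    obtain ⟨m, m1, m2, m3, m4⟩ := H₁ cap hth I r hI hr _ le_rfl
    choose! M hM using n3
    rw [Finset.card_insert_of_notMem hj]
    refine ⟨conv (unif (Core_v ℓ lam i0 b j) r) ν, fun z => ?_, fun z hz i => ?_, fun h hh => ?_⟩
    · rw [conv, Core_tsum_unif]
      by_cases k : ∃ i ∈ Finset.range r, ν (z - (i : ℤ) • Core_v ℓ lam i0 b j) ≠ 0
      · obtain ⟨i, hi, k⟩ := k
        rw [Finset.sum_eq_single_of_mem i hi fun i' _ hi' => ?_, pow_succ']
        · exact mul_le_mul_right (n1 _) _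
        · by_contra k'
          have e1 := (n2 _ k j).2 hj hj0
          have e2 := (n2 _ (right_ne_zero_of_mul k') j).2 hj hj0
          simp only [Pi.sub_apply, Pi.smul_apply, smul_eq_mul, Core_v_self hj0] at e1 e2
          exact hi' (Int.ofNat_inj.1 (mul_right_cancel₀ h0.ne' (by linarith)))
      · push Not at k
        rw [Finset.sum_eq_zero fun i hi => by rw [k i hi, mul_zero]]
        exact zero_le
    · obtain ⟨y, hy, hy'⟩ := conv_ne_zero hz
      obtain ⟨a, ha, rfl⟩ := Core_unif_ne hy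
      obtain ⟨e1, e2⟩ := n2 _ hy' i
      simp only [Pi.sub_apply, Pi.smul_apply, smul_eq_mul] at e1 e2
      refine ⟨?_, fun hi hi0 => ?_⟩
      · have ha' : (a : ℤ) ≤ r := by exact_mod_cast ha.le
        have e3 : |(a : ℤ) * Core_v ℓ lam i0 b j i| ≤ r * lam := by
          rw [abs_mul, abs_of_nonneg (Int.natCast_nonneg a)]
          exact mul_le_mul ha' (Core_v_abs hT hj0 i) (abs_nonneg _) (Int.natCast_nonneg r)
        rw [abs_le] at e1 e3 ⊢
        push_cast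
        constructor <;> linarith [e1.1, e1.2, e3.1, e3.2]
      · rw [Finset.mem_insert, not_or] at hi
        simpa [Core_v_ne hi.1 hi0] using e2 hi.2 hi0
    · have hp : (0 : ℤ) ≤ I * (4 * lam ^ 2 + lam) := by positivity
      have hq : (0 : ℤ) ≤ J.card * (I * (4 * lam ^ 2 + lam) + lam) := by positivity
      push_cast at hh
      have hh1 : I * (4 * lam ^ 2 + lam) ≤ h := by linarith
      have hg : ∀ a, m a ≠ 0 → J.card * (I * (4 * lam ^ 2 + lam) + lam) ≤ h - lev ℓ (disp a) :=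
        fun a ha => by linarith [((m1 a).2 ha).gain_lt hT hp]
      refine ⟨star ℓ m fun g => M (h - g), sub_star m1 (fun a ha => (hM _ (hg a ha)).1) hh1,
        mass_star m2 fun a ha => (hM _ (hg a ha)).2.1, fun l hl => ?_, ?_⟩
      · refine (capd_star (M₂ := (3 * J.card + 1) * cap h) m3 (fun a ha l hl =>
          ((hM _ (hg a ha)).2.2.1 l hl).trans (mul_le_mul_right (hth.2.1
            (by linarith [((m1 a).2 ha).gain_nonneg])) _)) l hl).trans ?_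
        refine (add_le_add (mul_le_mul_right (hth.2.1 hh1) _) le_rfl).trans (le_of_eq ?_)
        push_cast
        ring
      · refine (sm_star m4 ⟨(hM _ le_rfl).2.2.2.1, (hM _ le_rfl).2.2.2.2.1⟩ fun a ha =>
          ⟨(hM _ (hg a ha)).2.2.2, (hM _ (hg a ha)).1.mass_le_one hμ⟩).mono (le_of_eq ?_)
        rw [← ENNReal.ofReal_add (by positivity) (by positivity)]
        exact congrArg _ (by ring)

theorem core (hμ : Elliptic μ) (hT : Top ℓ lam i0) (η : ℝ≥0∞) :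
    ∃ (c : ℝ≥0∞) (C : ℝ) (Λ : ℕ), (η ≠ 0 → c ≠ 0) ∧ 0 ≤ C ∧ 0 < Λ ∧
      ∀ cap : ℤ → ℝ≥0∞, Thin μ ℓ cap η → ∀ I r : ℕ, 0 < I → 0 < r → ∃ ν : V d → ℝ≥0∞,
        (∀ z, ν z ≤ ((r : ℝ≥0∞)⁻¹) ^ (d - 1)) ∧ (∀ z, ν z ≠ 0 → ∀ i, |z i| ≤ d * lam * r) ∧
        (∀ z, ν z ≠ 0 → lev ℓ z = 0) ∧ ∑' z, ν z ≤ 1 ∧
        ∀ h : ℤ, d * (I * Λ + lam) ≤ h → ∃ m, Sub μ ℓ h m ∧ c ≤ ∑' l, m l ∧
          Capd m ((3 * d + 1) * cap h) ∧ Sm ℓ m ν (ENNReal.ofReal (C * r / Real.sqrt I)) := by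
  obtain ⟨c, C, hc, hC, H⟩ := Core_ind hμ hT η (Finset.univ.erase i0) (Finset.notMem_erase _ _)
  have h0 := hT.1
  obtain ⟨Λ, hΛ⟩ := Int.eq_ofNat_of_zero_le (a := 4 * lam ^ 2 + lam) (by positivity)
  have hd : (Finset.univ.erase i0).card = d - 1 := by simp
  have hd' : ((d - 1 : ℕ) : ℤ) ≤ d := by exact_mod_cast Nat.sub_le d 1
  rw [hd, hΛ] at H
  refine ⟨c, C, Λ, hc, hC, by
    have : (0 : ℤ) < Λ := by rw [← hΛ]; positivity
    exact_mod_cast this, fun cap hth I r hI hr => ?_⟩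
  obtain ⟨ν, n1, n2, n3⟩ := H cap hth I r hI hr
  obtain ⟨m0, -, -, -, s0⟩ := n3 _ le_rfl
  refine ⟨ν, n1, fun z hz i => (n2 z hz i).1.trans (by gcongr), s0.1, s0.2.1, fun h hh => ?_⟩
  obtain ⟨m, m1, m2, m3, m4⟩ := n3 h (le_trans (by gcongr) hh)
  refine ⟨m, m1, m2, fun l hl => (m3 l hl).trans ?_, m4⟩
  have : ((d - 1 : ℕ) : ℝ≥0∞) ≤ d := by exact_mod_cast Nat.sub_le d 1
  gcongr

end Vale.Agent.P147
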