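import Vale.Agent.P147.Br

/-! First moment bounds for thin bridges, and splitting of a spread out endpoint law. -/

namespace Vale.Agent.P147

open MeasureTheory
open scoped ENNReal Classical

variable {d : ℕ} {μ : Measure (St d → ℝ)} [IsProbabilityMeasure μ]
  {ℓ : V d} {lam : ℤ} {i0 : Fin d}

lemma dens_ofReal {h : ℤ} (hh : 0 ≤ h) : ENNReal.ofReal h = (h.toNat : ℝ≥0∞) := by
  have : (h : ℝ) = ((h.toNat : ℕ) : ℝ) := by exact_mod_cast (Int.toNat_of_nonneg hh).symm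
  rw [this, ENNReal.ofReal_natCast]

omit [IsProbabilityMeasure μ] in
lemma dens_cb_ne {M : ℝ≥0∞} {h : ℤ} {l : Pa d} (hl : cb μ ℓ M h l ≠ 0) : Br ℓ h l := by
  unfold cb at hl
  split_ifs at hl with h1
  · exact h1.1
  · exact absurd rfl hl

lemma dens_capd_mono {m : Pa d → ℝ≥0∞} {M M' : ℝ≥0∞} (h : Capd m M) (hM : M ≤ M') :
    Capd m M' := fun l hl => (h l hl).trans hM

lemma dens_card_le (α β γ : Pa d) (a lo hi : ℤ) (h1 : lo ≤ a + lev ℓ (disp α))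
    (h2 : a + lev ℓ (disp α) < hi) :
    ((dep 0 β).filter fun y => lev ℓ y = a).card ≤
      ((dep 0 (α ++ (β ++ γ))).filter fun y => lo ≤ lev ℓ y ∧ lev ℓ y < hi).card := by
  refine Finset.card_le_card_of_injOn (fun y => y + disp α) ?_ (add_left_injective _).injOn
  intro y hy
  obtain ⟨hy1, hy2⟩ := Finset.mem_filter.1 (Finset.mem_coe.1 hy)
  refine Finset.mem_coe.2 (Finset.mem_filter.2 ⟨?_, ?_⟩)
  · rw [dep_append, dep_append, zero_add]
    refine Finset.mem_union_right _ (Finset.mem_union_left _ ?_)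
    rw [mem_dep_shift]
    simpa using hy1
  · rw [lev_add, hy2]
    exact ⟨h1, h2⟩

lemma dens_count (A : Finset (V d)) (I : Finset ℤ) (a lam : ℤ) :
    ∑ s ∈ I, (A.filter fun y => s + a ≤ lev ℓ y ∧ lev ℓ y < s + a + lam).card ≤
      lam.toNat * A.card := by
  simp only [Finset.card_filter]
  rw [Finset.sum_comm, mul_comm, ← smul_eq_mul, ← Finset.sum_const]
  refine Finset.sum_le_sum fun y _ => ?_
  rw [← Finset.card_filter]
  have : I.filter (fun s => s + a ≤ lev ℓ y ∧ lev ℓ y < s + a + lam) ⊆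
      Finset.Ioc (lev ℓ y - a - lam) (lev ℓ y - a) := by
    intro s hs
    have := (Finset.mem_filter.1 hs).2
    rw [Finset.mem_Ioc]
    omega
  refine (Finset.card_le_card this).trans ?_
  rw [Int.card_Ioc]
  omega

lemma dens_one (hT : Top ℓ lam i0) {cap : ℤ → ℝ≥0∞} {η : ℝ≥0∞}
    (hth : Thin μ ℓ cap η) (h : ℤ) (hh : 0 < h) (M : ℝ≥0∞) (a s : ℤ) (hs0 : 0 ≤ s) (hs : s ≤ h) :
    η ^ 2 * ∑' l, cb μ ℓ M h l * (((dep 0 l).filter fun y => lev ℓ y = a).card : ℝ≥0∞) ≤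
      ∑' l, cb μ ℓ (M + 2 * cap (3 * h + 2 * lam)) (3 * h + 2 * lam) l *
        (((dep 0 l).filter fun y => s + a ≤ lev ℓ y ∧ lev ℓ y < s + a + lam).card : ℝ≥0∞) := by
  obtain ⟨H, hH⟩ : ∃ H, H = 3 * h + 2 * lam := ⟨_, rfl⟩
  rw [← hH]
  have hlam := hT.1
  have hsub : Sub μ ℓ H (star ℓ (cb μ ℓ (cap s) s) fun g =>
      star ℓ (cb μ ℓ M h) fun g' => cb μ ℓ (cap (H - g - g')) (H - g - g')) := by
    refine sub_star (sub_cb _ _) (fun α hα => ?_) (by omega)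
    have := (dens_cb_ne hα).gain_lt hT hs0
    exact sub_star (sub_cb _ _) (fun β _ => sub_cb _ _) (by omega)
  have hcap : Capd (star ℓ (cb μ ℓ (cap s) s) fun g =>
      star ℓ (cb μ ℓ M h) fun g' => cb μ ℓ (cap (H - g - g')) (H - g - g')) (M + 2 * cap H) := by
    refine dens_capd_mono (capd_star (M₁ := cap H) (M₂ := M + cap H)
      (dens_capd_mono (capd_cb _ _) (hth.2.1 (by omega))) fun α hα => ?_) (le_of_eq (by ring))
    have := (dens_cb_ne hα).gain_nonneg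
    refine capd_star (capd_cb _ _) fun β hβ => dens_capd_mono (capd_cb _ _) (hth.2.1 ?_)
    have := (dens_cb_ne hβ).gain_nonneg
    omega
  refine le_trans ?_ (ENNReal.tsum_le_tsum fun l => mul_le_mul_left (hsub.le_cb hcap l) _)
  rw [tsum_star, pow_two, mul_assoc]
  refine (mul_le_mul_left (hth.2.2.2 s) _).trans ?_
  rw [← ENNReal.tsum_mul_right]
  refine ENNReal.tsum_le_tsum fun α => ?_
  by_cases hα : cb μ ℓ (cap s) s α = 0
  · simp [hα]
  refine mul_le_mul_right ?_ _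
  have g1 := (dens_cb_ne hα).2
  have g2 := (dens_cb_ne hα).gain_lt hT hs0
  rw [tsum_star, ← ENNReal.tsum_mul_left]
  refine ENNReal.tsum_le_tsum fun β => ?_
  rw [mul_left_comm]
  refine mul_le_mul_right ?_ _
  refine (mul_le_mul_left (hth.2.2.2 (H - lev ℓ (disp α) - lev ℓ (disp β))) _).trans ?_
  rw [← ENNReal.tsum_mul_right]
  refine ENNReal.tsum_le_tsum fun γ => mul_le_mul_right ?_ _
  exact_mod_cast dens_card_le α β γ a _ _ (by omega) (by omega)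

theorem level_density (hμ : Elliptic μ) (hT : Top ℓ lam i0) {cap : ℤ → ℝ≥0∞} {η : ℝ≥0∞}
    (hth : Thin μ ℓ cap η) (h : ℤ) (hh : 0 < h) (M : ℝ≥0∞) (a : ℤ) :
    ENNReal.ofReal h * η ^ 2 *
        ∑' l, cb μ ℓ M h l * (((dep 0 l).filter fun y => lev ℓ y = a).card : ℝ≥0∞) ≤
      ENNReal.ofReal lam * (M + 2 * cap (3 * h + 2 * lam)) := by
  have h1 := Finset.sum_le_sum fun s (hs : s ∈ Finset.Ioc 0 h) =>
    dens_one hT hth h hh M a s (Finset.mem_Ioc.1 hs).1.le (Finset.mem_Ioc.1 hs).2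
  rw [Finset.sum_const, Int.card_Ioc, sub_zero, nsmul_eq_mul,
    ← Summable.tsum_finsetSum fun _ _ => ENNReal.summable] at h1
  rw [dens_ofReal hh.le, dens_ofReal hT.1.le, mul_assoc]
  refine h1.trans ?_
  obtain ⟨M', hM'⟩ : ∃ M', M' = M + 2 * cap (3 * h + 2 * lam) := ⟨_, rfl⟩
  rw [← hM']
  have h2 : ∀ l, ∑ s ∈ Finset.Ioc 0 h, cb μ ℓ M' (3 * h + 2 * lam) l *
      (((dep 0 l).filter fun y => s + a ≤ lev ℓ y ∧ lev ℓ y < s + a + lam).card : ℝ≥0∞) ≤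
      cb μ ℓ M' (3 * h + 2 * lam) l * (lam.toNat * M') := by
    intro l
    by_cases hl : cb μ ℓ M' (3 * h + 2 * lam) l = 0
    · simp [hl]
    rw [← Finset.mul_sum]
    refine mul_le_mul_right ?_ _
    refine le_trans ?_ (mul_le_mul_right (capd_cb M' _ l hl) _)
    unfold sz
    exact_mod_cast dens_count (dep 0 l) _ a lam
  refine (ENNReal.tsum_le_tsum h2).trans ?_
  rw [ENNReal.tsum_mul_right]
  exact mul_le_of_le_one_left' ((sub_cb _ _).mass_le_one hμ)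

theorem loss_le_one (ℓ : V d) (lam : ℤ) (mX : Pa d → ℝ≥0∞) (mY : ℤ → Pa d → ℝ≥0∞)
    (hX1 : ∑' l, mX l ≤ 1)
    (hY : ∀ β v, mX β ≠ 0 → -lam ≤ lev ℓ v → lev ℓ v < 0 →
      ∑' γ, mY (lev ℓ (v + disp β) + 1) γ ≤ 1) (v : V d) : loss ℓ lam mX mY v ≤ 1 := by
  unfold loss
  split_ifs with hv
  · refine le_trans (ENNReal.tsum_le_tsum fun β => ?_) hX1
    by_cases hβ : mX β = 0
    · simp [hβ]
    refine mul_le_of_le_one_right' (le_trans (ENNReal.tsum_le_tsum fun γ => ?_)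
      (hY β v hβ hv.1 hv.2))
    refine mul_le_of_le_one_right' ?_
    split_ifs <;> simp
  · exact zero_le_one

lemma dens_hits (ℓ : V d) (β γ : Pa d) (y : V d) :
    ∑' z, (if lev ℓ z = 0 ∧ Hit β (y + z + disp β) γ then (1 : ℝ≥0∞) else 0) ≤
      ∑ x ∈ dep 0 β, (((dep 0 γ).filter fun y' =>
        lev (-ℓ) y' = lev ℓ (y + disp β) - lev ℓ x).card : ℝ≥0∞) := by
  have h1 : ∀ z, (if lev ℓ z = 0 ∧ Hit β (y + z + disp β) γ then (1 : ℝ≥0∞) else 0) ≤
      ∑ x ∈ dep 0 β, ∑ y' ∈ (dep 0 γ).filter fun y' =>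
        lev (-ℓ) y' = lev ℓ (y + disp β) - lev ℓ x,
          (if z = x - y' - y - disp β then (1 : ℝ≥0∞) else 0) := by
    intro z
    split_ifs with hz
    · obtain ⟨h0, x, hx, hx'⟩ := hz
      rw [mem_dep_shift] at hx'
      refine le_trans ?_ (Finset.single_le_sum (fun _ _ => zero_le) hx)
      have hm : x - (y + z + disp β) ∈ (dep 0 γ).filter fun y' =>
          lev (-ℓ) y' = lev ℓ (y + disp β) - lev ℓ x := by
        refine Finset.mem_filter.2 ⟨hx', ?_⟩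
        simp only [lev_neg, lev_sub, lev_add, h0]
        ring
      refine le_trans ?_ (Finset.single_le_sum (fun _ _ => zero_le) hm)
      rw [if_pos (by abel)]
    · exact zero_le
  refine (ENNReal.tsum_le_tsum h1).trans (le_of_eq ?_)
  rw [Summable.tsum_finsetSum fun _ _ => ENNReal.summable]
  refine Finset.sum_congr rfl fun x _ => ?_
  rw [Summable.tsum_finsetSum fun _ _ => ENNReal.summable]
  simp

theorem loss_fm (ℓ : V d) (lam : ℤ) (mX : Pa d → ℝ≥0∞) (mY : ℤ → Pa d → ℝ≥0∞)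
    (ν : V d → ℝ≥0∞) (s MX D : ℝ≥0∞) (hν0 : ∀ z, ν z ≠ 0 → lev ℓ z = 0) (hνs : ∀ z, ν z ≤ s)
    (hX1 : ∑' l, mX l ≤ 1) (hX : Capd mX MX)
    (hY : ∀ β v, mX β ≠ 0 → -lam ≤ lev ℓ v → lev ℓ v < 0 → ∀ a : ℤ,
      ∑' γ, mY (lev ℓ (v + disp β) + 1) γ *
        (((dep 0 γ).filter fun y => lev (-ℓ) y = a).card : ℝ≥0∞) ≤ D) (y : V d) :
    ∑' z, ν z * loss ℓ lam mX mY (y + z) ≤ s * MX * D := by
  by_cases hy : -lam ≤ lev ℓ y ∧ lev ℓ y < 0
  swap
  · have : ∀ z, ν z * loss ℓ lam mX mY (y + z) = 0 := by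
      intro z
      by_cases hz : ν z = 0
      · rw [hz, zero_mul]
      · rw [loss, if_neg, mul_zero]
        rwa [lev_add, hν0 z hz, add_zero]
    simp [this]
  have h1 : ∀ z, ν z * loss ℓ lam mX mY (y + z) ≤
      ∑' β, s * (mX β * ∑' γ, mY (lev ℓ (y + disp β) + 1) γ *
        (if lev ℓ z = 0 ∧ Hit β (y + z + disp β) γ then 1 else 0)) := by
    intro z
    by_cases hz : ν z = 0
    · rw [hz, zero_mul]
      exact zero_le
    have h0 := hν0 z hz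
    rw [ENNReal.tsum_mul_left]
    refine mul_le_mul' (hνs z) ?_
    unfold loss
    split_ifs
    · refine le_of_eq (tsum_congr fun β => ?_)
      simp only [lev_add, h0, add_zero, true_and]
    · exact zero_le
  refine (ENNReal.tsum_le_tsum h1).trans ?_
  rw [ENNReal.tsum_comm]
  have h2 : ∀ β, ∑' z, s * (mX β * ∑' γ, mY (lev ℓ (y + disp β) + 1) γ *
      (if lev ℓ z = 0 ∧ Hit β (y + z + disp β) γ then 1 else 0)) ≤ mX β * (s * MX * D) := by
    intro β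
    by_cases hβ : mX β = 0
    · simp [hβ]
    rw [ENNReal.tsum_mul_left, ENNReal.tsum_mul_left, mul_left_comm, mul_assoc, ENNReal.tsum_comm]
    refine mul_le_mul_right (mul_le_mul_right ?_ _) _
    simp only [ENNReal.tsum_mul_left]
    refine (ENNReal.tsum_le_tsum fun γ => mul_le_mul_right (dens_hits ℓ β γ y) _).trans ?_
    simp only [Finset.mul_sum]
    rw [Summable.tsum_finsetSum fun _ _ => ENNReal.summable]
    refine (Finset.sum_le_sum fun x _ => hY β y hβ hy.1 hy.2 _).trans ?_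
    rw [Finset.sum_const, nsmul_eq_mul]
    exact mul_le_mul_left (hX β hβ) _
  refine (ENNReal.tsum_le_tsum h2).trans ?_
  rw [ENNReal.tsum_mul_right]
  exact mul_le_of_le_one_left' hX1

omit [IsProbabilityMeasure μ] in
lemma dens_class (hT : Top ℓ lam i0) {cap : ℤ → ℝ≥0∞} {η : ℝ≥0∞}
    (hth : Thin μ ℓ cap η) (n : ℤ) (hn : 0 < n) :
    ∃ g : ℤ, n ≤ g ∧ g < n + lam ∧ η / ENNReal.ofReal lam ≤
      ∑' σ, if Br ℓ n σ ∧ sz σ ≤ cap n ∧ lev ℓ (disp σ) = g then w μ σ else 0 := by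
  have hlam := hT.1
  have h1 : ∑ _g ∈ Finset.Ico n (n + lam), η / ENNReal.ofReal lam ≤ ∑ g ∈ Finset.Ico n (n + lam),
      ∑' σ, if Br ℓ n σ ∧ sz σ ≤ cap n ∧ lev ℓ (disp σ) = g then w μ σ else 0 := by
    rw [Finset.sum_const, Int.card_Ico, add_sub_cancel_left, nsmul_eq_mul, ← dens_ofReal hlam.le,
      ← Summable.tsum_finsetSum fun _ _ => ENNReal.summable]
    refine ENNReal.mul_div_le.trans ((hth.2.2.2 n).trans (ENNReal.tsum_le_tsum fun σ => ?_))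
    unfold cb
    split_ifs with h
    · have hm : lev ℓ (disp σ) ∈ Finset.Ico n (n + lam) :=
        Finset.mem_Ico.2 ⟨h.1.2, h.1.gain_lt hT hn.le⟩
      refine le_trans ?_ (Finset.single_le_sum (fun _ _ => zero_le) hm)
      rw [if_pos ⟨h.1, h.2, rfl⟩]
    · exact zero_le
  obtain ⟨g, hg, h2⟩ := ENNReal.exists_le_of_sum_le ⟨n, Finset.mem_Ico.2 ⟨le_rfl, by omega⟩⟩ h1
  exact ⟨g, (Finset.mem_Ico.1 hg).1, (Finset.mem_Ico.1 hg).2, h2⟩

lemma dens_quantile (P : Pa d → Prop) (f : Pa d → ℝ≥0∞) (X : Pa d → ℤ) (N : ℕ)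
    (hN : ∀ σ, P σ → |X σ| ≤ N) {θ : ℝ≥0∞} (hθ : θ ≠ 0)
    (hle : θ ≤ ∑' σ, if P σ then f σ else 0) :
    ∃ α : ℤ, θ ≤ ∑' σ, (if P σ ∧ X σ ≤ α then f σ else 0) ∧
      ∑' σ, (if P σ ∧ X σ ≤ α - 1 then f σ else 0) < θ := by
  obtain ⟨α, h1, h2⟩ := Int.exists_least_of_bdd
    (P := fun α => θ ≤ ∑' σ, (if P σ ∧ X σ ≤ α then f σ else 0))
    ⟨-N, fun z hz => by
      by_contra hlt
      have : ∀ σ, (if P σ ∧ X σ ≤ z then f σ else 0) = 0 := fun σ => if_neg fun h => by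
        have := (abs_le.1 (hN σ h.1)).1
        have := h.2
        omega
      simp only [this, tsum_zero, nonpos_iff_eq_zero] at hz
      exact hθ hz⟩
    ⟨N, hle.trans (ENNReal.tsum_le_tsum fun σ => by
      split_ifs with a b
      · exact le_rfl
      · exact absurd ⟨a, (abs_le.1 (hN σ a)).2⟩ b
      · exact zero_le
      · exact le_rfl)⟩
  refine ⟨α, h1, not_le.1 fun h => ?_⟩
  have := h2 _ h
  omega

theorem split (hμ : Elliptic μ) (hT : Top ℓ lam i0) {cap : ℤ → ℝ≥0∞} {η : ℝ≥0∞}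
    (hth : Thin μ ℓ cap η) (n : ℤ) (hn : 0 < n) (hcap : cap n ≠ ⊤) (D : ℤ) (hD : 0 < D)
    (hnt : ∀ a : V d, ∑' l, (if Br ℓ n l ∧ ∀ i, |disp l i - a i| ≤ D then w μ l else 0) <
      η / (4 * ENNReal.ofReal lam)) :
    ∃ (g : ℤ) (j : Fin d) (α : ℤ) (Pm Pp : Pa d → Prop), n ≤ g ∧ g < n + lam ∧
      (∀ σ, Pm σ ∨ Pp σ → Br ℓ g σ ∧ lev ℓ (disp σ) = g ∧ sz σ ≤ cap n) ∧
      (∀ σ, Pm σ → disp σ j ≤ α) ∧ (∀ σ, Pp σ → α + D ≤ disp σ j) ∧
      η / (8 * d * ENNReal.ofReal lam) ≤ ∑' σ, (if Pm σ then w μ σ else 0) ∧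
      η / (8 * d * ENNReal.ofReal lam) ≤ ∑' σ, (if Pp σ then w μ σ else 0) := by
  obtain ⟨g, hg1, hg2, hW⟩ := dens_class hT hth n hn
  obtain ⟨P, hP⟩ : ∃ P : Pa d → Prop,
    P = fun σ => Br ℓ n σ ∧ sz σ ≤ cap n ∧ lev ℓ (disp σ) = g := ⟨_, rfl⟩
  have hP' : ∀ σ, P σ ↔ Br ℓ n σ ∧ sz σ ≤ cap n ∧ lev ℓ (disp σ) = g := fun σ => by rw [hP]
  simp only [← hP'] at hW
  obtain ⟨L, hL⟩ : ∃ L, L = ENNReal.ofReal lam := ⟨_, rfl⟩
  rw [← hL] at hW hnt ⊢
  have hL0 : L ≠ 0 := by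
    rw [hL]
    exact (ENNReal.ofReal_pos.2 (by exact_mod_cast hT.1)).ne'
  have hLt : L ≠ ⊤ := by rw [hL]; exact ENNReal.ofReal_ne_top
  have hd : (1 : ℝ≥0∞) ≤ d := by exact_mod_cast i0.pos
  have hd0 : (d : ℝ≥0∞) ≠ 0 := (zero_lt_one.trans_le hd).ne'
  have hηt : η ≠ ⊤ := ne_top_of_le_ne_top ENNReal.one_ne_top (hth.le_one hμ)
  have hA0 : 8 * (d : ℝ≥0∞) * L ≠ 0 := mul_ne_zero (mul_ne_zero (by norm_num) hd0) hL0
  have hAt : 8 * (d : ℝ≥0∞) * L ≠ ⊤ :=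
    ENNReal.mul_ne_top (ENNReal.mul_ne_top (by norm_num) (ENNReal.natCast_ne_top d)) hLt
  obtain ⟨θ, hθ⟩ : ∃ θ, θ = η / (8 * d * L) := ⟨_, rfl⟩
  rw [← hθ]
  have hη : θ * (8 * d * L) = η := by rw [hθ]; exact ENNReal.div_mul_cancel hA0 hAt
  have hθ0 : θ ≠ 0 := fun h => hth.1 (by rw [← hη, h, zero_mul])
  have hθt : θ ≠ ⊤ := by rw [hθ]; exact ENNReal.div_ne_top hηt hA0
  have e1 : 8 * d * θ ≤ η / L := by
    rw [ENNReal.le_div_iff_mul_le (Or.inl hL0) (Or.inl hLt), ← hη]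
    exact le_of_eq (by ring)
  have e2 : η / (4 * L) ≤ 2 * d * θ := by
    refine ENNReal.div_le_of_le_mul ?_
    rw [← hη]
    exact le_of_eq (by ring)
  have e3 : θ ≤ 8 * d * θ :=
    le_mul_of_one_le_left' (one_le_mul (by norm_num) hd)
  obtain ⟨N, hN⟩ := ENNReal.exists_nat_gt hcap
  have hb : ∀ j σ, P σ → |disp σ j| ≤ N := by
    intro j σ h
    have h1 : (dep 0 σ).card ≤ N := by
      have := ((hP' σ).1 h).2.1.trans hN.le
      unfold sz at this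
      exact_mod_cast this
    exact (abs_disp_le_card σ j).trans (by exact_mod_cast h1)
  choose α hα1 hα2 using fun j : Fin d =>
    dens_quantile P (w μ) (fun σ => disp σ j) N (hb j) hθ0 (e3.trans (e1.trans hW))
  by_cases hex : ∃ j, θ ≤ ∑' σ, (if P σ ∧ α j + D ≤ disp σ j then w μ σ else 0)
  · obtain ⟨j, hj⟩ := hex
    refine ⟨g, j, α j, fun σ => P σ ∧ disp σ j ≤ α j, fun σ => P σ ∧ α j + D ≤ disp σ j,
      hg1, hg2, fun σ h => ?_, fun σ h => h.2, fun σ h => h.2, ?_, ?_⟩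
    · obtain ⟨h1, h2, h3⟩ := (hP' σ).1 (h.elim And.left And.left)
      exact ⟨⟨fun y hy => ⟨(h1.1 y hy).1, (h1.1 y hy).2.trans_le hg1⟩, h3.ge⟩, h3, h2⟩
    · exact (hα1 j).trans (le_of_eq (tsum_congr fun σ => by split_ifs <;> rfl))
    · exact hj.trans (le_of_eq (tsum_congr fun σ => by split_ifs <;> rfl))
  exfalso
  have hex' : ∀ j, ∑' σ, (if P σ ∧ α j + D ≤ disp σ j then w μ σ else 0) ≤ θ :=
    fun j => (not_le.1 fun h => hex ⟨j, h⟩).le
  have h1 : ∀ σ, (if P σ then w μ σ else 0) ≤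
      (if Br ℓ n σ ∧ ∀ i, |disp σ i - α i| ≤ D then w μ σ else 0) +
        ∑ j, ((if P σ ∧ disp σ j ≤ α j - 1 then w μ σ else 0) +
          (if P σ ∧ α j + D ≤ disp σ j then w μ σ else 0)) := by
    intro σ
    by_cases hσ : P σ
    swap
    · rw [if_neg hσ]
      exact zero_le
    rw [if_pos hσ]
    by_cases hbox : ∀ i, |disp σ i - α i| ≤ D
    · rw [if_pos ⟨((hP' σ).1 hσ).1, hbox⟩]
      exact le_self_add
    · obtain ⟨j, hj⟩ := not_forall.1 hbox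
      refine le_trans ?_ le_add_self
      refine le_trans ?_ (Finset.single_le_sum (fun _ _ => zero_le) (Finset.mem_univ j))
      by_cases h2 : disp σ j ≤ α j - 1
      · rw [if_pos ⟨hσ, h2⟩]
        exact le_self_add
      · have h3 : α j + D ≤ disp σ j := by
          rw [abs_le] at hj
          omega
        rw [if_pos (⟨hσ, h3⟩ : P σ ∧ α j + D ≤ disp σ j)]
        exact le_add_self
  have h2 := ENNReal.tsum_le_tsum h1
  rw [ENNReal.tsum_add, Summable.tsum_finsetSum fun _ _ => ENNReal.summable] at h2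
  simp only [ENNReal.tsum_add] at h2
  have h3 := Finset.sum_le_sum fun j (_ : j ∈ Finset.univ) => add_le_add (hα2 j).le (hex' j)
  rw [Finset.sum_const, Finset.card_univ, Fintype.card_fin, nsmul_eq_mul] at h3
  have h4 := ENNReal.add_lt_add_of_lt_of_le
    (ne_top_of_le_ne_top (ENNReal.mul_ne_top (ENNReal.natCast_ne_top d)
      (ENNReal.add_ne_top.2 ⟨hθt, hθt⟩)) h3) ((hnt α).trans_le e2) h3
  have h5 : 2 * d * θ + d * (θ + θ) ≤ 8 * d * θ := by
    have : 8 * d * θ = 2 * d * θ + d * (θ + θ) + 4 * d * θ := by ring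
    rw [this]
    exact le_self_add
  exact lt_irrefl _ ((((e1.trans hW).trans h2).trans_lt h4).trans_le h5)

end Vale.Agent.P147
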