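import Vale.Agent.P147.Basic

/-! Annealed weights: shift invariance, positivity, independence. -/

namespace Vale.Agent.P147

open MeasureTheory
open scoped ENNReal Classical

variable {d : ℕ} {μ : Measure (St d → ℝ)} [IsProbabilityMeasure μ]

instance : IsProbabilityMeasure (env μ) := by unfold env; infer_instance

lemma measurable_q (x : V d) (l : Pa d) : Measurable fun ω : V d → St d → ℝ => q ω x l := by
  induction l generalizing x with
  | nil => simp
  | cons e l ih =>
    exact (((measurable_pi_apply e).comp (measurable_pi_apply x)).ennreal_ofReal).mul (ih _)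
lemma ae_ell (hμ : Elliptic μ) : ∀ᵐ ω ∂env μ, ∀ x, (∀ e, 0 < ω x e) ∧ ∑ e, ω x e = 1 := by
  rw [ae_all_iff]
  intro x
  exact (measurePreserving_eval_infinitePi (fun _ : V d => μ) x).quasiMeasurePreserving.ae hμ
lemma ae_subSt (hμ : Elliptic μ) : ∀ᵐ ω ∂env μ, SubSt ω := by
  filter_upwards [ae_ell hμ] with ω h x
  rw [← ENNReal.ofReal_sum_of_nonneg fun e _ => ((h x).1 e).le, (h x).2]
  simp
lemma q_shift (ω : V d → St d → ℝ) (x y : V d) (l : Pa d) :
    q (fun z => ω (x + z)) y l = q ω (x + y) l := by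
  induction l generalizing y with
  | nil => simp
  | cons e l ih => simp [ih, add_assoc]
lemma w_shift (x : V d) (l : Pa d) : ∫⁻ ω, q ω x l ∂env μ = w μ l := by
  have h := Measure.infinitePi_map_piCongrLeft (fun _ : V d => μ) (Equiv.addLeft (-x))
  have h2 : w μ l = ∫⁻ ω, q ω 0 l ∂(Measure.map
      (MeasurableEquiv.piCongrLeft (fun _ : V d => St d → ℝ) (Equiv.addLeft (-x))) (env μ)) := by
    unfold w env; rw [h]
  rw [h2, lintegral_map_equiv]
  refine lintegral_congr fun ω => ?_
  have : (MeasurableEquiv.piCongrLeft (fun _ : V d => St d → ℝ) (Equiv.addLeft (-x))) ω =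
      fun z => ω (x + z) := by
    funext z
    simp [MeasurableEquiv.coe_piCongrLeft, Equiv.piCongrLeft_apply_eq_cast]
  rw [this, q_shift, add_zero]
@[simp] lemma w_nil : w μ ([] : Pa d) = 1 := by simp [w]
lemma w_ne_zero (hμ : Elliptic μ) (l : Pa d) : w μ l ≠ 0 := by
  intro h
  rw [w, lintegral_eq_zero_iff (measurable_q 0 l)] at h
  obtain ⟨ω, h1, h2⟩ := (h.and (ae_ell hμ)).exists
  have : ∀ (l : Pa d) (x : V d), q ω x l ≠ 0 := fun l => by
    induction l with
    | nil => simp
    | cons e l ih => exact fun x => mul_ne_zero (by simpa using (h2 x).1 e) (ih _)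
  exact this l 0 h1
lemma w_le_one (hμ : Elliptic μ) (l : Pa d) : w μ l ≤ 1 := by
  refine (lintegral_mono_ae ((ae_subSt hμ).mono fun ω h => q_le_one h 0 l)).trans (by simp)
lemma q_congr {ω ω' : V d → St d → ℝ} {x : V d} {l : Pa d} (h : ∀ y ∈ dep x l, ω y = ω' y) :
    q ω x l = q ω' x l := by
  induction l generalizing x with
  | nil => simp
  | cons e l ih =>
    rw [q_cons, q_cons, h x (by simp), ih fun y hy => h y (by simp [hy])]
lemma indep_dep {S T : Finset (V d)} (h : Disjoint S T) {f g : (V d → St d → ℝ) → ℝ≥0∞}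
    (hf : Measurable f) (hg : Measurable g) (hfS : ∀ ω ω', (∀ y ∈ S, ω y = ω' y) → f ω = f ω')
    (hgT : ∀ ω ω', (∀ y ∈ T, ω y = ω' y) → g ω = g ω') :
    ∫⁻ ω, f ω * g ω ∂env μ = (∫⁻ ω, f ω ∂env μ) * ∫⁻ ω, g ω ∂env μ := by
  have hi : ProbabilityTheory.iIndepFun (fun (i : V d) (ω : V d → St d → ℝ) => ω i) (env μ) :=
    ProbabilityTheory.iIndepFun_infinitePi (X := fun _ p => p) fun _ => measurable_id
  have h2 := hi.indepFun_finset S T h fun i => measurable_pi_apply i
  have hm : ∀ S : Finset (V d), Measurable fun (ξ : S → St d → ℝ) (y : V d) =>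
      if h : y ∈ S then ξ ⟨y, h⟩ else 0 := fun S => measurable_pi_lambda _ fun y => by
    split_ifs
    · exact measurable_pi_apply _
    · exact measurable_const
  have h3 := h2.comp (hf.comp (hm S)) (hg.comp (hm T))
  have e1 : ((f ∘ fun (ξ : S → St d → ℝ) (y : V d) => if h : y ∈ S then ξ ⟨y, h⟩ else 0) ∘
      fun (a : V d → St d → ℝ) (i : S) => a i) = f :=
    funext fun ω => hfS _ _ fun y hy => by simp [hy]
  have e2 : ((g ∘ fun (ξ : T → St d → ℝ) (y : V d) => if h : y ∈ T then ξ ⟨y, h⟩ else 0) ∘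
      fun (a : V d → St d → ℝ) (i : T) => a i) = g :=
    funext fun ω => hgT _ _ fun y hy => by simp [hy]
  rw [e1, e2] at h3
  exact ProbabilityTheory.lintegral_mul_eq_lintegral_mul_lintegral_of_indepFun hf hg h3
lemma indep2 {x y : V d} {a b : Pa d} (h : Disjoint (dep x a) (dep y b)) :
    ∫⁻ ω, q ω x a * q ω y b ∂env μ = w μ a * w μ b := by
  rw [indep_dep h (measurable_q x a) (measurable_q y b) (fun _ _ => q_congr) fun _ _ => q_congr,
    w_shift, w_shift]
lemma indep3 {x y z : V d} {a b c : Pa d} (hab : Disjoint (dep x a) (dep y b))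
    (hac : Disjoint (dep x a) (dep z c)) (hbc : Disjoint (dep y b) (dep z c)) :
    ∫⁻ ω, q ω x a * q ω y b * q ω z c ∂env μ = w μ a * w μ b * w μ c := by
  rw [indep_dep (f := fun ω => q ω x a * q ω y b) (Finset.disjoint_union_left.2 ⟨hac, hbc⟩)
    ((measurable_q x a).mul (measurable_q y b)) (measurable_q z c) (fun ω ω' h => by
      rw [q_congr fun y hy => h y (Finset.mem_union_left _ hy),
        q_congr fun y hy => h y (Finset.mem_union_right _ hy)]) fun _ _ => q_congr,
    indep2 hab, w_shift]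
lemma w_append {a b : Pa d} (h : Disjoint (dep 0 a) (dep (disp a) b)) :
    w μ (a ++ b) = w μ a * w μ b := by
  rw [← indep2 h, w]
  simp [q_append]
lemma w_append_le_right (hμ : Elliptic μ) (a b : Pa d) : w μ (a ++ b) ≤ w μ b := by
  rw [← w_shift (disp a) b, w]
  refine lintegral_mono_ae ((ae_subSt hμ).mono fun ω h => ?_)
  simp only [q_append, zero_add]
  exact mul_le_of_le_one_left' (q_le_one h _ _)
lemma tsum_w_eq (A : Pa d → Prop) (x : V d) :
    ∑' l, (if A l then w μ l else 0) = ∫⁻ ω, ∑' l, (if A l then q ω x l else 0) ∂env μ := by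
  rw [lintegral_tsum fun l => ?_]
  · refine tsum_congr fun l => ?_
    split_ifs
    · exact (w_shift x l).symm
    · simp
  · split_ifs
    · exact (measurable_q x l).aemeasurable
    · exact aemeasurable_const
lemma L0w (hμ : Elliptic μ) {A : Pa d → Prop} (hA : PF A) :
    ∑' l, (if A l then w μ l else 0) ≤ 1 := by
  rw [tsum_w_eq A 0]
  exact (lintegral_mono_ae ((ae_subSt hμ).mono fun ω h => L0 h hA 0)).trans (by simp)
lemma ext_le_w (hμ : Elliptic μ) {A B : Pa d → Prop} (hA : PF A)
    (hAB : ∀ l, A l → ∃ b r, B b ∧ l = b ++ r) :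
    ∑' l, (if A l then w μ l else 0) ≤ ∑' l, (if B l then w μ l else 0) := by
  rw [tsum_w_eq A 0, tsum_w_eq B 0]
  exact lintegral_mono_ae ((ae_subSt hμ).mono fun ω h => ext_le h hA hAB 0)

end Vale.Agent.P147
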