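import Vale.Agent.P147.ZM

/-! Margins, and the loss in a window when the up-walk is confined. -/

namespace Vale.Agent.P147

open MeasureTheory
open scoped ENNReal Classical

variable {d : ℕ} {μ : Measure (St d → ℝ)} [IsProbabilityMeasure μ]
  {ℓ : V d} {lam : ℤ} {i0 : Fin d}

/-- bridges of bounded length -/
noncomputable def lossaTr (μ : Measure (St d → ℝ)) (ℓ : V d) (ρ : ℕ) (s : ℤ) (l : Pa d) : ℝ≥0∞ :=
  if l.length ≤ ρ then cb μ ℓ ⊤ s l else 0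

lemma lossa_tr_sub (ρ : ℕ) (s : ℤ) : Sub μ ℓ s (lossaTr μ ℓ ρ s) :=
  (sub_cb ⊤ s).mono fun l => by
    unfold lossaTr
    split_ifs
    · exact le_rfl
    · exact zero_le

omit [IsProbabilityMeasure μ] in
lemma lossa_tr_len {ρ : ℕ} {s : ℤ} {l : Pa d} (h : lossaTr μ ℓ ρ s l ≠ 0) :
    (l.length : ℤ) ≤ ρ := by
  unfold lossaTr at h
  split_ifs at h with h1
  · exact_mod_cast h1
  · exact absurd rfl h

lemma lossa_tr_mass (hμ : Elliptic μ) {η : ℝ≥0∞} (hth : Thin μ ℓ (fun _ => ⊤) η) (I : Finset ℤ) :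
    ∃ ρ0 : ℕ, ∀ ρ : ℕ, ρ0 ≤ ρ → ∀ s ∈ I, η / 2 ≤ ∑' l, lossaTr μ ℓ ρ s l := by
  have hη : η ≠ ⊤ := ne_top_of_le_ne_top ENNReal.one_ne_top (hth.le_one hμ)
  choose r hr using fun s : ℤ => exists_trunc hη (hth.2.2.2 s)
  exact ⟨I.sup r, fun ρ hρ s hs => hr s ρ ((Finset.le_sup hs).trans hρ)⟩

/-- wrap an inner piece between two short bridges -/
theorem wrap (hμ : Elliptic μ) (hT : Top ℓ lam i0) {η : ℝ≥0∞} (hth : Thin μ ℓ (fun _ => ⊤) η)
    (K S : ℤ) (hK : 0 < K) : ∃ ρ0 : ℕ, ∀ ρ : ℕ, ρ0 ≤ ρ →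
      ∀ (H K₂ : ℤ) (hin : ℤ → ℤ) (inner : ℤ → Pa d → ℝ≥0∞) (c : ℝ≥0∞),
      (∀ g, K ≤ g → g < K + lam → Sub μ ℓ (hin g) (inner g) ∧ c ≤ ∑' l, inner g l ∧
        0 ≤ hin g ∧ g + hin g ≤ H - K₂ ∧ H - g - hin g ≤ S) → 0 ≤ K₂ →
      ∃ m, Sub μ ℓ H m ∧ η / 2 * (c * (η / 2)) ≤ ∑' l, m l ∧
        (∀ l, m l ≠ 0 → ∀ y ∈ dep 0 l, (lev ℓ y < K → ∀ i, |y i| ≤ ρ) ∧
          (H - K₂ ≤ lev ℓ y → ∀ i, |y i - disp l i| ≤ ρ)) ∧
        (∀ l, m l ≠ 0 → ∃ g b, K ≤ g ∧ g < K + lam ∧ inner g b ≠ 0 ∧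
          ∀ i, |disp l i - disp b i| ≤ 2 * ρ) ∧
        ∀ ν ε, (∀ g, K ≤ g → g < K + lam → Sm ℓ (inner g) ν ε) → Sm ℓ m ν ε := by
  obtain ⟨ρ0, hρ0⟩ := lossa_tr_mass hμ hth (Finset.Icc (-lam) (max S K))
  refine ⟨ρ0, fun ρ hρ H K₂ hin inner c hin' hK₂ => ?_⟩
  have hlam := hT.1
  have hg : ∀ a, lossaTr μ ℓ ρ K a ≠ 0 → K ≤ lev ℓ (disp a) ∧ lev ℓ (disp a) < K + lam :=
    fun a ha => ⟨((lossa_tr_sub ρ K a).2 ha).2, ((lossa_tr_sub ρ K a).2 ha).gain_lt hT hK.le⟩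
  have hKH : K ≤ H := by
    obtain ⟨-, -, h1, h2, -⟩ := hin' K le_rfl (by omega)
    omega
  have hdec : ∀ l, star ℓ (lossaTr μ ℓ ρ K) (fun g => star ℓ (inner g)
      fun g' => lossaTr μ ℓ ρ (H - g - g')) l ≠ 0 → ∃ a b e, l = a ++ (b ++ e) ∧
        lossaTr μ ℓ ρ K a ≠ 0 ∧ inner (lev ℓ (disp a)) b ≠ 0 ∧
        lossaTr μ ℓ ρ (H - lev ℓ (disp a) - lev ℓ (disp b)) e ≠ 0 := by
    intro l hl
    obtain ⟨a, r, rfl, ha, hr⟩ := star_ne_zero hl
    obtain ⟨b, e, rfl, hb, he⟩ := star_ne_zero hr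
    exact ⟨a, b, e, rfl, ha, hb, he⟩
  refine ⟨star ℓ (lossaTr μ ℓ ρ K) fun g => star ℓ (inner g)
    fun g' => lossaTr μ ℓ ρ (H - g - g'), ?_, ?_, fun l hl y hy => ?_, fun l hl => ?_,
    fun ν ε hν => ?_⟩
  · refine sub_star (lossa_tr_sub ρ K) (fun a ha => ?_) hKH
    obtain ⟨h1, -, h2, h3, -⟩ := hin' _ (hg a ha).1 (hg a ha).2
    exact sub_star h1 (fun b _ => lossa_tr_sub ρ _) (by omega)
  · refine mass_star (hρ0 ρ hρ K (Finset.mem_Icc.2 ⟨by omega, le_max_right _ _⟩)) fun a ha => ?_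
    obtain ⟨h1, h0, h2, h3, h4⟩ := hin' _ (hg a ha).1 (hg a ha).2
    refine mass_star h0 fun b hb => hρ0 ρ hρ _ (Finset.mem_Icc.2 ⟨?_, ?_⟩)
    · have := ((h1 b).2 hb).gain_lt hT h2
      omega
    · have := ((h1 b).2 hb).2
      exact le_trans (by omega) (le_max_left _ _)
  · obtain ⟨a, b, e, rfl, ha, hb, he⟩ := hdec l hl
    obtain ⟨h1, -, h2, h3, -⟩ := hin' _ (hg a ha).1 (hg a ha).2
    have hga := hg a ha
    have hBa := (lossa_tr_sub ρ K a).2 ha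
    have hBb := (h1 b).2 hb
    have hBe := (lossa_tr_sub ρ _ e).2 he
    have hgb := hBb.gain_nonneg
    rw [dep_append, dep_append, zero_add, Finset.mem_union, Finset.mem_union] at hy
    rcases hy with hy | hy | hy
    · have h4 := hBa.1 y hy
      refine ⟨fun _ i => ?_, fun h5 => by omega⟩
      have := abs_dep_le_length hy i
      rw [Pi.zero_apply, sub_zero] at this
      exact this.trans (lossa_tr_len ha)
    · have h4 := hBb.1 _ ((mem_dep_shift _ _ _).1 hy)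
      rw [lev_sub] at h4
      exact ⟨fun h5 => by omega, fun h5 => by omega⟩
    · have h4 := hBe.1 _ ((mem_dep_shift _ _ _).1 hy)
      rw [lev_sub, lev_add] at h4
      refine ⟨fun h5 => by omega, fun _ i => ?_⟩
      have := abs_dep_end_le_length hy i
      rw [disp_append, disp_append, ← add_assoc]
      exact this.trans (lossa_tr_len he)
  · obtain ⟨a, b, e, rfl, ha, hb, he⟩ := hdec l hl
    refine ⟨_, b, (hg a ha).1, (hg a ha).2, hb, fun i => ?_⟩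
    have h1 := (abs_disp_le_length a i).trans (lossa_tr_len ha)
    have h2 := (abs_disp_le_length e i).trans (lossa_tr_len he)
    simp only [disp_append, Pi.add_apply]
    rw [abs_le] at h1 h2 ⊢
    omega
  · have h0 := hν K le_rfl (by omega)
    refine sm_star_right ((lossa_tr_sub ρ K).mass_le_one hμ) ⟨h0.1, h0.2.1⟩ fun a ha => ?_
    exact sm_star_left (hν _ (hg a ha).1 (hg a ha).2)
      fun b _ => (lossa_tr_sub ρ _).mass_le_one hμ

lemma lossa_finset (ν : V d → ℝ≥0∞) (s : ℝ≥0∞) (hs : ∀ z, ν z ≤ s) (C : Finset (V d))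
    (x : V d) (G : V d → ℝ≥0∞) (hG : ∀ z, ν z ≠ 0 → G (x + z) ≠ 0 → x + z ∈ C) :
    ∑' z, ν z * G (x + z) ≤ s * ∑ c ∈ C, G c := by
  have h1 : ∀ z, ν z * G (x + z) ≤ s * (if x + z ∈ C then G (x + z) else 0) := by
    intro z
    by_cases hz : ν z = 0
    · simp [hz]
    by_cases hz' : G (x + z) = 0
    · simp [hz']
    rw [if_pos (hG z hz hz')]
    exact mul_le_mul_left (hs z) _
  refine (ENNReal.tsum_le_tsum h1).trans (le_of_eq ?_)
  rw [ENNReal.tsum_mul_left]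
  congr 1
  refine ((Equiv.addLeft x).tsum_eq (fun c => if c ∈ C then G c else 0)).trans ?_
  rw [tsum_eq_sum (s := C) fun c hc => if_neg hc]
  exact Finset.sum_congr rfl fun c hc => if_pos hc

lemma lossa_box (ν : V d → ℝ≥0∞) (s : ℝ≥0∞) (hs : ∀ z, ν z ≤ s) (ρ : ℕ) (x : V d) :
    ∑' z, ν z * (if ∀ i, |(x + z) i| ≤ 2 * ρ then 1 else 0) ≤ (4 * ρ + 1) ^ d * s := by
  have h1 := lossa_finset ν s hs (Fintype.piFinset fun _ => Finset.Icc (-(2 * ρ : ℤ)) (2 * ρ)) x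
    (fun c => if ∀ i, |c i| ≤ 2 * ρ then 1 else 0) (by
      intro z _ hz
      rw [Fintype.mem_piFinset]
      intro i
      have : ∀ i, |(x + z) i| ≤ 2 * ρ := by
        by_contra h
        exact hz (if_neg h)
      exact Finset.mem_Icc.2 (abs_le.1 (this i)))
  refine h1.trans ?_
  rw [mul_comm]
  refine mul_le_mul_left ?_ _
  refine (Finset.sum_le_card_nsmul _ _ 1 fun c _ => by split_ifs <;> simp).trans ?_
  rw [Fintype.card_piFinset, Finset.prod_const, Finset.card_univ, Fintype.card_fin, Int.card_Icc]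
  have : (2 * (ρ : ℤ) + 1 - -(2 * ρ)).toNat = 4 * ρ + 1 := by omega
  rw [this]
  simp

lemma lossa_card (hT : Top ℓ lam i0) (lo : ℤ) (x : V d) (R : ℕ) :
    ((Fintype.piFinset fun i => Finset.Icc (x i - R) (x i + R)).filter
      fun c => lo ≤ lev ℓ c ∧ lev ℓ c < lo + lam).card ≤ lam.toNat * (2 * R + 1) ^ (d - 1) := by
  have hl : ℓ i0 ≠ 0 := fun h => by
    have := hT.2.2
    rw [h, abs_zero] at this
    exact hT.1.ne this
  have h1 : ((Fintype.piFinset fun i => Finset.Icc (x i - R) (x i + R)).filter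
      fun c => lo ≤ lev ℓ c ∧ lev ℓ c < lo + lam).card ≤
      (Finset.Ico lo (lo + lam) ×ˢ Fintype.piFinset
        (Function.update (fun i => Finset.Icc (x i - R) (x i + R)) i0 {0})).card := by
    refine Finset.card_le_card_of_injOn (fun c => (lev ℓ c, Function.update c i0 0)) ?_ ?_
    · intro c hc
      obtain ⟨h1, h2⟩ := Finset.mem_filter.1 (Finset.mem_coe.1 hc)
      refine Finset.mem_coe.2 (Finset.mem_product.2 ⟨Finset.mem_Ico.2 h2, ?_⟩)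
      rw [Fintype.mem_piFinset] at h1 ⊢
      intro i
      by_cases hi : i = i0
      · subst hi
        simp
      · simp only [Function.update_of_ne hi]
        exact h1 i
    · intro c _ c' _ h
      have h1 : lev ℓ c = lev ℓ c' := congrArg Prod.fst h
      have h2 : Function.update c i0 0 = Function.update c' i0 0 := congrArg Prod.snd h
      have h3 : ∀ i, i ≠ i0 → c i = c' i := fun i hi => by
        have := congrFun h2 i
        rwa [Function.update_of_ne hi, Function.update_of_ne hi] at this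
      have h4 : lev ℓ (c - c') = ℓ i0 * (c i0 - c' i0) := by
        unfold lev
        rw [Finset.sum_eq_single i0]
        · rfl
        · intro i _ hi
          rw [Pi.sub_apply, h3 i hi, sub_self, mul_zero]
        · simp
      rw [lev_sub, h1, sub_self] at h4
      have h5 := (mul_eq_zero.1 h4.symm).resolve_left hl
      funext i
      by_cases hi : i = i0
      · rw [hi]
        omega
      · exact h3 i hi
  refine h1.trans (le_of_eq ?_)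
  rw [Finset.card_product, Int.card_Ico, add_sub_cancel_left, Fintype.card_piFinset]
  congr 1
  rw [← Finset.mul_prod_erase _ _ (Finset.mem_univ i0), Function.update_self,
    Finset.card_singleton, one_mul]
  have : ∀ i ∈ Finset.univ.erase i0, (Function.update
      (fun i => Finset.Icc (x i - R) (x i + R)) i0 {0} i).card = 2 * R + 1 := by
    intro i hi
    rw [Function.update_of_ne (Finset.ne_of_mem_erase hi), Int.card_Icc]
    omega
  rw [Finset.prod_congr rfl this, Finset.prod_const, Finset.card_erase_of_mem (Finset.mem_univ _),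
    Finset.card_univ, Fintype.card_fin]

/-- weight of the pairs that only meet in the middle -/
noncomputable def lossaG (μ : Measure (St d → ℝ)) (ℓ : V d) (K H : ℤ) (β : Pa d) (c : V d) :
    ℝ≥0∞ :=
  ∑' γ, (if Br ℓ H β ∧ Br (-ℓ) (lev ℓ c + 1) γ ∧ Hit β c γ ∧
    (∀ x ∈ dep 0 β, x ∈ dep c γ → K ≤ lev ℓ x ∧ lev ℓ x ≤ lev ℓ c - K) then w μ β * w μ γ else 0)

lemma lossa_cases {K H : ℤ} {ρ : ℕ} {β γ : Pa d} {v : V d} (hc : H - lam ≤ lev ℓ (v + disp β))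
    (hβ : ∀ y ∈ dep 0 β, (lev ℓ y < K → ∀ i, |y i| ≤ ρ) ∧
      (H - (K + lam) ≤ lev ℓ y → ∀ i, |y i - disp β i| ≤ ρ))
    (hγ : ∀ y ∈ dep 0 γ, (lev (-ℓ) y < K → ∀ i, |y i| ≤ ρ) ∧
      (lev ℓ (v + disp β) + 1 - K ≤ lev (-ℓ) y → ∀ i, |y i - disp γ i| ≤ ρ)) :
    (∀ i, |v i| ≤ 2 * ρ) ∨ (∀ i, |(v + disp β + disp γ) i| ≤ 2 * ρ) ∨
      ∀ x ∈ dep 0 β, x ∈ dep (v + disp β) γ →
        K ≤ lev ℓ x ∧ lev ℓ x ≤ lev ℓ (v + disp β) - K := by
  by_cases h : ∀ x ∈ dep 0 β, x ∈ dep (v + disp β) γ →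
      K ≤ lev ℓ x ∧ lev ℓ x ≤ lev ℓ (v + disp β) - K
  · exact Or.inr (Or.inr h)
  obtain ⟨x, hx⟩ := not_forall.1 h
  obtain ⟨hx1, hx⟩ := Classical.not_imp.1 hx
  obtain ⟨hx2, hx⟩ := Classical.not_imp.1 hx
  have h1 := hβ x hx1
  have h2 := hγ _ ((mem_dep_shift _ _ _).1 hx2)
  rw [lev_neg, lev_sub] at h2
  by_cases hl : lev ℓ x < K
  · refine Or.inr (Or.inl fun i => ?_)
    have a1 := h1.1 hl i
    have a2 := h2.2 (by omega) i
    simp only [Pi.add_apply, Pi.sub_apply] at a2 ⊢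
    rw [abs_le] at a1 a2 ⊢
    omega
  · refine Or.inl fun i => ?_
    have a1 := h1.2 (by omega) i
    have a2 := h2.1 (by omega) i
    simp only [Pi.add_apply, Pi.sub_apply] at a2 ⊢
    rw [abs_le] at a1 a2 ⊢
    omega

lemma lossa_point (hμ : Elliptic μ) (hT : Top ℓ lam i0) (K H : ℤ) (ρ : ℕ)
    (mX : Pa d → ℝ≥0∞) (mY : ℤ → Pa d → ℝ≥0∞) (ν' : V d → ℝ≥0∞) (s' ε : ℝ≥0∞)
    (hH : 0 ≤ H) (hX : Sub μ ℓ H mX)
    (hXm : ∀ l, mX l ≠ 0 → ∀ y ∈ dep 0 l, (lev ℓ y < K → ∀ i, |y i| ≤ ρ) ∧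
      (H - (K + lam) ≤ lev ℓ y → ∀ i, |y i - disp l i| ≤ ρ))
    (hY : ∀ t, H - lam ≤ t → t ≤ H + lam → Sub μ (-ℓ) t (mY t) ∧ Sm ℓ (mY t) ν' ε ∧
      ∀ l, mY t l ≠ 0 → ∀ y ∈ dep 0 l, (lev (-ℓ) y < K → ∀ i, |y i| ≤ ρ) ∧
        (t - K ≤ lev (-ℓ) y → ∀ i, |y i - disp l i| ≤ ρ))
    (hs' : ∀ z, ν' z ≤ s') (v : V d) :
    loss ℓ lam mX mY v ≤ (if ∀ i, |v i| ≤ 2 * ρ then 1 else 0) + ((4 * ρ + 1) ^ d * s' + ε) +
      ∑' β, if mX β ≠ 0 then lossaG μ ℓ K H β (v + disp β) else 0 := by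
  unfold loss
  by_cases hv : -lam ≤ lev ℓ v ∧ lev ℓ v < 0
  swap
  · rw [if_neg hv]
    exact zero_le
  rw [if_pos hv]
  obtain ⟨A, hA⟩ : ∃ A : ℝ≥0∞, A = if ∀ i, |v i| ≤ 2 * ρ then 1 else 0 := ⟨_, rfl⟩
  obtain ⟨B, hB⟩ : ∃ B : ℝ≥0∞, B = (4 * ρ + 1) ^ d * s' := ⟨_, rfl⟩
  rw [← hA, ← hB]
  have key : ∀ β, mX β * ∑' γ, mY (lev ℓ (v + disp β) + 1) γ *
      (if Hit β (v + disp β) γ then 1 else 0) ≤
      mX β * (A + (B + ε)) + if mX β ≠ 0 then lossaG μ ℓ K H β (v + disp β) else 0 := by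
    intro β
    by_cases hβ : mX β = 0
    · simp [hβ]
    rw [if_pos hβ]
    have hBr := (hX β).2 hβ
    have g1 := hBr.2
    have g2 := hBr.gain_lt hT hH
    have g3 := lev_add ℓ v (disp β)
    obtain ⟨y1, y2, y3⟩ := hY (lev ℓ (v + disp β) + 1) (by omega) (by omega)
    have p1 : ∀ γ, mX β * (mY (lev ℓ (v + disp β) + 1) γ *
        (if Hit β (v + disp β) γ then 1 else 0)) ≤
        mX β * (mY (lev ℓ (v + disp β) + 1) γ * A + mY (lev ℓ (v + disp β) + 1) γ *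
          (if ∀ i, |(v + disp β + disp γ) i| ≤ 2 * ρ then 1 else 0)) +
        (if Br ℓ H β ∧ Br (-ℓ) (lev ℓ (v + disp β) + 1) γ ∧ Hit β (v + disp β) γ ∧
          (∀ x ∈ dep 0 β, x ∈ dep (v + disp β) γ →
            K ≤ lev ℓ x ∧ lev ℓ x ≤ lev ℓ (v + disp β) - K) then w μ β * w μ γ else 0) := by
      intro γ
      by_cases hγ : mY (lev ℓ (v + disp β) + 1) γ = 0
      · simp [hγ]
      by_cases hh : Hit β (v + disp β) γ
      swap
      · simp [hh]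
      rw [if_pos hh]
      rcases lossa_cases (by omega) (hXm β hβ) (y3 γ hγ) with h | h | h
      · rw [hA, if_pos h]
        exact (mul_le_mul_right le_self_add _).trans le_self_add
      · rw [if_pos h]
        exact (mul_le_mul_right le_add_self _).trans le_self_add
      · refine le_trans ?_ le_add_self
        rw [if_pos ⟨hBr, (y1 γ).2 hγ, hh, h⟩, mul_one]
        exact mul_le_mul' (hX β).1 (y1 γ).1
    rw [← ENNReal.tsum_mul_left]
    refine (ENNReal.tsum_le_tsum p1).trans ?_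
    rw [ENNReal.tsum_add, ENNReal.tsum_mul_left, ENNReal.tsum_add, ENNReal.tsum_mul_right]
    refine add_le_add (mul_le_mul_right (add_le_add ?_ ?_) _) le_rfl
    · exact mul_le_of_le_one_left' (y1.mass_le_one hμ)
    · refine y2.2.2 (fun c => if ∀ i, |c i| ≤ 2 * ρ then 1 else 0)
        (fun c => by split_ifs <;> simp) (v + disp β) B fun x => ?_
      rw [hB]
      exact lossa_box ν' s' hs' ρ x
  refine (ENNReal.tsum_le_tsum key).trans ?_
  rw [ENNReal.tsum_add, ENNReal.tsum_mul_right]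
  exact add_le_add (mul_le_of_le_one_left' (hX.mass_le_one hμ)) le_rfl

theorem loss_conf (hμ : Elliptic μ) (hT : Top ℓ lam i0) (K H : ℤ) (ρ R R₁ : ℕ) (a : V d)
    (mX : Pa d → ℝ≥0∞) (mY : ℤ → Pa d → ℝ≥0∞) (ν ν' : V d → ℝ≥0∞) (s s' ε δ : ℝ≥0∞)
    (hK : 0 < K) (hH : K + lam ≤ H)
    (hδ1 : ∀ T, K ≤ T → U μ ℓ K ≤ U μ ℓ T + δ) (hδ2 : ∀ T, K ≤ T → U μ (-ℓ) K ≤ U μ (-ℓ) T + δ)
    (hX : Sub μ ℓ H mX)
    (hXm : ∀ l, mX l ≠ 0 → ∀ y ∈ dep 0 l, (lev ℓ y < K → ∀ i, |y i| ≤ ρ) ∧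
      (H - (K + lam) ≤ lev ℓ y → ∀ i, |y i - disp l i| ≤ ρ))
    (hXc : ∀ l, mX l ≠ 0 → ∀ i, |disp l i - a i| ≤ R)
    (hY : ∀ t, H - lam ≤ t → t ≤ H + lam → Sub μ (-ℓ) t (mY t) ∧ Sm ℓ (mY t) ν' ε ∧
      ∀ l, mY t l ≠ 0 → ∀ y ∈ dep 0 l, (lev (-ℓ) y < K → ∀ i, |y i| ≤ ρ) ∧
        (t - K ≤ lev (-ℓ) y → ∀ i, |y i - disp l i| ≤ ρ))
    (hs' : ∀ z, ν' z ≤ s') (hs : ∀ z, ν z ≤ s) (hν1 : ∑' z, ν z ≤ 1)
    (hν0 : ∀ z, ν z ≠ 0 → lev ℓ z = 0 ∧ ∀ i, |z i| ≤ R₁) (y : V d) :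
    ∑' z, ν z * loss ℓ lam mX mY (y + z) ≤
      (4 * ρ + 1) ^ d * s + ((4 * ρ + 1) ^ d * s' + ε) +
        s * (ENNReal.ofReal lam * (2 * (R + R₁) + 1) ^ (d - 1)) * (4 * δ) := by
  have hlam := hT.1
  by_cases hy : -lam ≤ lev ℓ y ∧ lev ℓ y < 0
  swap
  · have : ∀ z, ν z * loss ℓ lam mX mY (y + z) = 0 := by
      intro z
      by_cases hz : ν z = 0
      · rw [hz, zero_mul]
      · rw [loss, if_neg, mul_zero]
        rwa [lev_add, (hν0 z hz).1, add_zero]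
    simp [this]
  have h1 := ENNReal.tsum_le_tsum fun z => mul_le_mul_right
    (lossa_point hμ hT K H ρ mX mY ν' s' ε (by omega) hX hXm hY hs' (y + z)) (ν z)
  refine h1.trans ?_
  simp only [mul_add (ν _)]
  rw [ENNReal.tsum_add, ENNReal.tsum_add]
  refine add_le_add (add_le_add (lossa_box ν s hs ρ y) ?_) ?_
  · simp only [← mul_add]
    rw [ENNReal.tsum_mul_right]
    exact mul_le_of_le_one_left' hν1
  obtain ⟨C, hC⟩ : ∃ C : Finset (V d), C = (Fintype.piFinset fun i =>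
      Finset.Icc ((y + a) i - (R + R₁ : ℕ)) ((y + a) i + (R + R₁ : ℕ))).filter
      fun c => lev ℓ y + H ≤ lev ℓ c ∧ lev ℓ c < lev ℓ y + H + lam := ⟨_, rfl⟩
  have hcard : (C.card : ℝ≥0∞) ≤ ENNReal.ofReal lam * (2 * (R + R₁) + 1) ^ (d - 1) := by
    have e : ENNReal.ofReal lam = (lam.toNat : ℝ≥0∞) := by
      have : (lam : ℝ) = ((lam.toNat : ℕ) : ℝ) := by
        exact_mod_cast (Int.toNat_of_nonneg hlam.le).symm
      rw [this, ENNReal.ofReal_natCast]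
    rw [e, hC]
    exact_mod_cast lossa_card hT (lev ℓ y + H) (y + a) (R + R₁)
  simp only [← ENNReal.tsum_mul_left]
  rw [ENNReal.tsum_comm]
  have h2 : ∀ β, ∑' z, ν z * (if mX β ≠ 0 then lossaG μ ℓ K H β (y + z + disp β) else 0) ≤
      s * ∑ c ∈ C, lossaG μ ℓ K H β c := by
    intro β
    by_cases hβ : mX β = 0
    · simp [hβ]
    simp only [if_pos hβ, add_right_comm y _ (disp β)]
    refine lossa_finset ν s hs C (y + disp β) (lossaG μ ℓ K H β) fun z hz _ => ?_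
    have hBr := (hX β).2 hβ
    have g1 := hBr.2
    have g2 := hBr.gain_lt hT (by omega)
    obtain ⟨z1, z2⟩ := hν0 z hz
    rw [hC, Finset.mem_filter, Fintype.mem_piFinset]
    refine ⟨fun i => ?_, ?_⟩
    · have a1 := hXc β hβ i
      have a2 := z2 i
      simp only [Finset.mem_Icc, Pi.add_apply]
      rw [abs_le] at a1 a2
      omega
    · simp only [lev_add, z1]
      omega
  refine (ENNReal.tsum_le_tsum h2).trans ?_
  rw [ENNReal.tsum_mul_left, Summable.tsum_finsetSum fun _ _ => ENNReal.summable, mul_assoc]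
  refine mul_le_mul_right ?_ _
  have h3 : ∀ c ∈ C, ∑' β, lossaG μ ℓ K H β c ≤ 4 * δ := by
    intro c hc
    rw [hC] at hc
    obtain ⟨c1, c2⟩ := (Finset.mem_filter.1 hc).2
    refine (zm hμ ℓ K (H + lam) H c δ δ hK (by omega) (by omega) (by omega) (by omega)
      (hδ1 _ (by omega)) (hδ2 _ (by omega))).trans (le_of_eq (by ring))
  refine (Finset.sum_le_card_nsmul _ _ _ h3).trans ?_
  rw [nsmul_eq_mul]
  exact mul_le_mul_left hcard _

end Vale.Agent.P147
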