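import Mathlib

namespace Vale.Agent.P147

open MeasureTheory Filter

/-- The unit steps: `(i, true)` is `+e_i` and `(i, false)` is `-e_i`. -/
abbrev St (d : ℕ) := Fin d × Bool

/-- The vector of a unit step. -/
def vec {d : ℕ} (e : St d) : Fin d → ℤ := Pi.single e.1 (if e.2 then 1 else -1)

/-- Position `X_n` of the walk from the origin whose successive steps are `s 0, s 1, ...`. -/
def pos {d : ℕ} (s : ℕ → St d) (n : ℕ) : Fin d → ℤ := ∑ i ∈ Finset.range n, vec (s i)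

/-- The law of one row is carried by probability vectors with positive entries. -/
def Elliptic {d : ℕ} (μ : Measure (St d → ℝ)) : Prop :=
  ∀ᵐ p ∂μ, (∀ e, 0 < p e) ∧ ∑ e, p e = 1

/-- `P` is the annealed law of the walk from the origin (encoded by its steps) in the iid
environment with row law `μ`. -/
def IsAnnealed {d : ℕ} (μ : Measure (St d → ℝ)) (P : Measure (ℕ → St d)) : Prop :=
  IsProbabilityMeasure P ∧ ∀ (n : ℕ) (t : ℕ → St d), P {s | ∀ i < n, s i = t i} =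
    ∫⁻ ω, ∏ i ∈ Finset.range n, ENNReal.ofReal (ω (pos t i) (t i))
      ∂(Measure.infinitePi fun _ : Fin d → ℤ => μ)

/-- Euclidean inner product. -/
def dot {d : ℕ} (ℓ : Fin d → ℝ) (x : Fin d → ℤ) : ℝ := ∑ i, ℓ i * (x i : ℝ)

/-- The event `A_ℓ`. -/
def Escape {d : ℕ} (ℓ : Fin d → ℝ) : Set (ℕ → St d) :=
  {s | Tendsto (fun n => dot ℓ (pos s n)) atTop atTop}

/-- `liminf X_n . ℓ / n > 0`. -/
def Ballistic {d : ℕ} (ℓ : Fin d → ℝ) : Set (ℕ → St d) :=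
  {s | ∃ c : ℝ, 0 < c ∧ ∀ᶠ n : ℕ in atTop, c * n ≤ dot ℓ (pos s n)}

/-- Number `R_n` of distinct sites among `X_0, ..., X_n`. -/
def rangeSize {d : ℕ} (s : ℕ → St d) (n : ℕ) : ℕ :=
  ((Finset.range (n + 1)).image (pos s)).card

/-- Escape in direction `ℓ` with `liminf X_n . ℓ / R_n ^ a > 0`. -/
def RangeEscape {d : ℕ} (ℓ : Fin d → ℝ) (a : ℝ) : Set (ℕ → St d) :=
  {s | s ∈ Escape ℓ ∧ ∃ c : ℝ, 0 < c ∧
    ∀ᶠ n : ℕ in atTop, c * (rangeSize s n : ℝ) ^ a ≤ dot ℓ (pos s n)}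

/-- On `A_ℓ`, with probability bounded below uniformly in `n`, the first point of the walk
at or above level `n` lies in a deterministic box of radius `K √n`. -/
def Diffusive {d : ℕ} (P : Measure (ℕ → St d)) (ℓ : Fin d → ℝ) : Prop :=
  ∃ (K : ℝ) (c : ENNReal), 0 < c ∧ ∀ᶠ n : ℕ in atTop, ∃ a : Fin d → ℝ,
    c ≤ P {s | s ∈ Escape ℓ ∧ ∃ t : ℕ, (∀ i < t, dot ℓ (pos s i) < n) ∧
      (n : ℝ) ≤ dot ℓ (pos s t) ∧ ∀ j, |(pos s t j : ℝ) - a j| ≤ K * Real.sqrt n}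

end Vale.Agent.P147
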