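import Vale.Agent.P147.Br

/-! From events of the annealed law to masses of bridges. -/

namespace Vale.Agent.P147

open MeasureTheory
open scoped ENNReal Classical

variable {d : ℕ} {μ : Measure (St d → ℝ)} [IsProbabilityMeasure μ] {P : Measure (ℕ → St d)}

/-- the steps number `a, ..., a + n - 1` -/
def redSeg (s : ℕ → St d) : ℕ → ℕ → Pa d
  | _, 0 => []
  | a, n + 1 => s a :: redSeg s (a + 1) n

lemma red_length (s : ℕ → St d) (a n : ℕ) : (redSeg s a n).length = n := by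
  induction n generalizing a with
  | zero => rfl
  | succ n ih => simp [redSeg, ih]

lemma red_seg_add (s : ℕ → St d) (a m n : ℕ) :
    redSeg s a (m + n) = redSeg s a m ++ redSeg s (a + m) n := by
  induction m generalizing a with
  | zero => simp [redSeg]
  | succ m ih =>
    rw [show m + 1 + n = (m + n) + 1 by ring, redSeg, redSeg, ih,
      show a + 1 + m = a + (m + 1) by ring]
    rfl

lemma red_pos_zero (s : ℕ → St d) : pos s 0 = 0 := by simp [pos]

lemma red_pos_succ (s : ℕ → St d) (n : ℕ) : pos s (n + 1) = pos s n + vec (s n) := by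
  simp [pos, Finset.sum_range_succ]

lemma red_disp (s : ℕ → St d) (a n : ℕ) : pos s a + disp (redSeg s a n) = pos s (a + n) := by
  induction n generalizing a with
  | zero => simp [redSeg]
  | succ n ih =>
    rw [redSeg, disp_cons, ← add_assoc, ← red_pos_succ, ih, show a + 1 + n = a + (n + 1) by ring]

lemma red_disp0 (s : ℕ → St d) (n : ℕ) : disp (redSeg s 0 n) = pos s n := by
  have := red_disp s 0 n
  rwa [red_pos_zero, zero_add, zero_add] at this

lemma red_mem_dep (s : ℕ → St d) (a n : ℕ) (y : V d) (hy : y ∈ dep (pos s a) (redSeg s a n)) :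
    ∃ i < n, y = pos s (a + i) := by
  induction n generalizing a with
  | zero => simp [redSeg] at hy
  | succ n ih =>
    rw [redSeg, dep_cons, Finset.mem_insert, ← red_pos_succ] at hy
    rcases hy with rfl | hy
    · exact ⟨0, by omega, rfl⟩
    · obtain ⟨i, hi, rfl⟩ := ih _ hy
      exact ⟨i + 1, by omega, by rw [show a + 1 + i = a + (i + 1) by ring]⟩

lemma red_seg_eq {s t : ℕ → St d} {a n : ℕ} (h : redSeg s a n = redSeg t a n) :
    ∀ i < n, s (a + i) = t (a + i) := by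
  induction n generalizing a with
  | zero => intro i hi; omega
  | succ n ih =>
    rw [redSeg, redSeg, List.cons.injEq] at h
    intro i hi
    cases i with
    | zero => exact h.1
    | succ i =>
      rw [show a + (i + 1) = a + 1 + i by ring]
      exact ih h.2 i (by omega)

lemma red_q (ω : V d → St d → ℝ) (s : ℕ → St d) (a n : ℕ) :
    q ω (pos s a) (redSeg s a n) =
      ∏ i ∈ Finset.range n, ENNReal.ofReal (ω (pos s (a + i)) (s (a + i))) := by
  induction n generalizing a with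
  | zero => simp [redSeg]
  | succ n ih =>
    rw [redSeg, q_cons, ← red_pos_succ, ih, Finset.prod_range_succ', mul_comm]
    simp only [add_zero, add_assoc, add_comm 1]

omit [IsProbabilityMeasure μ] in
lemma red_cyl (hP : IsAnnealed μ P) (l : Pa d) : P {s | redSeg s 0 l.length = l} ≤ w μ l := by
  rcases Set.eq_empty_or_nonempty {s : ℕ → St d | redSeg s 0 l.length = l} with h | ⟨t, ht⟩
  · rw [h]; simp
  · have ht' : redSeg t 0 l.length = l := ht
    calc P {s | redSeg s 0 l.length = l} ≤ P {s | ∀ i < l.length, s i = t i} := by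
          refine measure_mono fun s hs i hi => ?_
          have hs' : redSeg s 0 l.length = l := hs
          simpa using red_seg_eq (hs'.trans ht'.symm) i hi
      _ = w μ l := by
          rw [hP.2, w, env]
          refine lintegral_congr fun ω => ?_
          have := red_q ω t 0 l.length
          rw [red_pos_zero, ht'] at this
          simpa using this.symm

lemma red_cover (hμ : Elliptic μ) (hP : IsAnnealed μ P) (l0 : Pa d) (A : Pa d → Prop)
    (f : Pa d → ℝ≥0∞) (hf : ∀ l, A l → f l = w μ l) (E : Set (ℕ → St d))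
    (hE : ∀ s ∈ E, redSeg s 0 l0.length = l0 ∧ ∃ T, A (redSeg s l0.length T)) :
    P E ≤ ∑' l, f l := by
  calc P E ≤ P (⋃ l : Pa d, {s | A l ∧ redSeg s 0 (l0 ++ l).length = l0 ++ l}) := by
        refine measure_mono fun s hs => ?_
        obtain ⟨h1, T, h2⟩ := hE s hs
        refine Set.mem_iUnion.2 ⟨_, h2, ?_⟩
        rw [List.length_append, red_seg_add, h1, red_length, zero_add]
    _ ≤ ∑' l : Pa d, P {s | A l ∧ redSeg s 0 (l0 ++ l).length = l0 ++ l} := measure_iUnion_le _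
    _ ≤ _ := by
        refine ENNReal.tsum_le_tsum fun l => ?_
        by_cases h : A l
        · rw [hf l h]
          exact ((measure_mono fun s hs => hs.2).trans (red_cyl hP _)).trans
            (w_append_le_right hμ _ _)
        · simp [h]

lemma red_dot (ℓ x : V d) : dot (fun i => (ℓ i : ℝ)) x = (lev ℓ x : ℝ) := by
  simp [dot, lev]

lemma red_min {ℓ : V d} {s : ℕ → St d} (hs : s ∈ Escape fun i => (ℓ i : ℝ)) (n0 : ℕ) :
    ∃ t, n0 ≤ t ∧ ∀ n, t ≤ n → lev ℓ (pos s t) ≤ lev ℓ (pos s n) := by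
  have h1 : Filter.Tendsto (fun n => dot (fun i => (ℓ i : ℝ)) (pos s (n + n0))) Filter.cofinite
      Filter.atTop := by
    rw [Nat.cofinite_eq_atTop]
    exact (Filter.tendsto_add_atTop_iff_nat n0).2 hs
  obtain ⟨t, ht⟩ := h1.exists_forall_le
  refine ⟨t + n0, by omega, fun n hn => ?_⟩
  have := ht (n - n0)
  rw [red_dot, red_dot, show n - n0 + n0 = n by omega] at this
  exact_mod_cast this

lemma red_br {ℓ : V d} {s : ℕ → St d} {t T : ℕ} {h : ℤ}
    (h1 : ∀ n, t ≤ n → lev ℓ (pos s t) ≤ lev ℓ (pos s n))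
    (h2 : ∀ i < T, lev ℓ (pos s (t + i)) < lev ℓ (pos s t) + h)
    (h3 : lev ℓ (pos s t) + h ≤ lev ℓ (pos s (t + T))) : Br ℓ h (redSeg s t T) := by
  constructor
  · intro y hy
    have hy' : y + pos s t ∈ dep (pos s t) (redSeg s t T) := by
      rw [mem_dep_shift]; simpa using hy
    obtain ⟨i, hi, e⟩ := red_mem_dep s t T _ hy'
    have e' := congrArg (lev ℓ) e
    rw [lev_add] at e'
    have := h1 (t + i) (by omega)
    have := h2 i hi
    constructor <;> linarith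
  · have e' := congrArg (lev ℓ) (red_disp s t T)
    rw [lev_add] at e'
    linarith

lemma red_card (s : ℕ → St d) (t T n : ℕ) (h : t + T ≤ n + 1) :
    (dep 0 (redSeg s t T)).card ≤ rangeSize s n := by
  rw [← card_dep_shift (pos s t), rangeSize]
  refine Finset.card_le_card fun y hy => ?_
  obtain ⟨i, hi, rfl⟩ := red_mem_dep s t T y hy
  exact Finset.mem_image.2 ⟨t + i, Finset.mem_range.2 (by omega), rfl⟩

lemma red_thin (hμ : Elliptic μ) (hP : IsAnnealed μ P) (ℓ : V d) (l0 : Pa d)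
    (cap : ℤ → ℝ≥0∞) (E : Set (ℕ → St d))
    (hE : ∀ s ∈ E, s ∈ Escape (fun i => (ℓ i : ℝ)) ∧ redSeg s 0 l0.length = l0 ∧
      (∀ n, l0.length ≤ n → lev ℓ (pos s l0.length) ≤ lev ℓ (pos s n)) ∧
      ∀ h : ℤ, 0 < h → ∀ n, l0.length ≤ n → lev ℓ (pos s n) < lev ℓ (pos s l0.length) + h →
        (rangeSize s n : ℝ≥0∞) ≤ cap h) (h : ℤ) : P E ≤ ∑' l, cb μ ℓ (cap h) h l := by
  refine red_cover hμ hP l0 (fun l => Br ℓ h l ∧ sz l ≤ cap h) _ (fun l hl => if_pos hl) E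
    fun s hs => ?_
  obtain ⟨h1, h2, h3, h4⟩ := hE s hs
  refine ⟨h2, ?_⟩
  rcases le_or_gt h 0 with hh | hh
  · exact ⟨0, br_nil hh, by simp [redSeg, sz]⟩
  have hex : ∃ T, lev ℓ (pos s l0.length) + h ≤ lev ℓ (pos s (l0.length + T)) := by
    obtain ⟨N, hN⟩ := Filter.eventually_atTop.1
      (Filter.Tendsto.eventually_ge_atTop h1 ((lev ℓ (pos s l0.length) + h : ℤ) : ℝ))
    refine ⟨N, ?_⟩
    have := hN (l0.length + N) (by omega)
    rw [red_dot] at this
    exact_mod_cast this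
  have h5 : ∀ i < Nat.find hex, lev ℓ (pos s (l0.length + i)) < lev ℓ (pos s l0.length) + h :=
    fun i hi => not_le.1 (Nat.find_min hex hi)
  refine ⟨Nat.find hex, red_br h3 h5 (Nat.find_spec hex), ?_⟩
  have h6 : 0 < Nat.find hex := by
    rw [Nat.find_pos]
    simp only [add_zero, not_le]
    linarith
  refine le_trans ?_ (h4 h hh (l0.length + (Nat.find hex - 1)) (by omega) (h5 _ (by omega)))
  exact Nat.cast_le.2 (red_card s _ _ _ (by omega))

lemma red_exists_pos {α ι : Type*} [MeasurableSpace α] [Countable ι] {P : Measure α}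
    {E : Set α} (h : 0 < P E) (F : ι → Set α) (hF : ∀ s ∈ E, ∃ i, s ∈ F i) :
    ∃ i, P (F i) ≠ 0 := by
  by_contra hne
  push Not at hne
  have : P E = 0 :=
    measure_mono_null (fun s hs => Set.mem_iUnion.2 (hF s hs)) (measure_iUnion_null hne)
  exact h.ne' this

theorem thin_of_escape (hμ : Elliptic μ) (hP : IsAnnealed μ P) (ℓ : V d)
    (h : 0 < P (Escape fun i => (ℓ i : ℝ))) : ∃ η, Thin μ ℓ (fun _ => ⊤) η := by
  obtain ⟨l0, hl0⟩ := red_exists_pos h (fun l0 : Pa d => {s | s ∈ Escape (fun i => (ℓ i : ℝ)) ∧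
      redSeg s 0 l0.length = l0 ∧
      ∀ n, l0.length ≤ n → lev ℓ (pos s l0.length) ≤ lev ℓ (pos s n)}) (by
    intro s hs
    obtain ⟨t, -, ht⟩ := red_min hs 0
    exact ⟨redSeg s 0 t, hs, by rw [red_length], by rwa [red_length]⟩)
  exact ⟨_, hl0, monotone_const, fun _ => le_top, red_thin hμ hP ℓ l0 (fun _ => ⊤) _
    fun s hs => ⟨hs.1, hs.2.1, hs.2.2, fun _ _ _ _ _ => le_top⟩⟩

lemma red_exists_inv {c : ℝ} (hc : 0 < c) : ∃ m : ℕ, 1 ≤ ((m : ℝ) + 1) * c := by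
  obtain ⟨m, hm⟩ := exists_nat_ge (1 / c)
  rw [div_le_iff₀ hc] at hm
  exact ⟨m, by nlinarith⟩

theorem thin_of_range (hμ : Elliptic μ) (hP : IsAnnealed μ P) (ℓ : V d) (a : ℝ) (ha0 : 0 < a)
    (ha1 : a ≤ 1) (h : 0 < P (RangeEscape (fun i => (ℓ i : ℝ)) a)) :
    ∃ (κ : ℕ) (η : ℝ≥0∞), Thin μ ℓ (fun h => κ * ENNReal.ofReal h ^ (1 / a)) η := by
  obtain ⟨⟨m, l0⟩, hl0⟩ := red_exists_pos h (fun p : ℕ × Pa d =>
    {s | s ∈ Escape (fun i => (ℓ i : ℝ)) ∧ redSeg s 0 p.2.length = p.2 ∧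
      (∀ n, p.2.length ≤ n → lev ℓ (pos s p.2.length) ≤ lev ℓ (pos s n)) ∧
      ∀ n, p.2.length ≤ n → (rangeSize s n : ℝ) ^ a ≤ ((p.1 : ℝ) + 1) * lev ℓ (pos s n)}) (by
    rintro s ⟨hs, c, hc, hev⟩
    obtain ⟨n0, hn0⟩ := Filter.eventually_atTop.1 hev
    obtain ⟨t, ht0, ht⟩ := red_min hs n0
    obtain ⟨m, hm⟩ := red_exists_inv hc
    refine ⟨(m, redSeg s 0 t), hs, by simp only [red_length], by simpa only [red_length] using ht,
      ?_⟩
    simp only [red_length]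
    intro n hn
    have h1 := hn0 n (by omega)
    rw [red_dot] at h1
    have h2 : (0 : ℝ) ≤ (rangeSize s n : ℝ) ^ a := by positivity
    have h3 : (0 : ℝ) ≤ (m : ℝ) + 1 := by positivity
    nlinarith [mul_le_mul_of_nonneg_left h1 h3])
  have hia : 1 ≤ 1 / a := by rw [le_div_iff₀ ha0]; linarith
  set B : ℝ := ((m : ℝ) + 1) * (|(lev ℓ (disp l0) : ℝ)| + 1) with hB
  have hB1 : 1 ≤ B := by
    have : (0 : ℝ) ≤ m := Nat.cast_nonneg m
    have := abs_nonneg (lev ℓ (disp l0) : ℝ)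
    nlinarith
  have hκ : B ^ (1 / a) ≤ (⌈B ^ (1 / a)⌉₊ : ℝ) := Nat.le_ceil _
  have hκ1 : (1 : ℝ) ≤ (⌈B ^ (1 / a)⌉₊ : ℝ) := (Real.one_le_rpow hB1 (by linarith)).trans hκ
  refine ⟨⌈B ^ (1 / a)⌉₊, _, hl0, fun x y hxy => ?_, fun h => ?_,
    red_thin hμ hP ℓ l0 _ _ fun s hs => ⟨hs.1, hs.2.1, hs.2.2.1, fun h hh n hn hlt => ?_⟩⟩
  · have : (x : ℝ) ≤ y := by exact_mod_cast hxy
    dsimp only
    gcongr
  · rcases le_or_gt h 0 with hh | hh
    · have : (h : ℝ) ≤ 0 := by exact_mod_cast hh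
      simp [ENNReal.ofReal_of_nonpos this]
    · have h1 : (1 : ℝ) ≤ h := by exact_mod_cast hh
      have h2 : (1 : ℝ≥0∞) ≤ ENNReal.ofReal h := ENNReal.one_le_ofReal.2 h1
      have h3 : (1 : ℝ≥0∞) ≤ (⌈B ^ (1 / a)⌉₊ : ℕ) := by exact_mod_cast hκ1
      calc ENNReal.ofReal h = 1 * ENNReal.ofReal h ^ (1 : ℝ) := by simp
        _ ≤ _ := mul_le_mul' h3 (ENNReal.rpow_le_rpow_of_exponent_le h2 hia)
  · have h1 : (1 : ℝ) ≤ h := by exact_mod_cast hh
    have h2 := hs.2.2.2 n hn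
    have h3 : pos s l0.length = disp l0 := by rw [← red_disp0, hs.2.1]
    rw [h3] at hlt
    have h4 : (lev ℓ (pos s n) : ℝ) ≤ (|(lev ℓ (disp l0) : ℝ)| + 1) * h := by
      have h5 : (lev ℓ (pos s n) : ℝ) < lev ℓ (disp l0) + h := by exact_mod_cast hlt
      have := le_abs_self (lev ℓ (disp l0) : ℝ)
      have := abs_nonneg (lev ℓ (disp l0) : ℝ)
      nlinarith
    have h5 : (rangeSize s n : ℝ) ^ a ≤ B * h := by
      rw [hB, mul_assoc]
      exact h2.trans (mul_le_mul_of_nonneg_left h4 (by positivity))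
    have h6 : (rangeSize s n : ℝ) ≤ (⌈B ^ (1 / a)⌉₊ : ℝ) * (h : ℝ) ^ (1 / a) := by
      calc (rangeSize s n : ℝ) = ((rangeSize s n : ℝ) ^ a) ^ (1 / a) := by
            rw [one_div, Real.rpow_rpow_inv (Nat.cast_nonneg _) ha0.ne']
        _ ≤ (B * h) ^ (1 / a) := Real.rpow_le_rpow (by positivity) h5 (by linarith)
        _ = B ^ (1 / a) * (h : ℝ) ^ (1 / a) := Real.mul_rpow (by linarith) (by linarith)
        _ ≤ _ := mul_le_mul_of_nonneg_right hκ (by positivity)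
    rw [ENNReal.ofReal_rpow_of_nonneg (by linarith) (by linarith), ← ENNReal.ofReal_natCast,
      ← ENNReal.ofReal_natCast ⌈B ^ (1 / a)⌉₊, ← ENNReal.ofReal_mul (Nat.cast_nonneg _)]
    exact ENNReal.ofReal_le_ofReal h6

lemma red_meas (ℓ : V d) (n : ℕ) : Measurable fun s : ℕ → St d => lev ℓ (pos s n) := by
  induction n with
  | zero => simp [red_pos_zero]
  | succ n ih =>
    simp only [red_pos_succ, lev_add]
    exact ih.add ((measurable_of_countable fun e : St d => lev ℓ (vec e)).comp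
      (measurable_pi_apply n))

lemma red_abs_lev {ℓ : V d} {lam : ℤ} {i0 : Fin d} (hT : Top ℓ lam i0) (s : ℕ → St d) (n : ℕ) :
    |lev ℓ (pos s n)| ≤ n * lam := by
  induction n with
  | zero => simp [red_pos_zero]
  | succ n ih =>
    rw [red_pos_succ, lev_add]
    have := hT.abs_lev_vec_le (s n)
    have := abs_add_le (lev ℓ (pos s n)) (lev ℓ (vec (s n)))
    push_cast
    linarith

omit [IsProbabilityMeasure μ] in
lemma red_exists_time (hP : IsAnnealed μ P) (ℓ : V d) {c : ℝ≥0∞} (hc : 0 < c) :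
    ∃ t : ℕ, P {s | s ∈ Escape (fun i => (ℓ i : ℝ)) ∧
      ¬ ∃ u ≤ t, ∀ n, u ≤ n → lev ℓ (pos s u) ≤ lev ℓ (pos s n)} ≤ c := by
  have := hP.1
  let G : ℕ → Set (ℕ → St d) := fun t =>
    {s | ∃ u ≤ t, ∀ n, u ≤ n → lev ℓ (pos s u) ≤ lev ℓ (pos s n)}
  have hG : ∀ t, MeasurableSet (G t) := by
    intro t
    have : G t = ⋃ u ∈ Set.Iic t, ⋂ n ∈ Set.Ici u, {s | lev ℓ (pos s u) ≤ lev ℓ (pos s n)} := by
      ext s; simp [G]
    rw [this]
    exact MeasurableSet.biUnion (Set.to_countable _) fun u _ =>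
      MeasurableSet.biInter (Set.to_countable _) fun n _ =>
        measurableSet_le (red_meas ℓ u) (red_meas ℓ n)
  have hanti : Antitone fun t => (⋃ u, G u) \ G t := by
    intro t t' htt' s hs
    exact ⟨hs.1, fun ⟨u, hu, h⟩ => hs.2 ⟨u, hu.trans htt', h⟩⟩
  have hlim := tendsto_measure_iInter_atTop (μ := P) (s := fun t => (⋃ u, G u) \ G t)
    (fun t => ((MeasurableSet.iUnion hG).diff (hG t)).nullMeasurableSet) hanti
    ⟨0, measure_ne_top _ _⟩
  have hemp : ⋂ t, (⋃ u, G u) \ G t = ∅ := by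
    rw [← Set.sdiff_iUnion, Set.sdiff_self]
  rw [hemp, measure_empty] at hlim
  obtain ⟨t, ht⟩ := (hlim.eventually (ge_mem_nhds hc)).exists
  refine ⟨t, le_trans (measure_mono fun s hs => ?_) ht⟩
  refine ⟨?_, hs.2⟩
  obtain ⟨u, -, hu⟩ := red_min hs.1 0
  exact Set.mem_iUnion.2 ⟨u, u, le_rfl, hu⟩

lemma red_sq {K x y : ℝ} {n L : ℕ} (hn : 1 ≤ n) (h : |x - y| ≤ K * Real.sqrt ((n + L : ℕ) : ℝ)) :
    (x - round y) ^ 2 ≤ (⌈2 * K ^ 2 * (1 + L) + 2⌉₊ : ℝ) * n := by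
  have h1 : |y - round y| ≤ 1 / 2 := abs_sub_round y
  have h2 : |x - round y| ≤ K * Real.sqrt ((n + L : ℕ) : ℝ) + 1 := by
    have := abs_sub_le x y (round y)
    linarith
  have h3 : (x - round y) ^ 2 ≤ (K * Real.sqrt ((n + L : ℕ) : ℝ) + 1) ^ 2 := by
    rw [← sq_abs]
    exact pow_le_pow_left₀ (abs_nonneg _) h2 2
  have h4 : Real.sqrt ((n + L : ℕ) : ℝ) ^ 2 = n + L := by
    rw [Real.sq_sqrt (Nat.cast_nonneg _)]; push_cast; ring
  have h5 : (1 : ℝ) ≤ n := by exact_mod_cast hn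
  have h6 : (0 : ℝ) ≤ L := Nat.cast_nonneg L
  have h7 : (K * Real.sqrt ((n + L : ℕ) : ℝ) + 1) ^ 2 ≤ 2 * K ^ 2 * (n + L) + 2 := by
    rw [← h4]
    nlinarith [sq_nonneg (K * Real.sqrt ((n + L : ℕ) : ℝ) - 1)]
  have h8 : 2 * K ^ 2 * ((n : ℝ) + L) + 2 ≤ (2 * K ^ 2 * (1 + L) + 2) * n := by
    nlinarith [mul_nonneg (mul_nonneg (sq_nonneg K) h6) (sub_nonneg.2 h5)]
  have h9 := Nat.le_ceil (2 * K ^ 2 * (1 + L) + 2)
  nlinarith

theorem tight_of_diffusive (hμ : Elliptic μ) (hP : IsAnnealed μ P) {ℓ : V d} {lam : ℤ}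
    {i0 : Fin d} (hT : Top ℓ lam i0) (h : Diffusive P fun i => (ℓ i : ℝ)) : Tight μ ℓ := by
  have := hP.1
  obtain ⟨K, c, hc, hev⟩ := h
  obtain ⟨n0, hn0⟩ := Filter.eventually_atTop.1 hev
  have hctop : c ≠ ⊤ := by
    obtain ⟨a, ha⟩ := hn0 n0 le_rfl
    exact ne_top_of_le_ne_top (measure_ne_top _ _) ha
  obtain ⟨t, ht⟩ := red_exists_time hP ℓ (c := c / 2) (ENNReal.half_pos hc.ne')
  obtain ⟨L, hL⟩ : ∃ L : ℕ, (L : ℤ) = t * lam :=
    ⟨t * lam.toNat, by push_cast; rw [Int.toNat_of_nonneg hT.1.le]⟩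
  let F : Finset (Pa d) := (List.finite_length_le (St d) t).toFinset
  have hF : ∀ l : Pa d, l ∈ F ↔ l.length ≤ t := fun l => by simp [F]
  refine ⟨⌈2 * K ^ 2 * (1 + L) + 2⌉₊, 2 * L, n0 + 1, c / 2 / F.card, ?_, fun n hn => ?_⟩
  · exact ENNReal.div_ne_zero.2 ⟨(ENNReal.half_pos hc.ne').ne', ENNReal.natCast_ne_top _⟩
  obtain ⟨a, ha⟩ := hn0 (n + L) (by omega)
  set D := {s : ℕ → St d | s ∈ Escape (fun i => (ℓ i : ℝ)) ∧ ∃ T : ℕ,
    (∀ i < T, dot (fun i => (ℓ i : ℝ)) (pos s i) < (n + L : ℕ)) ∧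
    ((n + L : ℕ) : ℝ) ≤ dot (fun i => (ℓ i : ℝ)) (pos s T) ∧
    ∀ j, |(pos s T j : ℝ) - a j| ≤ K * Real.sqrt (n + L : ℕ)} with hD
  let E : Pa d → Set (ℕ → St d) := fun l0 => {s | s ∈ D ∧ redSeg s 0 l0.length = l0 ∧
    ∀ m, l0.length ≤ m → lev ℓ (pos s l0.length) ≤ lev ℓ (pos s m)}
  obtain ⟨l0, hl0, hmax⟩ := F.exists_max_image (fun l => P (E l)) ⟨[], (hF _).2 (by simp)⟩
  have h1 : c / 2 ≤ P (E l0) * F.card := by
    have h2 : c ≤ ∑ l ∈ F, P (E l) + c / 2 := by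
      calc c ≤ P D := ha
        _ ≤ P ((⋃ l ∈ F, E l) ∪ {s | s ∈ Escape (fun i => (ℓ i : ℝ)) ∧
            ¬ ∃ u ≤ t, ∀ n, u ≤ n → lev ℓ (pos s u) ≤ lev ℓ (pos s n)}) := by
          refine measure_mono fun s hs => ?_
          by_cases hu : ∃ u ≤ t, ∀ n, u ≤ n → lev ℓ (pos s u) ≤ lev ℓ (pos s n)
          · obtain ⟨u, hu, hu'⟩ := hu
            refine .inl (Set.mem_biUnion (x := redSeg s 0 u) ?_ ⟨hs, ?_, ?_⟩)
            · exact Finset.mem_coe.2 ((hF _).2 (by rwa [red_length]))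
            · rw [red_length]
            · rwa [red_length]
          · exact .inr ⟨hs.1, hu⟩
        _ ≤ _ := (measure_union_le _ _).trans (add_le_add (measure_biUnion_finset_le _ _) ht)
    have h3 : c / 2 ≤ ∑ l ∈ F, P (E l) := by
      nth_rw 1 [← ENNReal.add_halves c] at h2
      exact (ENNReal.add_le_add_iff_right (ENNReal.div_ne_top hctop two_ne_zero)).1 h2
    refine h3.trans ((Finset.sum_le_card_nsmul _ _ _ hmax).trans ?_)
    rw [nsmul_eq_mul, mul_comm]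
  rcases Set.eq_empty_or_nonempty (E l0) with he | ⟨s0, hs0⟩
  · rw [he, measure_empty, zero_mul] at h1
    exact absurd h1 (ENNReal.half_pos hc.ne').not_ge
  have hlen := (hF _).1 hl0
  have hlam : ∀ u : ℕ, u ≤ t → (u : ℤ) * lam ≤ L := fun u hu => by
    rw [hL]
    exact mul_le_mul_of_nonneg_right (by exact_mod_cast hu) hT.1.le
  have hb : |lev ℓ (disp l0)| ≤ L := by
    rw [← hs0.2.1, red_disp0]
    exact (red_abs_lev hT _ _).trans (hlam _ hlen)
  have hb' := abs_le.1 hb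
  refine ⟨n + L - lev ℓ (disp l0), fun j => round (a j) - disp l0 j, by linarith,
    by push_cast; linarith, (ENNReal.div_le_of_le_mul h1).trans ?_⟩
  refine red_cover hμ hP l0 _ _ (fun l hl => if_pos hl) (E l0) fun s hs => ⟨hs.2.1, ?_⟩
  obtain ⟨⟨-, T, k1, k2, k3⟩, k4, k5⟩ := hs
  have k6 : pos s l0.length = disp l0 := by rw [← red_disp0, k4]
  have k2' : (n : ℤ) + L ≤ lev ℓ (pos s T) := by
    rw [red_dot] at k2
    exact_mod_cast k2
  have k7 : l0.length ≤ T := by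
    by_contra hlt
    have := (abs_le.1 ((red_abs_lev hT s T).trans (hlam T (by omega)))).2
    omega
  obtain ⟨T', rfl⟩ := Nat.exists_eq_add_of_le k7
  refine ⟨T', red_br k5 (fun i hi => ?_) ?_, fun j => ?_⟩
  · have := k1 (l0.length + i) (by omega)
    rw [red_dot] at this
    have h' : lev ℓ (pos s (l0.length + i)) < (n : ℤ) + L := by exact_mod_cast this
    rw [k6]
    linarith
  · rw [k6]
    linarith
  · have k8 := congrFun (red_disp s l0.length T') j
    rw [k6, Pi.add_apply] at k8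
    have k9 := red_sq (by omega) (k3 j)
    rw [← k8] at k9
    have : ((disp (redSeg s l0.length T') j - (round (a j) - disp l0 j)) ^ 2 : ℤ) =
        (disp l0 j + disp (redSeg s l0.length T') j - round (a j)) ^ 2 := by ring
    rw [this]
    exact_mod_cast k9

theorem ballistic_subset (ℓ : Fin d → ℝ) : Ballistic ℓ ⊆ RangeEscape ℓ 1 := by
  rintro s ⟨c, hc, hev⟩
  refine ⟨Filter.tendsto_atTop_mono' _ hev
    (tendsto_natCast_atTop_atTop.const_mul_atTop hc), c / 2, by positivity, ?_⟩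
  filter_upwards [hev, Filter.eventually_ge_atTop 1] with n h1 h2
  have h3 : rangeSize s n ≤ 2 * n := by
    have := Finset.card_image_le (s := Finset.range (n + 1)) (f := pos s)
    rw [Finset.card_range] at this
    unfold rangeSize
    omega
  have h4 : (rangeSize s n : ℝ) ≤ 2 * n := by exact_mod_cast h3
  rw [Real.rpow_one]
  nlinarith

lemma red_abs_pos (s : ℕ → St d) (n : ℕ) (i : Fin d) : |(pos s n i : ℝ)| ≤ rangeSize s n := by
  have h1 := abs_disp_le_card (redSeg s 0 n) i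
  rw [red_disp0] at h1
  have h2 : ((dep 0 (redSeg s 0 n)).card : ℤ) ≤ rangeSize s n :=
    Nat.cast_le.2 (red_card s 0 n n (by omega))
  exact_mod_cast h1.trans h2

lemma red_level (P : Measure (ℕ → St d)) (ℓ : Fin d → ℝ) (h : 0 < P (RangeEscape ℓ 1)) :
    ∃ m : ℕ, ∀ m' : ℕ, m ≤ m' → 0 < P {s | s ∈ Escape ℓ ∧ ∀ᶠ n in Filter.atTop,
      (rangeSize s n : ℝ) ≤ ((m' : ℝ) + 1) * dot ℓ (pos s n)} := by
  obtain ⟨m, hm⟩ := red_exists_pos h (fun m : ℕ => {s | s ∈ Escape ℓ ∧ ∀ᶠ n in Filter.atTop,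
      (rangeSize s n : ℝ) ≤ ((m : ℝ) + 1) * dot ℓ (pos s n)}) (by
    rintro s ⟨hs, c, hc, hev⟩
    obtain ⟨m, hm⟩ := red_exists_inv hc
    refine ⟨m, hs, hev.mono fun n h1 => ?_⟩
    rw [Real.rpow_one] at h1
    have h2 : (0 : ℝ) ≤ (rangeSize s n : ℝ) := by positivity
    have h3 : (0 : ℝ) ≤ (m : ℝ) + 1 := by positivity
    nlinarith [mul_le_mul_of_nonneg_left h1 h3])
  refine ⟨m, fun m' hm' => (pos_iff_ne_zero.2 hm).trans_le (measure_mono fun s hs => ⟨hs.1, ?_⟩)⟩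
  filter_upwards [hs.2, Filter.Tendsto.eventually_ge_atTop hs.1 0] with n h1 h2
  have : (m : ℝ) ≤ m' := by exact_mod_cast hm'
  nlinarith

lemma red_perturb (ℓ : Fin d → ℝ) (ℓ' : V d) (m : ℕ)
    (h : ∀ i, |(ℓ' i : ℝ) - ((d + 1) * (m + 1) + 1) * ℓ i| ≤ 1) :
    {s : ℕ → St d | s ∈ Escape ℓ ∧ ∀ᶠ n in Filter.atTop,
      (rangeSize s n : ℝ) ≤ ((m : ℝ) + 1) * dot ℓ (pos s n)} ⊆
      RangeEscape (fun i => (ℓ' i : ℝ)) 1 := by
  rintro s ⟨hs, hev⟩
  have key : ∀ᶠ n in Filter.atTop,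
      dot ℓ (pos s n) + rangeSize s n ≤ dot (fun i => (ℓ' i : ℝ)) (pos s n) := by
    filter_upwards [hev] with n h1
    have h2 : ((d + 1) * (m + 1) + 1) * dot ℓ (pos s n) - d * rangeSize s n ≤
        dot (fun i => (ℓ' i : ℝ)) (pos s n) := by
      have h3 : (d : ℝ) * rangeSize s n = ∑ _i : Fin d, (rangeSize s n : ℝ) := by simp
      rw [h3, dot, dot, Finset.mul_sum, ← Finset.sum_sub_distrib]
      refine Finset.sum_le_sum fun i _ => ?_
      have h4 : |((ℓ' i : ℝ) - ((d + 1) * (m + 1) + 1) * ℓ i) * (pos s n i : ℝ)| ≤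
          1 * rangeSize s n := by
        rw [abs_mul]
        exact mul_le_mul (h i) (red_abs_pos s n i) (abs_nonneg _) zero_le_one
      have := (abs_le.1 h4).1
      linarith
    have h5 : (0 : ℝ) ≤ (d : ℝ) + 1 := by positivity
    nlinarith [mul_le_mul_of_nonneg_left h1 h5]
  refine ⟨Filter.tendsto_atTop_mono' _ (key.mono fun n hn => ?_) hs, 1, one_pos, ?_⟩
  · have : (0 : ℝ) ≤ rangeSize s n := Nat.cast_nonneg _
    linarith
  · filter_upwards [key, Filter.Tendsto.eventually_ge_atTop hs 0] with n h1 h2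
    rw [Real.rpow_one]
    linarith

theorem perturb (P : Measure (ℕ → St d)) (ℓ : Fin d → ℝ) (h1 : 0 < P (RangeEscape ℓ 1))
    (h2 : 0 < P (RangeEscape (-ℓ) 1)) : ∃ ℓ' : V d,
      0 < P (RangeEscape (fun i => (ℓ' i : ℝ)) 1) ∧
      0 < P (RangeEscape (fun i => ((-ℓ') i : ℝ)) 1) := by
  obtain ⟨m₁, hm₁⟩ := red_level P ℓ h1
  obtain ⟨m₂, hm₂⟩ := red_level P (-ℓ) h2
  have hr : ∀ x : ℝ, |(round x : ℝ) - x| ≤ 1 := fun x => by
    rw [abs_sub_comm]
    exact (abs_sub_round x).trans (by norm_num)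
  refine ⟨fun i => round ((((d : ℝ) + 1) * ((m₁ + m₂ : ℕ) + 1) + 1) * ℓ i),
    (hm₁ (m₁ + m₂) (by omega)).trans_le (measure_mono (red_perturb ℓ _ _ fun i => hr _)),
    (hm₂ (m₁ + m₂) (by omega)).trans_le (measure_mono (red_perturb (-ℓ) _ _ fun i => ?_))⟩
  simp only [Pi.neg_apply, Int.cast_neg, mul_neg]
  rw [← neg_sub', abs_neg]
  exact hr _

theorem ne_zero_of_escape {ℓ : V d} (h : (Escape fun i => (ℓ i : ℝ)).Nonempty) : ℓ ≠ 0 := by
  rintro rfl
  obtain ⟨s, hs⟩ := h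
  obtain ⟨n, hn⟩ := (Filter.Tendsto.eventually_ge_atTop hs 1).exists
  simp [dot] at hn
  linarith

end Vale.Agent.P147
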