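import Vale.Agent.P147.Br

/-! Resampling of patterns at special stages. -/

namespace Vale.Agent.P147

open MeasureTheory
open scoped ENNReal Classical

variable {d : ℕ} {μ : Measure (St d → ℝ)} [IsProbabilityMeasure μ]
  {ℓ : V d} {lam : ℤ} {i0 : Fin d}

lemma stage_surj {α β : Type*} (φ : β → α) {f : α → ℝ≥0∞} {g : β → ℝ≥0∞}
    (h : ∀ a, f a ≠ 0 → ∃ b, φ b = a ∧ f a ≤ g b) : ∑' a, f a ≤ ∑' b, g b := by
  calc ∑' a, f a ≤ ∑' a, ∑' b, if φ b = a then g b else 0 := by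
        refine ENNReal.tsum_le_tsum fun a => ?_
        by_cases h0 : f a = 0
        · simp [h0]
        · obtain ⟨b, h1, h2⟩ := h a h0
          exact le_trans (by rwa [if_pos h1]) (ENNReal.le_tsum b)
    _ = ∑' b, g b := by
        rw [ENNReal.tsum_comm]
        refine tsum_congr fun b => ?_
        rw [tsum_eq_single (φ b) fun a ha => if_neg (Ne.symm ha), if_pos rfl]

lemma stage_inj {α β : Type*} (φ : β → α) {f : α → ℝ≥0∞} {g : β → ℝ≥0∞}
    (hφ : ∀ b b', g b ≠ 0 → g b' ≠ 0 → φ b = φ b' → b = b') (h : ∀ b, g b ≤ f (φ b)) :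
    ∑' b, g b ≤ ∑' a, f a := by
  rw [← tsum_subtype_eq_of_support_subset (s := Function.support g) subset_rfl]
  exact (ENNReal.tsum_le_tsum fun b : Function.support g => h b).trans
    (ENNReal.tsum_comp_le_tsum_of_injective (f := fun b : Function.support g => φ b)
      (fun b b' e => Subtype.ext (hφ _ _ b.2 b'.2 e)) f)

lemma stage_br_right {h : ℤ} {a r : Pa d} (hl : Br ℓ h (a ++ r))
    (hr : ∀ y ∈ dep 0 r, 0 ≤ lev ℓ y) : Br ℓ (h - lev ℓ (disp a)) r := by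
  refine ⟨fun y hy => ⟨hr y hy, ?_⟩, ?_⟩
  · have h1 : y + disp a ∈ dep 0 (a ++ r) := by
      rw [dep_append, Finset.mem_union, zero_add]
      exact .inr ((mem_dep_shift _ _ _).2 (by simpa using hy))
    have h2 := (hl.1 _ h1).2
    rw [lev_add] at h2
    linarith
  · have h2 := hl.2
    rw [disp_append, lev_add] at h2
    linarith

lemma stage_init {h₁ h₂ : ℤ} {a b r r' : Pa d} (ha : Br ℓ h₁ a) (hb : Br ℓ h₂ b) (hh : h₁ ≤ h₂)
    (e : a ++ r = b ++ r') : ∃ c, b = a ++ c ∧ r = c ++ r' := by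
  obtain ⟨a', c, ha', rfl⟩ := hb.exists_init hh
  rw [List.append_assoc] at e
  obtain rfl := (br_pf ℓ h₁).unique ha ha' e
  exact ⟨c, rfl, List.append_cancel_left e⟩

lemma stage_nonneg_append {a r : Pa d} (ha : ∀ y ∈ dep 0 a, 0 ≤ lev ℓ y)
    (ha' : 0 ≤ lev ℓ (disp a)) (hr : ∀ y ∈ dep 0 r, 0 ≤ lev ℓ y) :
    ∀ y ∈ dep 0 (a ++ r), 0 ≤ lev ℓ y := by
  intro y hy
  rw [dep_append, Finset.mem_union, zero_add] at hy
  rcases hy with hy | hy
  · exact ha y hy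
  · have := hr _ ((mem_dep_shift _ _ _).1 hy)
    rw [lev_sub] at this
    linarith

lemma stage_nonneg_left {a r : Pa d} (h : ∀ y ∈ dep 0 (a ++ r), 0 ≤ lev ℓ y) :
    ∀ y ∈ dep 0 a, 0 ≤ lev ℓ y := fun y hy =>
  h y (by rw [dep_append]; exact Finset.mem_union_left _ hy)

/-- the stage `j` is special -/
def stageSp (ℓ : V d) (Pat : Pa d → Prop) (Λ t : ℤ) (j : ℕ) (l : Pa d) : Prop :=
  ∃ a s r, l = a ++ s ++ r ∧ Br ℓ (t + j * Λ) a ∧ Pat s ∧ ∀ y ∈ dep 0 r, 0 ≤ lev ℓ y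

/-- number of special stages -/
noncomputable def stageCnt (ℓ : V d) (Pat : Pa d → Prop) (Λ t : ℤ) (I : ℕ) (l : Pa d) : ℕ :=
  ((Finset.range I).filter fun j => stageSp ℓ Pat Λ t j l).card

/-- averaging over one pattern -/
noncomputable def stageT (μ : Measure (St d → ℝ)) (Pat : Pa d → Prop) (F : V d → ℝ≥0∞)
    (y : V d) : ℝ≥0∞ :=
  ∑' s, (if Pat s then w μ s else 0) * F (y + disp s)

section

variable {Pat : Pa d → Prop} {g Λ t : ℤ}

lemma stage_gap (hT : Top ℓ lam i0) (hg : 0 < g) (hΛ : g + lam ≤ Λ) (ht : 0 ≤ t) {i j : ℕ}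
    (hij : i < j) {a : Pa d} (ha : Br ℓ (t + i * Λ) a) : lev ℓ (disp a) + g ≤ t + j * Λ := by
  have h0 : 0 ≤ Λ := by linarith [hT.1]
  have h1 := ha.gain_lt hT (by positivity)
  have h2 : ((i : ℤ) + 1) * Λ ≤ j * Λ :=
    mul_le_mul_of_nonneg_right (by exact_mod_cast hij) h0
  linarith

lemma stage_br_pat (hg : 0 < g) (hPat : ∀ σ, Pat σ → Br ℓ g σ ∧ lev ℓ (disp σ) = g) {h : ℤ}
    {a s : Pa d} (ha : Br ℓ h a) (hs : Pat s) : Br ℓ (lev ℓ (disp a) + g) (a ++ s) :=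
  ha.append (by simpa using (hPat s hs).1) (by linarith [ha.2])

lemma stage_sp_ext (hT : Top ℓ lam i0) (hg : 0 < g) (hΛ : g + lam ≤ Λ) (ht : 0 ≤ t)
    (hPat : ∀ σ, Pat σ → Br ℓ g σ ∧ lev ℓ (disp σ) = g) {i j : ℕ} (hij : i < j) {a r : Pa d}
    (ha : Br ℓ (t + j * Λ) a) (hr : ∀ y ∈ dep 0 r, 0 ≤ lev ℓ y) (h : stageSp ℓ Pat Λ t i a) :
    stageSp ℓ Pat Λ t i (a ++ r) := by
  obtain ⟨a₁, s₁, r₁, rfl, h1, h2, h3⟩ := h
  refine ⟨a₁, s₁, r₁ ++ r, by simp, h1, h2, stage_nonneg_append h3 ?_ hr⟩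
  have h4 := ha.2
  have h5 := stage_gap hT hg hΛ ht hij h1
  rw [disp_append, disp_append, lev_add, lev_add, (hPat _ h2).2] at h4
  linarith

lemma stage_sp_res (hT : Top ℓ lam i0) (hg : 0 < g) (hΛ : g + lam ≤ Λ) (ht : 0 ≤ t)
    (hPat : ∀ σ, Pat σ → Br ℓ g σ ∧ lev ℓ (disp σ) = g) {i j : ℕ} (hij : i < j) {a r : Pa d}
    (ha : Br ℓ (t + j * Λ) a) (h : stageSp ℓ Pat Λ t i (a ++ r)) : stageSp ℓ Pat Λ t i a := by
  obtain ⟨a₁, s₁, r₁, e, h1, h2, h3⟩ := h
  obtain ⟨c, rfl, rfl⟩ := stage_init (stage_br_pat hg hPat h1 h2) ha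
    (stage_gap hT hg hΛ ht hij h1) e.symm
  exact ⟨a₁, s₁, c, rfl, h1, h2, stage_nonneg_left h3⟩

lemma stage_sp_tail (hT : Top ℓ lam i0) (hg : 0 < g) (hΛ : g + lam ≤ Λ) (ht : 0 ≤ t)
    (hPat : ∀ σ, Pat σ → Br ℓ g σ ∧ lev ℓ (disp σ) = g) {i j : ℕ} {a s r : Pa d}
    (ha : Br ℓ (t + i * Λ) a) (hs : Pat s) (hr : ∀ y ∈ dep 0 r, 0 ≤ lev ℓ y)
    (h : stageSp ℓ Pat Λ t (j + i + 1) (a ++ s ++ r)) :
    stageSp ℓ Pat Λ (t + (i + 1) * Λ - lev ℓ (disp a) - g) j r := by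
  obtain ⟨a₁, s₁, r₁, e, h1, h2, h3⟩ := h
  rw [List.append_assoc a₁] at e
  obtain ⟨c, rfl, rfl⟩ := stage_init (stage_br_pat hg hPat ha hs) h1
    (stage_gap hT hg hΛ ht (by omega) ha) e
  refine ⟨c, s₁, r₁, by simp, ?_, h2, h3⟩
  have h4 := stage_br_right h1 (stage_nonneg_left hr)
  rw [disp_append, lev_add, (hPat _ hs).2] at h4
  have e' : t + (i + 1) * Λ - lev ℓ (disp a) - g + j * Λ =
      t + ((j + i + 1 : ℕ) : ℤ) * Λ - (lev ℓ (disp a) + g) := by push_cast; ring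
  rwa [e']

lemma stage_cnt_tail (hT : Top ℓ lam i0) (hg : 0 < g) (hΛ : g + lam ≤ Λ) (ht : 0 ≤ t)
    (hPat : ∀ σ, Pat σ → Br ℓ g σ ∧ lev ℓ (disp σ) = g) {i I : ℕ} {a s r : Pa d}
    (ha : Br ℓ (t + i * Λ) a) (hs : Pat s) (hr : ∀ y ∈ dep 0 r, 0 ≤ lev ℓ y)
    (h : ∀ j < i, ¬ stageSp ℓ Pat Λ t j (a ++ s ++ r)) :
    stageCnt ℓ Pat Λ t I (a ++ s ++ r) ≤
      stageCnt ℓ Pat Λ (t + (i + 1) * Λ - lev ℓ (disp a) - g) (I - i - 1) r + 1 := by
  unfold stageCnt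
  refine le_trans (Finset.card_le_card (t := insert i (Finset.image (fun j => j + i + 1)
    ((Finset.range (I - i - 1)).filter fun j =>
      stageSp ℓ Pat Λ (t + (i + 1) * Λ - lev ℓ (disp a) - g) j r))) fun j hj => ?_)
    ((Finset.card_insert_le _ _).trans (Nat.add_le_add_right Finset.card_image_le 1))
  rw [Finset.mem_filter, Finset.mem_range] at hj
  rcases lt_trichotomy j i with h1 | rfl | h1
  · exact (h j h1 hj.2).elim
  · exact Finset.mem_insert_self _ _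
  · obtain ⟨j', rfl⟩ : ∃ j', j = j' + i + 1 := ⟨j - i - 1, by omega⟩
    refine Finset.mem_insert_of_mem (Finset.mem_image.2 ⟨j', ?_, rfl⟩)
    rw [Finset.mem_filter, Finset.mem_range]
    exact ⟨by omega, stage_sp_tail hT hg hΛ ht hPat ha hs hr hj.2⟩

/-- weight of the part before the first special stage -/
noncomputable def stageA (μ : Measure (St d → ℝ)) (ℓ : V d) (Pat : Pa d → Prop) (Λ t : ℤ) (I : ℕ)
    (p : ℕ × Pa d) : ℝ≥0∞ :=
  if p.1 < I ∧ Br ℓ (t + p.1 * Λ) p.2 ∧ ∀ j < p.1, ¬ stageSp ℓ Pat Λ t j p.2 then w μ p.2 else 0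

lemma stage_w3 (hg : 0 < g) (hPat : ∀ σ, Pat σ → Br ℓ g σ ∧ lev ℓ (disp σ) = g) {h h' : ℤ}
    {a s r : Pa d} (ha : Br ℓ h a) (hs : Pat s) (hr : Br ℓ h' r) :
    w μ (a ++ s ++ r) = w μ a * w μ s * w μ r := by
  rw [(stage_br_pat hg hPat ha hs).w_append hr, ha.w_append (hPat s hs).1]

lemma stage_glue (hT : Top ℓ lam i0) (hg : 0 < g) (hΛ : g + lam ≤ Λ) (ht : 0 ≤ t)
    (hPat : ∀ σ, Pat σ → Br ℓ g σ ∧ lev ℓ (disp σ) = g) {I : ℕ} {h : ℤ} (hh : t + I * Λ ≤ h) :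
    ∑' p : ℕ × Pa d, stageA μ ℓ Pat Λ t I p * ((∑' s, if Pat s then w μ s else 0) *
      U μ ℓ (h - lev ℓ (disp p.2) - g)) ≤ U μ ℓ h := by
  have e : ∑' p : ℕ × Pa d, stageA μ ℓ Pat Λ t I p * ((∑' s, if Pat s then w μ s else 0) *
      U μ ℓ (h - lev ℓ (disp p.2) - g)) =
      ∑' x : (ℕ × Pa d) × Pa d × Pa d, stageA μ ℓ Pat Λ t I x.1 *
        ((if Pat x.2.1 then w μ x.2.1 else 0) *
          if Br ℓ (h - lev ℓ (disp x.1.2) - g) x.2.2 then w μ x.2.2 else 0) := by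
    rw [ENNReal.tsum_prod' (β := Pa d × Pa d)]
    refine tsum_congr fun p => ?_
    simp only [ENNReal.tsum_mul_left]
    rw [ENNReal.tsum_prod']
    simp only [ENNReal.tsum_mul_left, ENNReal.tsum_mul_right, U]
  have supp : ∀ x : (ℕ × Pa d) × Pa d × Pa d, stageA μ ℓ Pat Λ t I x.1 *
        ((if Pat x.2.1 then w μ x.2.1 else 0) *
          if Br ℓ (h - lev ℓ (disp x.1.2) - g) x.2.2 then w μ x.2.2 else 0) ≠ 0 →
      (x.1.1 < I ∧ Br ℓ (t + x.1.1 * Λ) x.1.2 ∧ ∀ j < x.1.1, ¬ stageSp ℓ Pat Λ t j x.1.2) ∧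
        Pat x.2.1 ∧ Br ℓ (h - lev ℓ (disp x.1.2) - g) x.2.2 := by
    intro x hx
    refine ⟨?_, ?_, ?_⟩ <;> by_contra hne
    · exact hx (by rw [stageA, if_neg hne, zero_mul])
    · exact hx (by rw [if_neg hne, zero_mul, mul_zero])
    · exact hx (by rw [if_neg hne, mul_zero, mul_zero])
  rw [e, U]
  refine stage_inj (fun x => x.1.2 ++ x.2.1 ++ x.2.2) ?_ ?_
  · rintro ⟨⟨i, a⟩, s, r⟩ ⟨⟨i', a'⟩, s', r'⟩ hx hx' e
    obtain ⟨⟨-, h1, h2⟩, h3, h4⟩ := supp _ hx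
    obtain ⟨⟨-, h1', h2'⟩, h3', h4'⟩ := supp _ hx'
    dsimp only at *
    have k : stageSp ℓ Pat Λ t i (a' ++ (s' ++ r')) :=
      ⟨a, s, r, by rw [e, List.append_assoc], h1, h3, fun y hy => (h4.1 y hy).1⟩
    have k' : stageSp ℓ Pat Λ t i' (a ++ (s ++ r)) :=
      ⟨a', s', r', by rw [← e, List.append_assoc], h1', h3', fun y hy => (h4'.1 y hy).1⟩
    obtain rfl : i = i' := by
      rcases lt_trichotomy i i' with hi | hi | hi
      · exact (h2' i hi (stage_sp_res hT hg hΛ ht hPat hi h1' k)).elim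
      · exact hi
      · exact (h2 i' hi (stage_sp_res hT hg hΛ ht hPat hi h1 k')).elim
    rw [List.append_assoc, List.append_assoc] at e
    obtain rfl := (br_pf ℓ _).unique h1 h1' e
    have e' := List.append_cancel_left e
    obtain rfl := (br_pf ℓ _).unique (hPat _ h3).1 (hPat _ h3').1 e'
    rw [List.append_cancel_left e']
  · rintro ⟨⟨i, a⟩, s, r⟩
    by_contra hne
    obtain ⟨h1, h3, h4⟩ := supp _ fun h0 => hne (h0.trans_le zero_le)
    have h5 : Br ℓ h (a ++ s ++ r) := by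
      refine (stage_br_pat hg hPat h1.2.1 h3).append ?_
        ((stage_gap hT hg hΛ ht h1.1 h1.2.1).trans hh)
      rw [disp_append, lev_add, (hPat _ h3).2, ← sub_sub]
      exact h4
    refine hne ?_
    dsimp only
    rw [stageA, if_pos h1, if_pos h3, if_pos h4, if_pos h5, stage_w3 hg hPat h1.2.1 h3 h4,
      mul_assoc]

lemma stage_upper (hT : Top ℓ lam i0) (hg : 0 < g) (hΛ : g + lam ≤ Λ)
    (hPat : ∀ σ, Pat σ → Br ℓ g σ ∧ lev ℓ (disp σ) = g) (k : ℕ) :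
    ∀ (t : ℤ) (I : ℕ) (h : ℤ) (x : V d) (F : V d → ℝ≥0∞) (B : ℝ≥0∞), 0 ≤ t → t + I * Λ ≤ h →
      (∀ y, (stageT μ Pat)^[k] F y ≤ (∑' s, if Pat s then w μ s else 0) ^ k * B) →
      ∑' l, (if Br ℓ h l ∧ k ≤ stageCnt ℓ Pat Λ t I l then w μ l else 0) * F (x + disp l) ≤
        B * U μ ℓ h := by
  induction k with
  | zero =>
    intro t I h x F B _ _ hF
    rw [U, ← ENNReal.tsum_mul_left]
    refine ENNReal.tsum_le_tsum fun l => ?_
    have := hF (x + disp l)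
    simp only [Function.iterate_zero, id, pow_zero, one_mul] at this
    simp only [zero_le, and_true]
    rw [mul_comm]
    gcongr
  | succ k ih =>
    intro t I h x F B ht hh hF
    calc _ ≤ ∑' z : (ℕ × Pa d) × Pa d × Pa d, stageA μ ℓ Pat Λ t I z.1 *
          ((if Br ℓ (h - lev ℓ (disp z.1.2) - g) z.2.1 ∧ k ≤ stageCnt ℓ Pat Λ
            (t + (z.1.1 + 1) * Λ - lev ℓ (disp z.1.2) - g) (I - z.1.1 - 1) z.2.1
            then w μ z.2.1 else 0) * ((if Pat z.2.2 then w μ z.2.2 else 0) *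
              F (x + disp z.1.2 + disp z.2.1 + disp z.2.2))) := by
          refine stage_surj (fun z => z.1.2 ++ z.2.2 ++ z.2.1) fun l hl => ?_
          have h1 : Br ℓ h l ∧ k + 1 ≤ stageCnt ℓ Pat Λ t I l := by
            by_contra hne
            exact hl (by rw [if_neg hne, zero_mul])
          have hex : ∃ j, j < I ∧ stageSp ℓ Pat Λ t j l := by
            obtain ⟨j, hj⟩ := Finset.card_pos.1 (lt_of_lt_of_le (Nat.succ_pos k) h1.2)
            rw [Finset.mem_filter, Finset.mem_range] at hj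
            exact ⟨j, hj⟩
          obtain ⟨i, ⟨hi, a, s, r, rfl, h2, h3, h4⟩, hmin⟩ :
              ∃ i, (i < I ∧ stageSp ℓ Pat Λ t i l) ∧ ∀ j < i, ¬ stageSp ℓ Pat Λ t j l :=
            ⟨Nat.find hex, Nat.find_spec hex, fun j hj hs =>
              Nat.find_min hex hj ⟨hj.trans (Nat.find_spec hex).1, hs⟩⟩
          have h5 : Br ℓ (h - lev ℓ (disp a) - g) r := by
            have := stage_br_right h1.1 h4
            rwa [disp_append, lev_add, (hPat _ h3).2, ← sub_sub] at this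
          have h6 : ∀ j < i, ¬ stageSp ℓ Pat Λ t j a := by
            intro j hj hs
            refine hmin j hj ?_
            rw [List.append_assoc]
            exact stage_sp_ext hT hg hΛ ht hPat hj h2 (stage_nonneg_append
              (fun y hy => ((hPat _ h3).1.1 y hy).1) (hPat _ h3).1.gain_nonneg h4) hs
          have h7 := h1.2.trans (stage_cnt_tail (I := I) hT hg hΛ ht hPat h2 h3 h4 hmin)
          refine ⟨((i, a), r, s), rfl, le_of_eq ?_⟩
          dsimp only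
          rw [stageA, if_pos h1, if_pos (And.intro hi (And.intro h2 h6)), if_pos h3,
            if_pos (And.intro h5 (Nat.le_of_succ_le_succ h7)), stage_w3 hg hPat h2 h3 h5]
          simp only [disp_append]
          rw [show x + (disp a + disp s + disp r) = x + disp a + disp r + disp s by abel]
          ring
      _ ≤ ∑' p : ℕ × Pa d, B * (stageA μ ℓ Pat Λ t I p * ((∑' s, if Pat s then w μ s else 0) *
          U μ ℓ (h - lev ℓ (disp p.2) - g))) := by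
          rw [ENNReal.tsum_prod' (β := Pa d × Pa d)]
          refine ENNReal.tsum_le_tsum fun p => ?_
          by_cases hp : p.1 < I ∧ Br ℓ (t + p.1 * Λ) p.2 ∧ ∀ j < p.1, ¬ stageSp ℓ Pat Λ t j p.2
          swap
          · simp [stageA, if_neg hp]
          simp only [ENNReal.tsum_mul_left]
          rw [ENNReal.tsum_prod', mul_left_comm]
          simp only [ENNReal.tsum_mul_left]
          gcongr
          have h1 := stage_gap hT hg hΛ ht (Nat.lt_succ_self _) hp.2.1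
          have h2 : ((I - p.1 - 1 : ℕ) : ℤ) = I - p.1 - 1 := by have := hp.1; omega
          have h3 := ih (t + (p.1 + 1) * Λ - lev ℓ (disp p.2) - g) (I - p.1 - 1)
            (h - lev ℓ (disp p.2) - g) (x + disp p.2) (stageT μ Pat F)
            ((∑' s, if Pat s then w μ s else 0) * B) (by push_cast at h1; linarith)
            (by rw [h2]; linarith) (fun y => by
              have := hF y
              rwa [Function.iterate_succ_apply, pow_succ, mul_assoc] at this)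
          rw [← mul_assoc, mul_comm B]
          exact h3
      _ ≤ _ := by
          rw [ENNReal.tsum_mul_left]
          gcongr
          exact stage_glue hT hg hΛ ht hPat hh

omit [IsProbabilityMeasure μ] in
lemma stage_law (d0 : V d) (G : V d → ℝ≥0∞) : ∑' z, patLaw μ Pat d0 z * G z =
    (∑' s, if Pat s then w μ s else 0)⁻¹ *
      ∑' s, (if Pat s then w μ s else 0) * G (disp s - d0) := by
  simp only [patLaw, mul_assoc, ENNReal.tsum_mul_left, ← ENNReal.tsum_mul_right]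
  rw [ENNReal.tsum_comm]
  congr 1
  refine tsum_congr fun s => ?_
  rw [tsum_eq_single (disp s - d0)]
  · simp
  · intro z hz
    rw [if_neg, zero_mul]
    rintro ⟨-, e⟩
    exact hz (by rw [e]; abel)

omit [IsProbabilityMeasure μ] in
lemma stage_iter (d0 : V d) (h0 : (∑' s, if Pat s then w μ s else 0) ≠ 0)
    (h1 : (∑' s, if Pat s then w μ s else 0) ≠ ⊤) (F : V d → ℝ≥0∞) (k : ℕ) (y : V d) :
    (stageT μ Pat)^[k] F y = (∑' s, if Pat s then w μ s else 0) ^ k *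
      ∑' z, cpow (patLaw μ Pat d0) k z * F (y + (k : ℤ) • d0 + z) := by
  induction k generalizing y with
  | zero => simp [cpow, tsum_dlt fun z => F (y + z)]
  | succ k ih =>
    rw [Function.iterate_succ_apply', stageT, cpow,
      tsum_conv _ _ fun z => F (y + ((k + 1 : ℕ) : ℤ) • d0 + z), stage_law, ← mul_assoc, pow_succ,
      mul_assoc _ _ _⁻¹, ENNReal.mul_inv_cancel h0 h1, mul_one, ← ENNReal.tsum_mul_left]
    refine tsum_congr fun s => ?_
    rw [ih, mul_left_comm]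
    congr 3
    funext z
    congr 2
    push_cast
    rw [add_smul, one_smul]
    abel

omit [IsProbabilityMeasure μ] in
lemma stage_cpow (hPat : ∀ σ, Pat σ → Br ℓ g σ ∧ lev ℓ (disp σ) = g) {d0 : V d}
    (hd0 : lev ℓ d0 = g) (k : ℕ) :
    (∀ z, cpow (patLaw μ Pat d0) k z ≠ 0 → lev ℓ z = 0) ∧ ∑' z, cpow (patLaw μ Pat d0) k z ≤ 1 := by
  induction k with
  | zero =>
    refine ⟨fun z hz => ?_, by simpa [cpow] using (tsum_dlt (d := d) fun _ => 1).le⟩
    have : z = 0 := by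
      by_contra h
      exact hz (if_neg h)
    rw [this, lev_zero]
  | succ k ih =>
    refine ⟨fun z hz => ?_, ?_⟩
    · obtain ⟨y, h1, h2⟩ := conv_ne_zero hz
      have h3 := ih.1 _ h2
      have h4 : ∃ σ, Pat σ ∧ disp σ = d0 + y := by
        by_contra hne
        refine h1 ?_
        rw [patLaw, ENNReal.tsum_eq_zero.2 fun σ => if_neg fun h => hne ⟨σ, h⟩, mul_zero]
      obtain ⟨σ, h5, h6⟩ := h4
      have h7 := (hPat σ h5).2
      rw [h6, lev_add] at h7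
      rw [lev_sub] at h3
      linarith
    · have h1 := tsum_conv (patLaw μ Pat d0) (cpow (patLaw μ Pat d0) k) fun _ => 1
      simp only [mul_one] at h1
      have h2 := stage_law (μ := μ) (Pat := Pat) d0 fun _ => 1
      simp only [mul_one] at h2
      rw [cpow, h1, ENNReal.tsum_mul_right, h2]
      exact mul_le_one' (ENNReal.inv_mul_le_one _) ih.2

end

lemma stage_cb_mass {cap : ℤ → ℝ≥0∞} {η : ℝ≥0∞} (hth : Thin μ ℓ cap η) {h' h : ℤ} (hh : h' ≤ h) :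
    η ≤ ∑' l, cb μ ℓ (cap h) h' l :=
  (hth.2.2.2 h').trans (ENNReal.tsum_le_tsum fun l => (sub_cb _ _).le_cb
    (fun l hl => (capd_cb _ _ l hl).trans (hth.2.1 hh)) l)

lemma stage_lower (hT : Top ℓ lam i0) {cap : ℤ → ℝ≥0∞} {η : ℝ≥0∞}
    (hth : Thin μ ℓ cap η) (Pat : Pa d → Prop) (g Λ : ℤ) (hg : 0 < g) (hΛ : g + lam ≤ Λ)
    (hPat : ∀ σ, Pat σ → Br ℓ g σ ∧ lev ℓ (disp σ) = g ∧ sz σ ≤ cap Λ) {I j : ℕ} (hj : j < I)
    {h : ℤ} (hh : I * Λ ≤ h) :
    η ^ 2 * (∑' σ, if Pat σ then w μ σ else 0) ≤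
      ∑' l, cb μ ℓ (3 * cap h) h l * if stageSp ℓ Pat Λ 0 j l then 1 else 0 := by
  have hΛ0 : 0 ≤ Λ := by linarith [hT.1]
  have hjI : (j : ℤ) * Λ ≤ I * Λ := mul_le_mul_of_nonneg_right (by exact_mod_cast hj.le) hΛ0
  have hI : 1 * Λ ≤ (I : ℤ) * Λ := mul_le_mul_of_nonneg_right (by omega) hΛ0
  have hp : ∀ σ, (if Pat σ then w μ σ else 0) ≠ 0 → Pat σ := fun σ hσ => by
    by_contra hne
    exact hσ (if_neg hne)
  have hsub : Sub μ ℓ g fun σ => if Pat σ then w μ σ else 0 := fun σ =>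
    ⟨by dsimp only; split_ifs <;> simp, fun hσ => (hPat σ (hp σ hσ)).1⟩
  have ha : ∀ a, cb μ ℓ (cap h) (0 + j * Λ) a ≠ 0 → Br ℓ (0 + j * Λ) a := fun a h =>
    (sub_cb _ _ a).2 h
  let m := star ℓ (cb μ ℓ (cap h) (0 + j * Λ)) fun g₁ =>
    star ℓ (fun σ => if Pat σ then w μ σ else 0) fun g₂ => cb μ ℓ (cap h) (h - g₁ - g₂)
  have h1 : Sub μ ℓ h m := sub_star (sub_cb _ _) (fun a h => sub_star hsub
    (fun _ _ => sub_cb _ _) (by linarith [stage_gap hT hg hΛ le_rfl hj (ha a h)])) (by linarith)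
  have h2 : Capd m (cap h + (cap h + cap h)) := capd_star (capd_cb _ _) fun a _ =>
    capd_star (fun σ hσ => (hPat σ (hp σ hσ)).2.2.trans (hth.2.1 (by linarith)))
      fun _ _ => capd_cb _ _
  have h3 : η * ((∑' σ, if Pat σ then w μ σ else 0) * η) ≤ ∑' l, m l :=
    mass_star (stage_cb_mass hth (by linarith)) fun a h => mass_star le_rfl fun σ hσ =>
      stage_cb_mass hth (by linarith [(ha a h).gain_nonneg, (hPat σ (hp σ hσ)).1.gain_nonneg])
  rw [show cap h + (cap h + cap h) = 3 * cap h by ring] at h2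
  refine le_trans (le_of_eq (by ring)) (h3.trans (ENNReal.tsum_le_tsum fun l => ?_))
  by_cases h0 : m l = 0
  · simp [h0]
  · obtain ⟨a, b, rfl, h4, h5⟩ := star_ne_zero h0
    obtain ⟨s, r, rfl, h6, h7⟩ := star_ne_zero h5
    rw [if_pos ⟨a, s, r, by simp, ha a h4, hp s h6, fun y hy => (((sub_cb _ _ r).2 h7).1 y hy).1⟩,
      mul_one]
    exact h1.le_cb h2 _

theorem stage (hμ : Elliptic μ) (hT : Top ℓ lam i0) {cap : ℤ → ℝ≥0∞} {η : ℝ≥0∞}
    (hth : Thin μ ℓ cap η) (Pat : Pa d → Prop) (g Λ : ℤ) (hg : 0 < g) (hΛ : g + lam ≤ Λ)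
    (hPat : ∀ σ, Pat σ → Br ℓ g σ ∧ lev ℓ (disp σ) = g ∧ sz σ ≤ cap Λ)
    (W : ℝ≥0∞) (hW : W = ∑' σ, if Pat σ then w μ σ else 0) (hW0 : W ≠ 0)
    (d0 : V d) (hd0 : lev ℓ d0 = g) (I k : ℕ) (hI : 0 < I)
    (hk : (k : ℝ≥0∞) ≤ I * (η ^ 2 * W / 2)) (h : ℤ) (hh : I * Λ ≤ h) :
    ∃ m, Sub μ ℓ h m ∧ η ^ 2 * W / 2 ≤ ∑' l, m l ∧ Capd m (3 * cap h) ∧
      Sm ℓ m (cpow (patLaw μ Pat d0) k) 0 := by
  have hPat' : ∀ σ, Pat σ → Br ℓ g σ ∧ lev ℓ (disp σ) = g := fun σ hσ =>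
    ⟨(hPat σ hσ).1, (hPat σ hσ).2.1⟩
  have hW1 : W ≤ 1 := hW ▸ L0w hμ ((br_pf ℓ g).mono fun σ hσ => (hPat σ hσ).1)
  have hWt : W ≠ ⊤ := ne_top_of_le_ne_top ENNReal.one_ne_top hW1
  refine ⟨fun l => if k ≤ stageCnt ℓ Pat Λ 0 I l then cb μ ℓ (3 * cap h) h l else 0,
    (sub_cb (3 * cap h) h).mono fun l => by split_ifs <;> simp, ?_,
    fun l hl => capd_cb (μ := μ) (ℓ := ℓ) _ h l fun h0 => hl (by simp [h0]),
    (stage_cpow hPat' hd0 k).1, (stage_cpow hPat' hd0 k).2, fun F _ x B hB => ?_⟩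
  · have h1 : I * (η ^ 2 * W) ≤ ∑' l, cb μ ℓ (3 * cap h) h l * stageCnt ℓ Pat Λ 0 I l := by
      calc I * (η ^ 2 * W) = ∑ _j ∈ Finset.range I, η ^ 2 * W := by simp
        _ ≤ ∑ j ∈ Finset.range I,
            ∑' l, cb μ ℓ (3 * cap h) h l * if stageSp ℓ Pat Λ 0 j l then 1 else 0 :=
          Finset.sum_le_sum fun j hj => hW ▸
            stage_lower hT hth Pat g Λ hg hΛ hPat (Finset.mem_range.1 hj) hh
        _ = _ := by
          rw [← Summable.tsum_finsetSum fun _ _ => ENNReal.summable]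
          refine tsum_congr fun l => ?_
          rw [← Finset.mul_sum, stageCnt, Finset.card_filter]
          push_cast
          rfl
    have h2 : ∑' l, cb μ ℓ (3 * cap h) h l * stageCnt ℓ Pat Λ 0 I l ≤ k * 1 +
        I * ∑' l, if k ≤ stageCnt ℓ Pat Λ 0 I l then cb μ ℓ (3 * cap h) h l else 0 := by
      refine le_trans ?_ (add_le_add_left (mul_le_mul_right
        ((sub_cb (μ := μ) (ℓ := ℓ) (3 * cap h) h).mass_le_one hμ) _) _)
      rw [← ENNReal.tsum_mul_left, ← ENNReal.tsum_mul_left, ← ENNReal.tsum_add]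
      refine ENNReal.tsum_le_tsum fun l => ?_
      rw [mul_comm]
      split_ifs with h3
      · refine le_add_left ?_
        have : stageCnt ℓ Pat Λ 0 I l ≤ I :=
          (Finset.card_filter_le _ _).trans (Finset.card_range I).le
        gcongr
      · refine le_add_right ?_
        have := (not_le.1 h3).le
        gcongr
    have hη : η ≤ 1 := hth.le_one hμ
    have h3 : η ^ 2 * W / 2 ≠ ⊤ := ENNReal.div_ne_top (ENNReal.mul_ne_top
      (ENNReal.pow_ne_top (ne_top_of_le_ne_top ENNReal.one_ne_top hη)) hWt) two_ne_zero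
    have h4 := h1.trans (h2.trans (add_le_add_left ((mul_one _).trans_le hk) _))
    rw [← mul_add, ENNReal.mul_le_mul_iff_right (by exact_mod_cast hI.ne')
      (ENNReal.natCast_ne_top I)] at h4
    nth_rw 1 [← ENNReal.add_halves (η ^ 2 * W)] at h4
    exact (ENNReal.add_le_add_iff_left h3).1 h4
  · have h1 := stage_upper (μ := μ) hT hg hΛ hPat' k 0 I h x F B le_rfl (by linarith) fun y => by
      rw [stage_iter d0 (hW ▸ hW0) (hW ▸ hWt)]
      gcongr
      exact hB _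
    rw [add_zero]
    refine le_trans (ENNReal.tsum_le_tsum fun l => ?_) (h1.trans ?_)
    · refine mul_le_mul_left ?_ _
      dsimp only
      by_cases h2 : k ≤ stageCnt ℓ Pat Λ 0 I l
      · rw [if_pos h2]
        by_cases h3 : cb μ ℓ (3 * cap h) h l = 0
        · simp [h3]
        · rw [if_pos (And.intro ((sub_cb _ _ l).2 h3) h2)]
          exact (sub_cb _ _ l).1
      · simp [h2]
    · exact mul_le_of_le_one_right' (U_le_one hμ ℓ h)

end Vale.Agent.P147
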