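import Vale.Agent.P147.Core
import Vale.Agent.P147.Chain
import Vale.Agent.P147.Dens
import Vale.Agent.P147.LossA

namespace Vale.Agent.P147

open MeasureTheory
open scoped ENNReal NNReal Classical

variable {d : ℕ} {μ : Measure (St d → ℝ)} [IsProbabilityMeasure μ]
  {ℓ : V d} {lam : ℤ} {i0 : Fin d}

lemma ThmA_radius {D a N n : ℕ} (hD : 0 < D) (ha : 0 < a) (hn : D * (N * a) ^ 2 ≤ n) :
    N ≤ Nat.sqrt (n / D) / a := by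
  rw [Nat.le_div_iff_mul_le ha, Nat.le_sqrt', Nat.le_div_iff_mul_le hD, mul_comm]
  exact hn

lemma ThmA_size {D a n : ℕ} (hD : 0 < D) (ha : 0 < a) (hr : 1 ≤ Nat.sqrt (n / D) / a) :
    0 < n / D ∧ n ≤ 8 * D * (Nat.sqrt (n / D) / a * a) ^ 2 := by
  have h1 : a ≤ Nat.sqrt (n / D) := by simpa using (Nat.le_div_iff_mul_le ha).1 hr
  have h2 : 0 < n / D := Nat.sqrt_pos.1 (ha.trans_le h1)
  refine ⟨h2, ?_⟩
  have h3 : n < D * (n / D + 1) := Nat.lt_mul_div_succ n hD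
  have h4 : n / D < (Nat.sqrt (n / D) + 1) ^ 2 := Nat.lt_succ_sqrt' _
  have h5 : Nat.sqrt (n / D) < a * (Nat.sqrt (n / D) / a + 1) := Nat.lt_mul_div_succ _ ha
  generalize Nat.sqrt (n / D) / a = r at *
  generalize Nat.sqrt (n / D) = u at *
  generalize n / D = I at *
  have h6 : u + 1 ≤ 2 * (r * a) := by nlinarith
  have h7 : I + 1 ≤ 4 * (r * a) ^ 2 := by nlinarith [Nat.pow_le_pow_left h6 2]
  nlinarith [Nat.mul_le_mul_left D h7]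

lemma ThmA_err {C : ℝ} {e : ℝ≥0} {a I : ℕ} (hC : C ≤ e * a) (hI : 0 < I) :
    ENNReal.ofReal (C * (Nat.sqrt I / a : ℕ) / Real.sqrt I) ≤ e := by
  rw [← ENNReal.ofReal_coe_nnreal]
  refine ENNReal.ofReal_le_ofReal ?_
  have h1 : ((Nat.sqrt I / a : ℕ) : ℝ) * a ≤ Real.sqrt I :=
    le_trans (by exact_mod_cast Nat.div_mul_le_self _ _) Real.nat_sqrt_le_real_sqrt
  rw [div_le_iff₀ (Real.sqrt_pos.2 (by exact_mod_cast hI))]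
  have h2 := mul_le_mul_of_nonneg_right hC (Nat.cast_nonneg (Nat.sqrt I / a))
  have h3 := mul_le_mul_of_nonneg_left h1 e.2
  simp only [NNReal.val_eq_coe] at h3
  nlinarith

lemma ThmA_box {A e : ℝ≥0∞} {N r k : ℕ} (hA : A < N * e) (hr : N ≤ r) (h1 : 1 ≤ r) (hk : k ≠ 0) :
    A * ((r : ℝ≥0∞)⁻¹) ^ k ≤ e := by
  have h2 : (1 : ℝ≥0∞) ≤ r := by exact_mod_cast h1
  have h3 : ((r : ℝ≥0∞)⁻¹) ^ k ≤ (r : ℝ≥0∞)⁻¹ :=
    pow_le_of_le_one zero_le (ENNReal.inv_le_one.2 h2) hk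
  have h4 : A ≤ e * r := by
    rw [mul_comm]
    exact hA.le.trans (mul_le_mul_left (by exact_mod_cast hr) e)
  calc A * ((r : ℝ≥0∞)⁻¹) ^ k ≤ e * r * (r : ℝ≥0∞)⁻¹ := mul_le_mul' h4 h3
    _ = e := by
      rw [mul_assoc, ENNReal.mul_inv_cancel (zero_lt_one.trans_le h2).ne' (ENNReal.natCast_ne_top r),
        mul_one]

lemma ThmA_third {L e δ : ℝ≥0∞} {R R₁ Q r k : ℕ} (h1 : 1 ≤ r) (hQ : 2 * (R + R₁) + 1 ≤ Q * r)
    (hδ : δ * (4 * L * Q ^ k) < e) :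
    ((r : ℝ≥0∞)⁻¹) ^ k * (L * (2 * (R + R₁) + 1) ^ k) * (4 * δ) ≤ e := by
  have h2 : (r : ℝ≥0∞) ≠ 0 := by exact_mod_cast (by omega : r ≠ 0)
  have h3 : (2 * (R + R₁) + 1 : ℝ≥0∞) ≤ Q * r := by exact_mod_cast hQ
  calc ((r : ℝ≥0∞)⁻¹) ^ k * (L * (2 * (R + R₁) + 1) ^ k) * (4 * δ)
      ≤ ((r : ℝ≥0∞)⁻¹) ^ k * (L * (Q * r) ^ k) * (4 * δ) := by gcongr
    _ = δ * (4 * L * Q ^ k) * ((r : ℝ≥0∞)⁻¹ * r) ^ k := by
      rw [mul_pow, mul_pow]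
      ring
    _ ≤ e := by
      rw [ENNReal.inv_mul_cancel h2 (ENNReal.natCast_ne_top r), one_pow, mul_one]
      exact hδ.le

lemma ThmA_ite {P : Prop} [Decidable P] {x : ℝ≥0∞} (h : (if P then x else 0) ≠ 0) : P :=
  by_contra fun hP => h (if_neg hP)

theorem thmA (hμ : Elliptic μ) (hd : 2 ≤ d) (hT : Top ℓ lam i0) {η₁ η₂ : ℝ≥0∞}
    (h₁ : Thin μ ℓ (fun _ => ⊤) η₁) (h₂ : Thin μ (-ℓ) (fun _ => ⊤) η₂) (ht : Tight μ ℓ) :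
    False := by
  obtain ⟨K0, C0, n1, cT, hcT, htight⟩ := ht
  obtain ⟨cc, C, Λ, hcc, -, hΛ, hcore⟩ := core hμ hT.neg η₂
  have hlam := hT.1
  obtain ⟨L, rfl⟩ : ∃ L : ℕ, lam = L := ⟨lam.toNat, by omega⟩
  have half : ∀ η : ℝ≥0∞, η ≠ 0 → η / 2 ≠ 0 := fun η h => (ENNReal.half_pos h).ne'
  obtain ⟨c, hc0, hc1, hc2⟩ : ∃ c : ℝ≥0∞, c ≠ 0 ∧ c ≤ η₁ / 2 * (cT * (η₁ / 2)) ∧
      c ≤ η₂ / 2 * (cc * (η₂ / 2)) := by
    refine ⟨_, ?_, min_le_left _ _, min_le_right _ _⟩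
    exact (lt_min (pos_iff_ne_zero.2 (mul_ne_zero (half _ h₁.1) (mul_ne_zero hcT (half _ h₁.1))))
      (pos_iff_ne_zero.2 (mul_ne_zero (half _ h₂.1) (mul_ne_zero (hcc h₂.1) (half _ h₂.1))))).ne'
  obtain ⟨M, hM⟩ := ENNReal.exists_nat_mul_gt (pow_ne_zero 2 hc0) (b := 4) (by norm_num)
  obtain ⟨e, he0, he⟩ := ENNReal.exists_nnreal_pos_mul_lt (a := 40) (by norm_num)
    (pow_ne_zero 4 hc0)
  have he0' : (e : ℝ≥0∞) ≠ 0 := by exact_mod_cast he0.ne'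
  obtain ⟨a, ha0, ha⟩ : ∃ a : ℕ, 0 < a ∧ C ≤ e * a := by
    obtain ⟨a, ha⟩ := exists_nat_ge (C / e)
    have h : (0 : ℝ) < e := he0
    rw [div_le_iff₀ h] at ha
    exact ⟨a + 1, a.succ_pos, by push_cast; nlinarith⟩
  obtain ⟨E, hE⟩ : ∃ E, E = 4 * (K0 * M * d * Λ) * a := ⟨_, rfl⟩
  obtain ⟨δ, hδ0, hδ⟩ := ENNReal.exists_nnreal_pos_mul_lt
    (a := 4 * ENNReal.ofReal (L : ℤ) * ((2 * E + 2 * d * L + 1 : ℕ) : ℝ≥0∞) ^ (d - 1))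
    (by finiteness) he0'
  have hδ0' : (δ : ℝ≥0∞) ≠ 0 := by exact_mod_cast hδ0.ne'
  obtain ⟨K1, hK1, hm1⟩ := exists_margin hμ ℓ hδ0'
  obtain ⟨K2, -, hm2⟩ := exists_margin hμ (-ℓ) hδ0'
  obtain ⟨K, hK⟩ : ∃ K : ℕ, (K : ℤ) = max K1 K2 := ⟨(max K1 K2).toNat, by omega⟩
  have hK0 : (0 : ℤ) < K := by omega
  obtain ⟨ρ1, hw1⟩ := wrap hμ hT h₁ K (K + 2 * L) hK0
  obtain ⟨ρ2, hw2⟩ := wrap hμ hT.neg h₂ K K hK0
  replace hw1 := hw1 (max ρ1 ρ2) (le_max_left _ _)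
  replace hw2 := hw2 (max ρ1 ρ2) (le_max_right _ _)
  generalize max ρ1 ρ2 = ρ at hw1 hw2
  obtain ⟨N, hN⟩ := ENNReal.exists_nat_mul_gt he0' (b := (4 * ρ + 1) ^ d) (by finiteness)
  have hD : 0 < 2 * d * Λ := by positivity
  let r : ℕ → ℕ := fun n => Nat.sqrt (n / (2 * d * Λ)) / a
  obtain ⟨n0, hn0, hn0'⟩ : ∃ n0 : ℕ, 0 < n0 ∧ ∀ n, n0 ≤ n → n1 ≤ n ∧
      2 * (d * L + 2 * L + 2 * K) ≤ n ∧ N ≤ r n ∧ 4 * ρ + 1 ≤ r n := by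
    refine ⟨1 + n1 + 2 * (d * L + 2 * L + 2 * K) + 2 * d * Λ * ((N + (4 * ρ + 1)) * a) ^ 2,
      by omega, fun n hn => ?_⟩
    have : N + (4 * ρ + 1) ≤ r n := ThmA_radius hD ha0 (by omega)
    omega
  have HX : ∀ n : ℕ, n0 ≤ n → ∃ (H : ℤ) (m : Pa d → ℝ≥0∞) (x : V d), (n : ℤ) ≤ H ∧
      H ≤ n + (C0 + 2 * K + 2 * L : ℕ) ∧ (K : ℤ) + L ≤ H ∧ Sub μ ℓ H m ∧ c ≤ ∑' l, m l ∧
      (∀ l, m l ≠ 0 → ∀ y ∈ dep 0 l, (lev ℓ y < K → ∀ i, |y i| ≤ ρ) ∧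
        (H - (K + L) ≤ lev ℓ y → ∀ i, |y i - disp l i| ≤ ρ)) ∧
      ∀ B : ℕ, K0 * n ≤ B ^ 2 → ∀ l, m l ≠ 0 → ∀ i, |disp l i - x i| ≤ (B + 2 * ρ : ℕ) := by
    intro n hn
    obtain ⟨h, x, hh1, hh2, hh3⟩ := htight n (hn0' n hn).1
    obtain ⟨m, m1, m2, m3, m4, -⟩ := hw1 (2 * K + 2 * L + h) (K + L) (fun _ => h)
      (fun _ l => if Br ℓ h l ∧ ∀ i, (disp l i - x i) ^ 2 ≤ K0 * n then w μ l else 0) cT
      (fun g hg1 hg2 => ⟨fun l => ⟨by beta_reduce; split_ifs <;> simp, fun hl =>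
        (ThmA_ite (P := Br ℓ h l ∧ ∀ i, (disp l i - x i) ^ 2 ≤ K0 * n) hl).1⟩, hh3,
        by omega, by omega, by omega⟩) (by omega)
    refine ⟨_, m, x, by omega, by omega, by omega, m1, hc1.trans m2, m3, fun B hB l hl i => ?_⟩
    obtain ⟨g, b, -, -, hb, hb'⟩ := m4 l hl
    have h1 : |disp b i - x i| ≤ B :=
      abs_le_of_sq_le_sq (((ThmA_ite hb).2 i).trans (by exact_mod_cast hB)) (by omega)
    have h2 := abs_sub_le (disp l i) (disp b i) (x i)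
    have h3 := hb' i
    omega
  have HY : ∀ n : ℕ, n0 ≤ n → ∃ ν : V d → ℝ≥0∞, (∀ z, ν z ≤ ((r n : ℝ≥0∞)⁻¹) ^ (d - 1)) ∧
      (∀ z, ν z ≠ 0 → lev ℓ z = 0 ∧ ∀ i, |z i| ≤ (d * L * r n : ℕ)) ∧ ∑' z, ν z ≤ 1 ∧
      ∀ t : ℤ, (n : ℤ) - L ≤ t → ∃ m : Pa d → ℝ≥0∞, c ≤ ∑' l, m l ∧ Sub μ (-ℓ) t m ∧
        Sm ℓ m ν e ∧ ∀ l, m l ≠ 0 → ∀ y ∈ dep 0 l, (lev (-ℓ) y < K → ∀ i, |y i| ≤ ρ) ∧
          (t - K ≤ lev (-ℓ) y → ∀ i, |y i - disp l i| ≤ ρ) := by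
    intro n hn
    obtain ⟨-, hn2, -, hn3⟩ := hn0' n hn
    have hI := (ThmA_size hD ha0 (n := n) (le_trans (by omega) hn3)).1
    obtain ⟨ν, v1, v2, v3, v4, v5⟩ := hcore _ h₂ (n / (2 * d * Λ)) (r n) hI (by omega)
    refine ⟨ν, v1, fun z hz => ⟨neg_eq_zero.1 ((lev_neg ℓ z).symm.trans (v3 z hz)), fun i => ?_⟩,
      v4, fun t ht => ?_⟩
    · exact_mod_cast v2 z hz i
    choose! inner i1 i2 _ i4 using v5
    have hle : (2 : ℤ) * (d * ((n / (2 * d * Λ) : ℕ) * Λ)) ≤ n := by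
      have := Nat.div_mul_le_self n (2 * d * Λ)
      have e1 : 2 * (d * (n / (2 * d * Λ) * Λ)) = n / (2 * d * Λ) * (2 * d * Λ) := by ring
      exact_mod_cast e1 ▸ this
    have hn2' : (2 : ℤ) * (d * L + 2 * L + 2 * K) ≤ n := by exact_mod_cast hn2
    have hdL : (0 : ℤ) ≤ d * L := by positivity
    have hin : ∀ g : ℤ, g < K + L →
        (d : ℤ) * ((n / (2 * d * Λ) : ℕ) * Λ + L) ≤ t - K - g := fun g hg => by
      rw [mul_add]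
      omega
    obtain ⟨m, m1, m2, m3, -, m5⟩ := hw2 t K (fun g => t - K - g) (fun g => inner (t - K - g)) cc
      (fun g _ hg => ⟨i1 _ (hin g hg), i2 _ (hin g hg), by omega, by omega, by omega⟩) hK0.le
    exact ⟨m, hc2.trans m2, m1, sm_neg.1 ((m5 ν _ fun g _ hg => i4 _ (hin g hg)).mono
      (ThmA_err ha hI)), m3⟩
  choose! hX mX x0 x1 x2 x3 x4 x5 x6 x7 using HX
  choose! ν v1 v2 v3 v4 using HY
  choose! mY y1 y2 y3 y4 using v4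
  refine chain hμ hd hT c M n0 (C0 + 2 * K + 2 * L) hM.le hn0 hX mX mY
    (fun n hn => ⟨x1 n hn, x2 n hn, x4 n hn, x5 n hn⟩)
    (fun n t hn ht _ => ⟨y2 n hn t ht, y1 n hn t ht⟩) fun n n' t x hn hn' hM' ht _ => ?_
  have hn'' := hn.trans hn'
  obtain ⟨-, -, r1, r2⟩ := hn0' n hn
  obtain ⟨-, -, r3, r4⟩ := hn0' n' hn''
  have hB : K0 * n' ≤ (E * r n) ^ 2 := by
    have h1 := (ThmA_size hD ha0 (n := n) (le_trans (by omega) r2)).2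
    have h2 : K0 * M * d * Λ ≤ (K0 * M * d * Λ) ^ 2 := Nat.le_self_pow two_ne_zero _
    calc K0 * n' ≤ K0 * (M * (8 * (2 * d * Λ) * (r n * a) ^ 2)) :=
          Nat.mul_le_mul_left _ (hM'.trans (Nat.mul_le_mul_left _ h1))
      _ = 16 * (r n * a) ^ 2 * (K0 * M * d * Λ) := by ring
      _ ≤ 16 * (r n * a) ^ 2 * (K0 * M * d * Λ) ^ 2 := Nat.mul_le_mul_left _ h2
      _ = (E * r n) ^ 2 := by rw [hE]; ring
  have hF : ∀ y, loss ℓ L (mX n') (mY n') y ≤ 1 := fun y =>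
    loss_le_one ℓ L _ _ ((x4 n' hn'').mass_le_one hμ) (fun β v hβ hv _ => by
      have h1 := (((x4 n' hn'') β).2 hβ).2
      have h2 := x1 n' hn''
      exact (y2 n' hn'' _ (by rw [lev_add]; omega)).mass_le_one hμ) y
  have key := (y3 n hn t ht).2.2 _ hF x _ fun y => loss_conf hμ hT K (hX n') ρ (E * r n + 2 * ρ)
    (d * L * r n) (x0 n') (mX n') (mY n') (ν n) (ν n') _ _ e δ hK0 (x3 n' hn'')
    (fun T hT => hm1 K T (by omega) hT) (fun T hT => hm2 K T (by omega) hT) (x4 n' hn'')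
    (x6 n' hn'') (x7 n' hn'' _ hB)
    (fun t ht _ => by
      have h2 := x1 n' hn''
      have h3 : (n' : ℤ) - L ≤ t := by omega
      exact ⟨y2 n' hn'' t h3, y3 n' hn'' t h3, y4 n' hn'' t h3⟩)
    (v1 n' hn'') (v1 n hn) (v3 n hn) (v2 n hn) y
  have t1 := ThmA_box (k := d - 1) hN r1 (by omega) (by omega)
  have t2 := ThmA_box (k := d - 1) hN r3 (by omega) (by omega)
  have t3 := ThmA_third (R := E * r n + 2 * ρ) (R₁ := d * L * r n) (r := r n) (by omega)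
    (by nlinarith) hδ
  refine key.trans (le_trans (add_le_add (add_le_add (add_le_add t1 (add_le_add t2 le_rfl)) t3)
    le_rfl) ?_)
  rw [ENNReal.le_div_iff_mul_le (by norm_num) (by norm_num)]
  refine le_trans (le_of_eq ?_) he.le
  ring

end Vale.Agent.P147
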