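import Vale.Agent.P147.Core
import Vale.Agent.P147.Chain
import Vale.Agent.P147.Dens

/-! The chain with a first moment bound for the loss. -/

namespace Vale.Agent.P147

open MeasureTheory
open scoped ENNReal Classical

variable {d : ℕ} {μ : Measure (St d → ℝ)} [IsProbabilityMeasure μ]
  {ℓ : V d} {lam : ℤ} {i0 : Fin d}

lemma thmCA_dens (hμ : Elliptic μ) (hT : Top ℓ lam i0) {cap : ℤ → ℝ≥0∞} {η : ℝ≥0∞}
    (h₂ : Thin μ ℓ cap η) {n : ℕ} (hn : 2 * lam ≤ n) {t : ℤ} (t1 : n - lam ≤ t) (t2 : t ≤ n + lam)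
    {m : Pa d → ℝ≥0∞} {A : ℝ≥0∞} (hm : Sub μ ℓ t m) (hc : Capd m (A * cap t)) (a : ℤ) :
    ∑' γ, m γ * (((dep 0 γ).filter fun y => lev ℓ y = a).card : ℝ≥0∞) ≤
      cap (7 * n) * (2 * ENNReal.ofReal lam * (A + 2)) / (η ^ 2 * n) := by
  have l0 := hT.1
  have hn0 : n ≠ 0 := by omega
  have e1 : η ^ 2 * n ≠ 0 := mul_ne_zero (pow_ne_zero _ h₂.1) (by exact_mod_cast hn0)
  have e2 : η ^ 2 * n ≠ ⊤ := ENNReal.mul_ne_top
    (ENNReal.pow_ne_top (ne_top_of_le_ne_top ENNReal.one_ne_top (h₂.le_one hμ))) (by simp)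
  rw [ENNReal.le_div_iff_mul_le (Or.inl e1) (Or.inl e2)]
  have h := level_density hμ hT h₂ t (by omega) (A * cap t) a
  have h3 := ENNReal.tsum_le_tsum fun γ => mul_le_mul_left (hm.le_cb hc γ)
    (((dep 0 γ).filter fun y => lev ℓ y = a).card : ℝ≥0∞)
  have h4 : (n : ℝ≥0∞) ≤ 2 * ENNReal.ofReal t := by
    rw [← ENNReal.ofReal_natCast, ← ENNReal.ofReal_ofNat 2, ← ENNReal.ofReal_mul zero_le_two]
    exact ENNReal.ofReal_le_ofReal (by exact_mod_cast (by omega : (n : ℤ) ≤ 2 * t))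
  have h5 : cap t ≤ cap (7 * n) := h₂.2.1 (by omega)
  have h6 : cap (3 * t + 2 * lam) ≤ cap (7 * n) := h₂.2.1 (by omega)
  generalize ∑' γ, m γ * (((dep 0 γ).filter fun y => lev ℓ y = a).card : ℝ≥0∞) = S at *
  generalize ∑' γ, cb μ ℓ (A * cap t) t γ *
    (((dep 0 γ).filter fun y => lev ℓ y = a).card : ℝ≥0∞) = S' at *
  calc S * (η ^ 2 * n) ≤ S' * (η ^ 2 * (2 * ENNReal.ofReal t)) := by gcongr
    _ = 2 * (ENNReal.ofReal t * η ^ 2 * S') := by ring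
    _ ≤ 2 * (ENNReal.ofReal lam * (A * cap (7 * n) + 2 * cap (7 * n))) := by
        refine mul_le_mul_right (h.trans ?_) 2
        gcongr
    _ = _ := by ring

theorem thmCA_fm (hμ : Elliptic μ) (hd : 2 ≤ d) (hT : Top ℓ lam i0) {cap₁ cap₂ : ℤ → ℝ≥0∞}
    {η₁ η₂ : ℝ≥0∞} (h₁ : Thin μ ℓ cap₁ η₁) (h₂ : Thin μ (-ℓ) cap₂ η₂) (c : ℝ≥0∞) (hc : c ≤ η₁)
    (M n0 : ℕ) (A : ℝ≥0∞) (hM : 4 ≤ M * c ^ 2) (hn0 : 2 * lam ≤ n0)
    (hY : ∀ n : ℕ, n0 ≤ n → ∃ (ν : V d → ℝ≥0∞) (s : ℝ≥0∞), (∀ z, ν z ≤ s) ∧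
      s * (cap₁ (M * n) * (cap₂ (7 * (M * n)) * (2 * ENNReal.ofReal lam * (A + 2)))) ≤
        c ^ 4 / 16 * (η₂ ^ 2 * n) ∧
      ∀ t : ℤ, n - lam ≤ t → t ≤ n + lam → ∃ m, Sub μ (-ℓ) t m ∧ c ≤ ∑' l, m l ∧
        Capd m (A * cap₂ t) ∧ Sm (-ℓ) m ν (c ^ 4 / 16)) : False := by
  choose! ν s hs hnum mY hsub hmass hcap hsm using hY
  have l0 := hT.1
  refine chain hμ hd hT c M n0 0 hM (by omega) (fun n => n) (fun n => cb μ ℓ (cap₁ n) n) mY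
    (fun n _ => ⟨le_rfl, by simp, sub_cb _ _, hc.trans (h₁.2.2.2 n)⟩)
    (fun n t hn t1 t2 => ⟨hsub n hn t t1 (by simpa using t2), hmass n hn t t1 (by simpa using t2)⟩)
    fun n n' t x hn n1 n2 t1 t2 => ?_
  have hn' : n0 ≤ n' := hn.trans n1
  have hX1 := (sub_cb (μ := μ) (ℓ := ℓ) (cap₁ n') n').mass_le_one hμ
  have rng : ∀ β v, cb μ ℓ (cap₁ n') n' β ≠ 0 → -lam ≤ lev ℓ v → lev ℓ v < 0 →
      n' - lam ≤ lev ℓ (v + disp β) + 1 ∧ lev ℓ (v + disp β) + 1 ≤ n' + lam := by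
    intro β v hβ v1 v2
    have hb := (sub_cb (μ := μ) (ℓ := ℓ) (cap₁ n') n' β).2 hβ
    have b1 := hb.2
    have b2 := hb.gain_lt hT (Int.natCast_nonneg _)
    rw [lev_add]
    omega
  have hS := sm_neg.1 (hsm n hn t t1 (by simpa using t2))
  have key := hS.2.2 (loss ℓ lam (cb μ ℓ (cap₁ n') n') (mY n'))
    (loss_le_one ℓ lam _ _ hX1 fun β v hβ v1 v2 =>
      (hsub n' hn' _ (rng β v hβ v1 v2).1 (rng β v hβ v1 v2).2).mass_le_one hμ) x _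
    (loss_fm ℓ lam _ _ (ν n) (s n) (cap₁ n') _ hS.1 (hs n hn) hX1 (capd_cb _ _)
      fun β v hβ v1 v2 a => thmCA_dens hμ hT.neg h₂ (n := n') (by omega) (rng β v hβ v1 v2).1
        (rng β v hβ v1 v2).2 (hsub n' hn' _ (rng β v hβ v1 v2).1 (rng β v hβ v1 v2).2)
        (hcap n' hn' _ (rng β v hβ v1 v2).1 (rng β v hβ v1 v2).2) a)
  refine key.trans ?_
  have e : c ^ 4 / 8 = c ^ 4 / 16 + c ^ 4 / 16 := by
    rw [← two_mul, ← ENNReal.mul_div_mul_left (c ^ 4) 8 two_ne_zero ENNReal.ofNat_ne_top,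
      mul_div_assoc]
    norm_num
  rw [e]
  refine add_le_add_left ?_ _
  rw [← mul_div_assoc]
  refine ENNReal.div_le_of_le_mul ?_
  have m1 : (n' : ℤ) ≤ M * n := by exact_mod_cast n2
  have c1 : cap₁ n' ≤ cap₁ (M * n) := h₁.2.1 m1
  have c2 : cap₂ (7 * n') ≤ cap₂ (7 * (M * n)) := h₂.2.1 (by omega)
  have c3 : (n : ℝ≥0∞) ≤ n' := by exact_mod_cast n1
  rw [mul_assoc]
  refine le_trans ?_ ((hnum n hn).trans ?_) <;> gcongr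

lemma thmCA_sqrt {G n : ℕ} (hG : 0 < G) (hn : G ≤ n) :
    ∃ r : ℕ, 0 < r ∧ G * r ^ 2 ≤ n ∧ n ≤ 4 * G * r ^ 2 := by
  have h1 : 0 < n / G := Nat.div_pos hn hG
  have h2 := Nat.sqrt_pos.2 h1
  refine ⟨(n / G).sqrt, h2, (Nat.mul_le_mul_left _ (Nat.sqrt_le' _)).trans (Nat.mul_div_le _ _), ?_⟩
  have h3 := Nat.lt_succ_sqrt' (n / G)
  have h4 := Nat.lt_mul_div_succ n hG
  calc n ≤ G * (n / G + 1) := h4.le
    _ ≤ G * (2 * (n / G).sqrt) ^ 2 :=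
        Nat.mul_le_mul_left _ (le_trans h3 (Nat.pow_le_pow_left (by omega) 2))
    _ = _ := by ring

lemma thmCA_real {x : ℝ≥0∞} (hx : x ≠ 0) : ∃ e : ℝ, 0 < e ∧ ENNReal.ofReal e ≤ x := by
  obtain ⟨e, -, h1, h2⟩ := ENNReal.lt_iff_exists_real_btwn.1 (pos_iff_ne_zero.2 hx)
  exact ⟨e, ENNReal.ofReal_pos.1 h1, h2.le⟩

lemma thmCA_M {c : ℝ≥0∞} (hc : c ≠ 0) : ∃ M : ℕ, 4 ≤ M * c ^ 2 := by
  obtain ⟨M, h⟩ := ENNReal.exists_nat_mul_gt (pow_ne_zero 2 hc) (ENNReal.ofNat_ne_top (n := 4))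
  exact ⟨M, h.le⟩

lemma thmCA_eps {c : ℝ≥0∞} (hc : c ≠ 0) : c ^ 4 / 16 ≠ 0 :=
  ENNReal.div_ne_zero.2 ⟨pow_ne_zero 4 hc, ENNReal.ofNat_ne_top⟩

lemma thmCA_a {x : ℝ≥0∞} (hx : x ≠ 0) (C : ℝ) : ∃ a : ℕ, 0 < a ∧ ∀ r : ℕ, 0 < r →
    ENNReal.ofReal (C * r / Real.sqrt (a ^ 2 * r ^ 2 : ℕ)) ≤ x := by
  obtain ⟨e, he, h⟩ := thmCA_real hx
  obtain ⟨a, ha⟩ := exists_nat_gt (max (C / e) 0)
  have a0 : (0 : ℝ) < a := (le_max_right _ _).trans_lt ha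
  have a1 := (le_max_left _ _).trans_lt ha
  refine ⟨a, by exact_mod_cast a0, fun r hr => le_trans (ENNReal.ofReal_le_ofReal ?_) h⟩
  have r0 : (0 : ℝ) < r := by exact_mod_cast hr
  push_cast
  rw [← mul_pow, Real.sqrt_sq (by positivity), mul_div_mul_right _ _ r0.ne', div_le_iff₀ a0]
  rw [div_lt_iff₀ he] at a1
  linarith

end Vale.Agent.P147
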