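import Vale.Agent.P147.Core
import Vale.Agent.P147.Chain
import Vale.Agent.P147.Dens
import Vale.Agent.P147.ThmCA

namespace Vale.Agent.P147

open MeasureTheory
open scoped ENNReal Classical

variable {d : ℕ} {μ : Measure (St d → ℝ)} [IsProbabilityMeasure μ]
  {ℓ : V d} {lam : ℤ} {i0 : Fin d}

lemma thmB_sum (f : Pa d → ℝ≥0∞) (P : Pa d → Prop) (d0 : V d) :
    ∑' z, ∑' σ, (if P σ ∧ disp σ = d0 + z then f σ else 0) = ∑' σ, if P σ then f σ else 0 := by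
  rw [ENNReal.tsum_comm]
  refine tsum_congr fun σ => ?_
  rw [tsum_eq_single (disp σ - d0) fun z hz => if_neg fun h => hz (by rw [h.2]; simp)]
  simp

lemma thmB_or (f : Pa d → ℝ≥0∞) {T P Q : Pa d → Prop} (hT : ∀ σ, T σ ↔ P σ ∨ Q σ)
    (h : ∀ σ, P σ → ¬Q σ) (x : V d) :
    ∑' σ, (if T σ ∧ disp σ = x then f σ else 0) =
      ∑' σ, (if P σ ∧ disp σ = x then f σ else 0) +
        ∑' σ, (if Q σ ∧ disp σ = x then f σ else 0) := by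
  rw [← ENNReal.tsum_add]
  refine tsum_congr fun σ => ?_
  by_cases h1 : P σ
  · simp [hT, h1, h σ h1]
  · simp [hT, h1]

lemma thmB_ne {f : Pa d → ℝ≥0∞} {P : Pa d → Prop} {_ : ∀ σ, Decidable (P σ)}
    (h : ∑' σ, (if P σ then f σ else 0) ≠ 0) : ∃ σ, P σ := by
  by_contra h1
  exact h (ENNReal.tsum_eq_zero.2 fun σ => if_neg fun h2 => h1 ⟨σ, h2⟩)

lemma thmB_pat (hμ : Elliptic μ) {Pat Pm Pp : Pa d → Prop} (hPat : ∀ σ, Pat σ ↔ Pm σ ∨ Pp σ)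
    {g α D : ℤ} {j : Fin d} (hD : 0 < D)
    {c : ℝ≥0∞} (hc : c ≠ 0) (hP : ∀ σ, Pm σ ∨ Pp σ → Br ℓ g σ ∧ lev ℓ (disp σ) = g)
    (hm : ∀ σ, Pm σ → disp σ j ≤ α) (hp : ∀ σ, Pp σ → α + D ≤ disp σ j)
    (cm : c ≤ ∑' σ, (if Pm σ then w μ σ else 0)) (cp : c ≤ ∑' σ, (if Pp σ then w μ σ else 0)) :
    ∃ (d0 : V d) (πm πp : V d → ℝ≥0∞) (α' : ℤ), lev ℓ d0 = g ∧
      (patLaw μ Pat d0 = fun z => πm z + πp z) ∧ c ≤ ∑' z, πm z ∧
      c ≤ ∑' z, πp z ∧ ∑' z, πm z + ∑' z, πp z = 1 ∧ (∀ z, πm z ≠ 0 → z j ≤ α') ∧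
      (∀ z, πp z ≠ 0 → α' + D ≤ z j) ∧ c ≤ (∑' σ, if Pat σ then w μ σ else 0) / 2 := by
  have hdis : ∀ σ, Pm σ → ¬Pp σ := fun σ h1 h2 => by
    have := hm σ h1
    have := hp σ h2
    omega
  obtain ⟨σ0, h0⟩ := thmB_ne (ne_bot_of_le_ne_bot hc cm)
  have hW : (∑' σ, if Pat σ then w μ σ else 0) =
      ∑' σ, (if Pm σ then w μ σ else 0) + ∑' σ, (if Pp σ then w μ σ else 0) := by
    rw [← thmB_sum _ Pat 0, ← thmB_sum _ Pm 0, ← thmB_sum _ Pp 0, ← ENNReal.tsum_add]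
    exact tsum_congr fun z => thmB_or _ hPat hdis _
  have hW1 := L0w hμ ((br_pf ℓ g).mono fun σ h => (hP σ ((hPat σ).1 h)).1)
  have e : ∀ z, patLaw μ Pat (disp σ0) z =
      (∑' σ, if Pat σ then w μ σ else 0)⁻¹ *
        ∑' σ, (if Pm σ ∧ disp σ = disp σ0 + z then w μ σ else 0) +
      (∑' σ, if Pat σ then w μ σ else 0)⁻¹ *
        ∑' σ, (if Pp σ ∧ disp σ = disp σ0 + z then w μ σ else 0) := fun z => by
    rw [patLaw, ← mul_add, thmB_or (w μ) hPat hdis]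
  generalize (∑' σ, if Pat σ then w μ σ else 0) = W at *
  have hW0 : W ≠ 0 := ne_bot_of_le_ne_bot hc (cm.trans (hW ▸ le_self_add))
  have hi : 1 ≤ W⁻¹ := ENNReal.one_le_inv.2 hW1
  refine ⟨disp σ0, _, _, α - disp σ0 j, (hP σ0 (Or.inl h0)).2, funext e, ?_, ?_, ?_, ?_, ?_, ?_⟩
  · rw [ENNReal.tsum_mul_left, thmB_sum]
    exact cm.trans (le_mul_of_one_le_left' hi)
  · rw [ENNReal.tsum_mul_left, thmB_sum]
    exact cp.trans (le_mul_of_one_le_left' hi)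
  · rw [ENNReal.tsum_mul_left, ENNReal.tsum_mul_left, thmB_sum, thmB_sum, ← mul_add, ← hW,
      ENNReal.inv_mul_cancel hW0 (ne_top_of_le_ne_top ENNReal.one_ne_top hW1)]
  · intro z hz
    obtain ⟨σ, h1, h2⟩ := thmB_ne (right_ne_zero_of_mul hz)
    have h3 := hm σ h1
    rw [h2, Pi.add_apply] at h3
    omega
  · intro z hz
    obtain ⟨σ, h1, h2⟩ := thmB_ne (right_ne_zero_of_mul hz)
    have h3 := hp σ h1
    rw [h2, Pi.add_apply] at h3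
    omega
  · rw [ENNReal.le_div_iff_mul_le (Or.inl two_ne_zero) (Or.inl ENNReal.ofNat_ne_top), mul_two, hW]
    exact add_le_add cm cp

lemma thmB_conv {ν₁ ν : V d → ℝ≥0∞} {s B : ℝ≥0∞} {R T : ℤ} {j : Fin d} (hs : ∀ z, ν z ≤ s)
    (hR : ∀ z, ν z ≠ 0 → |z j| ≤ R) (hT : 2 * R < T)
    (hB : ∀ a : ℤ, ∑' y, ν₁ y * (if a ≤ y j ∧ y j < a + T then 1 else 0) ≤ B) (z : V d) :
    conv ν₁ ν z ≤ s * B := by
  refine le_trans ?_ (mul_le_mul_right (hB (z j - R)) s)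
  rw [← ENNReal.tsum_mul_left, conv]
  refine ENNReal.tsum_le_tsum fun y => ?_
  rw [mul_left_comm]
  refine mul_le_mul_right ?_ _
  by_cases h : ν (z - y) = 0
  · rw [h]
    exact zero_le
  · have h1 := hR _ h
    rw [Pi.sub_apply, abs_le] at h1
    rw [if_pos (by omega), mul_one]
    exact hs _

lemma thmB_num {C K e w R : ℝ} (hC : 0 ≤ C) (hK : 0 ≤ K) (he : 0 < e) (hw : 0 < w) (hR : 0 ≤ R) :
    ∃ K' : ℕ, 0 < K' ∧ ∀ s : ℕ, 0 < s → ∃ n1 : ℕ, ∀ n : ℕ, n1 ≤ n → ∀ r N k : ℝ, 0 ≤ k →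
      r ^ 2 ≤ n → N ≤ 2 * (R * r) / (K' * s) + 1 → n * w ≤ 96 * s ^ 2 * (k + 1) →
      C * N / Real.sqrt (k + 1) * K ≤ e := by
  have hρ : 0 < Real.sqrt (w / 96) := Real.sqrt_pos.2 (by positivity)
  have hρ2 := Real.sq_sqrt (show 0 ≤ w / 96 by positivity)
  generalize Real.sqrt (w / 96) = ρ at *
  obtain ⟨K', hK'⟩ := exists_nat_gt (4 * (C * K) * R / (e * ρ))
  have K0 : (0 : ℝ) < K' := lt_of_le_of_lt (by positivity) hK'
  refine ⟨K', by exact_mod_cast K0, fun s hs => ?_⟩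
  have s0 : (0 : ℝ) < s := by exact_mod_cast hs
  obtain ⟨n1, hn1⟩ := exists_nat_ge ((2 * (C * K) * s / (e * ρ)) ^ 2)
  refine ⟨n1, fun n hn r N k hk h1 h2 h3 => ?_⟩
  have x1 : r ≤ Real.sqrt n := Real.le_sqrt_of_sq_le h1
  have x2 : 2 * (C * K) * s / (e * ρ) ≤ Real.sqrt n :=
    Real.le_sqrt_of_sq_le (hn1.trans (by exact_mod_cast hn))
  have x3 := Real.sq_sqrt (Nat.cast_nonneg (α := ℝ) n)
  have x0 := Real.sqrt_nonneg n
  generalize Real.sqrt n = x at *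
  have u1 : x * ρ / s ≤ Real.sqrt (k + 1) := by
    refine Real.le_sqrt_of_sq_le ?_
    rw [div_pow, mul_pow, x3, hρ2, div_le_iff₀ (by positivity)]
    linarith
  have u0 : 0 < Real.sqrt (k + 1) := Real.sqrt_pos.2 (by linarith)
  rw [div_mul_eq_mul_div, div_le_iff₀ u0]
  rw [div_lt_iff₀ (by positivity)] at hK'
  rw [div_le_iff₀ (by positivity)] at x2
  have a1 : C * K * (2 * (R * r) / (K' * s)) ≤ e / 2 * (x * ρ / s) := by
    calc _ ≤ C * K * (2 * (R * x) / (K' * s)) := by gcongr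
      _ = 4 * (C * K) * R * (x / (2 * K' * s)) := by
          field_simp
          ring
      _ ≤ K' * (e * ρ) * (x / (2 * K' * s)) := by gcongr
      _ = _ := by field_simp
  have a2 : C * K ≤ e / 2 * (x * ρ / s) := by
    rw [← mul_div_assoc, le_div_iff₀ s0]
    linarith
  calc C * N * K = C * K * N := by ring
    _ ≤ C * K * (2 * (R * r) / (K' * s) + 1) := by gcongr
    _ ≤ e * (x * ρ / s) := by linarith
    _ ≤ _ := by gcongr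

lemma thmB_cast {δ κ M n r L A G : ℕ} (hr : 0 < r) (hδ : 2 ≤ δ) (hG : n ≤ G * r ^ 2) (B : ℝ≥0∞) :
    (r : ℝ≥0∞)⁻¹ ^ δ * B * (κ * ENNReal.ofReal ((M * n : ℤ) : ℝ) *
      (κ * ENNReal.ofReal ((7 * (M * n) : ℤ) : ℝ) *
        (2 * ENNReal.ofReal ((L : ℤ) : ℝ) * (A + 2)))) ≤
      B * (G * (κ * M * (κ * (7 * M) * (2 * L * (A + 2)))) : ℕ) * n := by
  have e1 : ENNReal.ofReal ((M * n : ℤ) : ℝ) = M * n := by
    rw [← Nat.cast_mul, Int.cast_natCast, ENNReal.ofReal_natCast, Nat.cast_mul]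
  have e2 : ENNReal.ofReal ((7 * (M * n) : ℤ) : ℝ) = 7 * (M * n) := by
    have := ENNReal.ofReal_natCast (7 * (M * n))
    push_cast at this ⊢
    exact this
  have r0 : (r : ℝ≥0∞) ≠ 0 := by exact_mod_cast hr.ne'
  have h1 : (r : ℝ≥0∞)⁻¹ ^ δ ≤ (r : ℝ≥0∞)⁻¹ ^ 2 :=
    pow_le_pow_of_le_one zero_le (ENNReal.inv_le_one.2 (by exact_mod_cast hr)) hδ
  have h2 : (r : ℝ≥0∞)⁻¹ ^ 2 * n ≤ G := by
    have h3 : (n : ℝ≥0∞) ≤ G * r ^ 2 := by exact_mod_cast hG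
    refine (mul_le_mul_right h3 _).trans (le_of_eq ?_)
    rw [mul_left_comm, ← mul_pow, ENNReal.inv_mul_cancel r0 (by simp), one_pow, mul_one]
  rw [e1, e2, Int.cast_natCast, ENNReal.ofReal_natCast]
  push_cast
  calc _ = B * ((r : ℝ≥0∞)⁻¹ ^ δ * n * (κ * M * (κ * (7 * M) * (2 * L * (A + 2))))) * n := by ring
    _ ≤ _ := by
        gcongr
        exact (mul_le_mul_left h1 _).trans h2

lemma thmB_box {K s n : ℕ} (h : s ^ 2 ≤ n) {x : ℤ} (hx : |x| ≤ (K * s : ℕ)) :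
    x ^ 2 ≤ (K ^ 2 : ℕ) * n := by
  have h1 : x ^ 2 ≤ ((K * s : ℕ) : ℤ) ^ 2 := by
    rw [← sq_abs]
    exact pow_le_pow_left₀ (abs_nonneg _) hx 2
  refine h1.trans ?_
  exact_mod_cast (mul_pow K s 2).le.trans (Nat.mul_le_mul_left _ h)

theorem thmB (hμ : Elliptic μ) (hd : 3 ≤ d) (hT : Top ℓ lam i0) {η₁ η₂ : ℝ≥0∞} (κ : ℕ)
    (h₁ : Thin μ ℓ (fun h => κ * ENNReal.ofReal h) η₁)
    (h₂ : Thin μ (-ℓ) (fun h => κ * ENNReal.ofReal h) η₂) (ht : ¬Tight μ (-ℓ)) : False := by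
  obtain ⟨L, rfl⟩ := Int.eq_ofNat_of_zero_le hT.1.le
  have L0 : 0 < L := by exact_mod_cast hT.1
  obtain ⟨cc, C, Λ, c0, -, Λ0, hcore⟩ := core hμ hT.neg η₂
  have hc1 : η₂ / (8 * d * ENNReal.ofReal ((L : ℤ) : ℝ)) ≠ 0 := ENNReal.div_ne_zero.2
    ⟨h₂.1, ENNReal.mul_ne_top (ENNReal.mul_ne_top ENNReal.ofNat_ne_top (by simp)) (by simp)⟩
  have hc4 : η₂ / (4 * ENNReal.ofReal ((L : ℤ) : ℝ)) ≠ 0 := ENNReal.div_ne_zero.2
    ⟨h₂.1, ENNReal.mul_ne_top ENNReal.ofNat_ne_top (by simp)⟩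
  have hsplit := split hμ hT.neg h₂
  generalize η₂ / (8 * d * ENNReal.ofReal ((L : ℤ) : ℝ)) = c1 at hc1 hsplit
  obtain ⟨C2, C0, hbig⟩ := big_bound (d := d) c1 hc1
  have hw := mul_ne_zero (pow_ne_zero 2 h₂.1) hc1
  have hc : min η₁ (η₂ ^ 2 * c1 * cc) ≠ 0 :=
    (lt_min (pos_iff_ne_zero.2 h₁.1) (pos_iff_ne_zero.2 (mul_ne_zero hw (c0 h₂.1)))).ne'
  have b1 := min_le_left η₁ (η₂ ^ 2 * c1 * cc)
  have b2 := min_le_right η₁ (η₂ ^ 2 * c1 * cc)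
  generalize min η₁ (η₂ ^ 2 * c1 * cc) = c at *
  obtain ⟨M, hM⟩ := thmCA_M hc
  obtain ⟨a, a0, ha⟩ := thmCA_a (thmCA_eps hc) C
  obtain ⟨e, e0, he⟩ := thmCA_real (mul_ne_zero (thmCA_eps hc) (pow_ne_zero 2 h₂.1))
  obtain ⟨w', w0, hw'⟩ := thmCA_real hw
  have G0 : 0 < 2 * d * Λ * a ^ 2 := by positivity
  obtain ⟨K', K0, hnum⟩ := thmB_num (K := (4 * (2 * d * Λ * a ^ 2) *
    (κ * M * (κ * (7 * M) * (2 * L * ((3 * d + 4 : ℕ) + 2)))) : ℕ)) (R := d * L) C0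
    (Nat.cast_nonneg _) e0 w0 (by positivity)
  obtain ⟨n', n1, hnt⟩ : ∃ n' : ℕ, L ≤ n' ∧ ∀ a : V d, ∑' l, (if Br (-ℓ) n' l ∧
      ∀ i, (disp l i - a i) ^ 2 ≤ (K' ^ 2 : ℕ) * n' then w μ l else 0) <
      η₂ / (4 * ENNReal.ofReal ((L : ℤ) : ℝ)) := by
    by_contra h
    refine ht ⟨K' ^ 2, 0, L, _, hc4, fun n hn => ?_⟩
    by_contra h'
    exact h ⟨n, hn, fun a => lt_of_not_ge fun h3 => h' ⟨n, a, le_rfl, by simp, h3⟩⟩
  obtain ⟨s, s0, s1, s2⟩ := thmCA_sqrt one_pos (L0.trans_le n1)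
  rw [one_mul] at s1
  have D0 : 0 < K' * s := Nat.mul_pos K0 s0
  have D0' : (0 : ℤ) < (K' * s : ℕ) := by exact_mod_cast D0
  obtain ⟨g, j, α, Pm, Pp, g1, g2, hP, hm, hp, cm, cp⟩ := hsplit n' (by omega)
    (ENNReal.mul_ne_top (by simp) (by simp)) (K' * s : ℕ) D0' fun a =>
      lt_of_le_of_lt (ENNReal.tsum_le_tsum fun l => by
        split_ifs with x1 x2
        · exact le_rfl
        · exact absurd ⟨x1.1, fun i => thmB_box s1 (x1.2 i)⟩ x2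
        · exact zero_le
        · exact le_rfl) (hnt a)
  obtain ⟨Pat, hPat⟩ : ∃ Pat : Pa d → Prop, ∀ σ, Pat σ ↔ Pm σ ∨ Pp σ := ⟨_, fun _ => Iff.rfl⟩
  obtain ⟨d0, πm, πp, α', p1, p2, p3, p4, p5, p6, p7, p8⟩ := thmB_pat hμ hPat D0' hc1
    (fun σ h => ⟨(hP σ h).1, (hP σ h).2.1⟩) hm hp cm cp
  have hst := stage hμ hT.neg h₂ Pat g (n' + 2 * L : ℕ) (by omega) (by omega)
    (fun σ h => ⟨(hP σ ((hPat σ).1 h)).1, (hP σ ((hPat σ).1 h)).2.1,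
      (hP σ ((hPat σ).1 h)).2.2.trans (h₂.2.1 (by omega))⟩) _ rfl
    (fun h => hc1 (by simpa [h] using p8)) d0 p1
  have p9 := mul_le_mul_right p8 (η₂ ^ 2)
  rw [← mul_div_assoc] at p9
  generalize η₂ ^ 2 * (∑' σ, if Pat σ then w μ σ else 0) / 2 = W at hst p9
  rw [p2] at hst
  obtain ⟨n0, h0⟩ := hnum s s0
  refine thmCA_fm hμ (by omega) hT h₁ h₂ c b1 M
    (n0 + 2 * d * Λ * a ^ 2 + 4 * (d + 2) * L + 4 * (n' + 2 * L))
    (3 * d + 4 : ℕ) hM (by omega) fun n hn => ?_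
  obtain ⟨r, r0, r1, r2⟩ := thmCA_sqrt G0 (n := n) (by omega)
  obtain ⟨ν, v1, v2, v3, v4, v5⟩ := hcore _ h₂ (a ^ 2 * r ^ 2) r (by positivity) r0
  choose! m₂ q1 q2 q3 q4 using v5
  have I0 : 0 < n / (4 * (n' + 2 * L)) := Nat.div_pos (by omega) (by omega)
  have I1 := Nat.mul_div_le n (4 * (n' + 2 * L))
  have I2 := Nat.lt_mul_div_succ n (show 0 < 4 * (n' + 2 * L) by omega)
  generalize n / (4 * (n' + 2 * L)) = I at I0 I1 I2
  have k1 := Nat.floor_le (show 0 ≤ I * w' by positivity)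
  have k2 := Nat.lt_floor_add_one (I * w')
  generalize ⌊I * w'⌋₊ = k at k1 k2
  obtain ⟨m₁, u1, u2, u3, u4⟩ := hst I k I0 (by
    rw [← ENNReal.ofReal_natCast]
    refine (ENNReal.ofReal_le_ofReal k1).trans ?_
    rw [ENNReal.ofReal_mul (Nat.cast_nonneg _), ENNReal.ofReal_natCast]
    exact mul_le_mul_right (hw'.trans p9) _) _ le_rfl
  have N1 := Nat.lt_mul_div_succ (2 * (d * L * r)) D0
  refine ⟨conv (cpow (fun z => πm z + πp z) k) ν, _, thmB_conv v1 (fun z hz => v2 z hz j)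
    (T := (2 * (d * L * r) / (K' * s) + 1 : ℕ) * (K' * s : ℕ))
    (by rw [mul_comm (K' * s)] at N1; exact_mod_cast N1)
    (hbig πm πp j α' _ D0' p3 p4 p5 p6 p7 k _), ?_, fun t t1 _ => ?_⟩
  · refine (thmB_cast r0 (by omega) r2 _).trans ?_
    rw [← mul_assoc (c ^ 4 / 16)]
    refine mul_le_mul_left (le_trans ?_ he) _
    rw [← ENNReal.ofReal_natCast, ← ENNReal.ofReal_mul (by positivity)]
    refine ENNReal.ofReal_le_ofReal (h0 n (by omega) r _ k (Nat.cast_nonneg _) ?_ ?_ ?_)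
    · exact_mod_cast (Nat.le_mul_of_pos_left _ G0).trans r1
    · rw [Nat.cast_add, Nat.cast_one]
      refine add_le_add_left (Nat.cast_div_le.trans (le_of_eq ?_)) _
      push_cast
      ring
    · have x1 : n ≤ 96 * s ^ 2 * I := by
        calc n ≤ 4 * (n' + 2 * L) * (I + 1) := I2.le
          _ ≤ 4 * (12 * s ^ 2) * (2 * I) := Nat.mul_le_mul (by omega) (by omega)
          _ = _ := by ring
      have x2 : (n : ℝ) ≤ 96 * s ^ 2 * I := by exact_mod_cast x1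
      calc n * w' ≤ 96 * s ^ 2 * I * w' := by gcongr
        _ = 96 * s ^ 2 * (I * w') := by ring
        _ ≤ _ := by gcongr
  · have h3 : 4 * (d * (a ^ 2 * r ^ 2 * Λ + L)) + 4 * (I * (n' + 2 * L)) + 8 * L ≤ 4 * n := by
      have : 4 * (d + 2) * L ≤ n := by omega
      nlinarith
    have h4 : (0 : ℤ) ≤ d * ((a ^ 2 * r ^ 2 : ℕ) * Λ + L) := by positivity
    have h5 : (0 : ℤ) ≤ I * (n' + 2 * L : ℕ) := by positivity
    have h6 : 4 * ((d : ℤ) * ((a ^ 2 * r ^ 2 : ℕ) * Λ + L)) + 4 * (I * (n' + 2 * L : ℕ)) +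
        8 * L ≤ 4 * n := by exact_mod_cast h3
    have h7 : ∀ b, m₁ b ≠ 0 → 0 ≤ lev (-ℓ) (disp b) ∧
        d * ((a ^ 2 * r ^ 2 : ℕ) * Λ + (L : ℤ)) ≤ t - lev (-ℓ) (disp b) := fun b hb => by
      have x1 := (u1 b).2 hb
      have x2 := x1.gain_lt hT.neg h5
      exact ⟨x1.gain_nonneg, by omega⟩
    have h8 : I * (n' + 2 * L : ℕ) ≤ t := by omega
    refine ⟨star (-ℓ) m₁ fun g => m₂ (t - g), sub_star u1 (fun b hb => q1 _ (h7 b hb).2) h8,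
      b2.trans (mass_star (p9.trans u2) fun b hb => q2 _ (h7 b hb).2), fun l hl => ?_, ?_⟩
    · refine (capd_star (M₂ := (3 * d + 1) * (κ * ENNReal.ofReal t)) u3
        (fun b hb l hl => (q3 _ (h7 b hb).2 l hl).trans
          (mul_le_mul_right (h₂.2.1 (sub_le_self t (h7 b hb).1)) _)) l hl).trans ?_
      refine (add_le_add_left (mul_le_mul_right (h₂.2.1 h8) 3) _).trans (le_of_eq ?_)
      push_cast
      ring
    · refine (sm_star (m₂ := fun g => m₂ (t - g)) u4 ⟨v3, v4⟩ fun b hb =>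
        ⟨q4 _ (h7 b hb).2, (q1 _ (h7 b hb).2).mass_le_one hμ⟩).mono ?_
      rw [zero_add]
      exact ha r r0

end Vale.Agent.P147
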