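import Vale.Agent.P147.Core
import Vale.Agent.P147.Chain
import Vale.Agent.P147.Dens
import Vale.Agent.P147.ThmCA

namespace Vale.Agent.P147

open MeasureTheory
open scoped ENNReal Classical

variable {d : ℕ} {μ : Measure (St d → ℝ)} [IsProbabilityMeasure μ]
  {ℓ : V d} {lam : ℤ} {i0 : Fin d}

lemma thmC_num (δ : ℕ) {b K e G : ℝ} (hb : b < δ / 2 + 1) (hK : 0 ≤ K) (he : 0 < e) (hG : 0 < G) :
    ∃ n0 : ℕ, ∀ n : ℕ, n0 ≤ n → ∀ r : ℝ, 0 < r → n ≤ G * r ^ 2 →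
      r⁻¹ ^ δ * (K * (n : ℝ) ^ b) ≤ e * n := by
  have h := ((tendsto_rpow_neg_atTop (sub_pos.2 hb)).comp
    tendsto_natCast_atTop_atTop).const_mul (G ^ (δ / 2 : ℝ) * K)
  rw [mul_zero] at h
  obtain ⟨n0, h0⟩ := Filter.eventually_atTop.1 (h.eventually_le_const he)
  refine ⟨max n0 1, fun n hn r hr h1 => ?_⟩
  have h2 := h0 n ((le_max_left _ _).trans hn)
  have n1 : (0 : ℝ) < n := by exact_mod_cast (le_max_right _ _).trans hn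
  have h3 : r⁻¹ ^ 2 ≤ G / n := by
    rw [inv_pow, le_div_iff₀ n1, inv_mul_le_iff₀ (by positivity)]
    linarith
  have h4 : r⁻¹ ^ δ ≤ G ^ (δ / 2 : ℝ) * (n : ℝ) ^ (-(δ / 2 : ℝ)) := by
    have e1 : r⁻¹ ^ δ = (r⁻¹ ^ 2) ^ (δ / 2 : ℝ) := by
      rw [← Real.rpow_natCast, ← Real.rpow_natCast, ← Real.rpow_mul (by positivity)]
      congr 1
      push_cast
      ring
    rw [e1, Real.rpow_neg n1.le, ← div_eq_mul_inv, ← Real.div_rpow hG.le n1.le]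
    exact Real.rpow_le_rpow (by positivity) h3 (by positivity)
  have e2 : (n : ℝ) ^ (-(δ / 2 : ℝ)) * (n : ℝ) ^ b = (n : ℝ) ^ (-(δ / 2 + 1 - b : ℝ)) * n := by
    rw [← Real.rpow_add n1, ← Real.rpow_add_one n1.ne']
    congr 1
    ring
  calc _ ≤ G ^ (δ / 2 : ℝ) * (n : ℝ) ^ (-(δ / 2 : ℝ)) * (K * (n : ℝ) ^ b) :=
        mul_le_mul_of_nonneg_right h4 (by positivity)
    _ = G ^ (δ / 2 : ℝ) * K * ((n : ℝ) ^ (-(δ / 2 : ℝ)) * (n : ℝ) ^ b) := by ring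
    _ ≤ _ := by
        rw [e2, ← mul_assoc]
        exact mul_le_mul_of_nonneg_right h2 n1.le

lemma thmC_cast (δ κ₁ κ₂ M n r L A : ℕ) (hr : 0 < r) {b₁ b₂ : ℝ} (hb₁ : 0 ≤ b₁) (hb₂ : 0 ≤ b₂) :
    (r : ℝ≥0∞)⁻¹ ^ δ * (κ₁ * ENNReal.ofReal ((M * n : ℤ) : ℝ) ^ b₁ *
      (κ₂ * ENNReal.ofReal ((7 * (M * n) : ℤ) : ℝ) ^ b₂ *
        (2 * ENNReal.ofReal ((L : ℤ) : ℝ) * (A + 2)))) =
      ENNReal.ofReal ((r : ℝ)⁻¹ ^ δ * (κ₁ * (M : ℝ) ^ b₁ * (κ₂ * (7 * M : ℝ) ^ b₂ *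
        (2 * L * (A + 2))) * (n : ℝ) ^ (b₁ + b₂))) := by
  have r0 : (0 : ℝ) < r := by exact_mod_cast hr
  have e : (r : ℝ)⁻¹ ^ δ * (κ₁ * (M : ℝ) ^ b₁ * (κ₂ * (7 * M : ℝ) ^ b₂ * (2 * L * (A + 2))) *
      (n : ℝ) ^ (b₁ + b₂)) = (r : ℝ)⁻¹ ^ δ * (κ₁ * ((M * n : ℤ) : ℝ) ^ b₁ *
      (κ₂ * ((7 * (M * n) : ℤ) : ℝ) ^ b₂ * (2 * ((L : ℤ) : ℝ) * (A + 2)))) := by
    push_cast
    rw [Real.rpow_add_of_nonneg (by positivity) hb₁ hb₂, ← mul_assoc (7 : ℝ),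
      Real.mul_rpow (x := 7 * M) (by positivity) (by positivity),
      Real.mul_rpow (x := M) (y := n) (by positivity) (by positivity)]
    ring
  rw [e, ENNReal.ofReal_rpow_of_nonneg (by positivity) hb₁,
    ENNReal.ofReal_rpow_of_nonneg (by positivity) hb₂]
  simp (disch := positivity) only [ENNReal.ofReal_mul, ENNReal.ofReal_pow, ENNReal.ofReal_add,
    ENNReal.ofReal_natCast, ENNReal.ofReal_ofNat, ENNReal.ofReal_inv_of_pos r0]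

theorem thmC (hμ : Elliptic μ) (hd : 2 ≤ d) (hT : Top ℓ lam i0) {η₁ η₂ : ℝ≥0∞} (κ₁ κ₂ : ℕ)
    (b₁ b₂ : ℝ) (hb₁ : 1 ≤ b₁) (hb₂ : 1 ≤ b₂) (hb : b₁ + b₂ < (d + 1) / 2)
    (h₁ : Thin μ ℓ (fun h => κ₁ * ENNReal.ofReal h ^ b₁) η₁)
    (h₂ : Thin μ (-ℓ) (fun h => κ₂ * ENNReal.ofReal h ^ b₂) η₂) : False := by
  obtain ⟨L, rfl⟩ := Int.eq_ofNat_of_zero_le hT.1.le
  obtain ⟨cc, C, Λ, c0, -, Λ0, hcore⟩ := core hμ hT.neg η₂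
  have hc : min η₁ cc ≠ 0 := (lt_min (pos_iff_ne_zero.2 h₁.1) (pos_iff_ne_zero.2 (c0 h₂.1))).ne'
  have hc1 := min_le_left η₁ cc
  have hc2 := min_le_right η₁ cc
  generalize min η₁ cc = c at *
  obtain ⟨M, hM⟩ := thmCA_M hc
  obtain ⟨a, a0, ha⟩ := thmCA_a (thmCA_eps hc) C
  obtain ⟨e, e0, he⟩ := thmCA_real (mul_ne_zero (thmCA_eps hc) (pow_ne_zero 2 h₂.1))
  have G0 : 0 < 2 * d * Λ * a ^ 2 := by positivity
  obtain ⟨n0, h0⟩ := thmC_num (d - 1) (b := b₁ + b₂) (K := κ₁ * (M : ℝ) ^ b₁ *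
    (κ₂ * (7 * M : ℝ) ^ b₂ * (2 * L * ((3 * d + 1 : ℕ) + 2))))
    (G := (4 * (2 * d * Λ * a ^ 2) : ℕ)) (by rw [Nat.cast_sub (by omega)]; push_cast; linarith)
    (by positivity) e0 (by positivity)
  refine thmCA_fm hμ hd hT h₁ h₂ c hc1 M (n0 + 2 * d * Λ * a ^ 2 + 2 * (d + 1) * L)
    (3 * d + 1 : ℕ) hM (by push_cast; nlinarith [G0]) fun n hn => ?_
  obtain ⟨r, r0, r1, r2⟩ := thmCA_sqrt G0 (n := n) (by omega)
  obtain ⟨ν, n1, -, -, -, n5⟩ := hcore _ h₂ (a ^ 2 * r ^ 2) r (by positivity) r0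
  refine ⟨ν, _, n1, ?_, fun t t1 _ => ?_⟩
  · rw [thmC_cast _ _ _ _ _ _ _ _ r0 (by linarith) (by linarith), ← mul_assoc (c ^ 4 / 16)]
    refine (ENNReal.ofReal_le_ofReal (h0 n (by omega) r (by exact_mod_cast r0)
      (by exact_mod_cast r2))).trans ?_
    rw [ENNReal.ofReal_mul e0.le, ENNReal.ofReal_natCast]
    exact mul_le_mul_left he _
  · have h3 : 2 * (d * (a ^ 2 * r ^ 2 * Λ + L)) + 2 * L ≤ 2 * n := by
      have : 2 * (d + 1) * L ≤ n := by omega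
      nlinarith
    obtain ⟨m, m1, m2, m3, m4⟩ := n5 t (by zify at h3; push_cast; omega)
    exact ⟨m, m1, hc2.trans m2, by exact_mod_cast m3, m4.mono (ha r r0)⟩

end Vale.Agent.P147
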