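import Vale.Agent.P147.Br

/-! The swap bound: an up-bridge and a down-bridge rarely meet far from their starting levels. -/

namespace Vale.Agent.P147

open MeasureTheory
open scoped ENNReal Classical

variable {d : ℕ} {μ : Measure (St d → ℝ)} [IsProbabilityMeasure μ]

/-- departure levels, measured from `a`, lie in `[0, T)` -/
def zmIn (ℓ a : V d) (T : ℤ) (x : V d) (l : Pa d) : Prop :=
  ∀ y ∈ dep x l, 0 ≤ lev ℓ (y - a) ∧ lev ℓ (y - a) < T

/-- continuations from `x` completing a bridge of height `T` from `a` -/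
def zmC (ℓ a : V d) (T : ℤ) (x : V d) (l : Pa d) : Prop :=
  zmIn ℓ a T x l ∧ T ≤ lev ℓ (x + disp l - a)

/-- bad sites -/
def zmS (ℓ a : V d) (K T : ℤ) (ω : V d → St d → ℝ) (x : V d) : Prop :=
  K ≤ lev ℓ (x - a) ∧ ∑' r, (if zmC ℓ a T x r then q ω x r else 0) ≤ 2⁻¹

/-- first passages into bad sites -/
def zmB (ℓ a : V d) (K T : ℤ) (ω : V d → St d → ℝ) (b : Pa d) : Prop :=
  (zmS ℓ a K T ω (a + disp b) ∧ ∀ y ∈ dep a b, ¬ zmS ℓ a K T ω y) ∧ zmIn ℓ a T a b

/-- bridges through a bad site -/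
def zmE (ℓ a : V d) (K T h : ℤ) (ω : V d → St d → ℝ) (l : Pa d) : Prop :=
  Br ℓ h l ∧ ∃ b r, zmB ℓ a K T ω b ∧ l = b ++ r

/-- the other bridges -/
def zmN (ℓ a : V d) (K T : ℤ) (ω : V d → St d → ℝ) (l : Pa d) : Prop :=
  Br ℓ T l ∧ ¬ zmE ℓ a K T T ω l

def zmU (ℓ a : V d) (K T : ℤ) (ω : V d → St d → ℝ) (l : Pa d) : Prop :=
  zmN ℓ a K T ω l ∨ zmB ℓ a K T ω l

def zmP (ℓ : V d) (K : ℤ) (c : V d) (β γ : Pa d) : Prop :=
  Br (-ℓ) (lev ℓ c + 1) γ ∧ Hit β c γ ∧
    ∀ x ∈ dep 0 β, x ∈ dep c γ → K ≤ lev ℓ x ∧ lev ℓ x ≤ lev ℓ c - K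

/-- first visits of the down walk to the range of `β` -/
def zmG (ℓ : V d) (K : ℤ) (c : V d) (β γ : Pa d) : Prop :=
  (c + disp γ ∈ dep 0 β ∧ ∀ y ∈ dep c γ, y ∉ dep 0 β) ∧ K ≤ lev ℓ (c + disp γ) ∧
    lev ℓ (c + disp γ) ≤ lev ℓ c - K ∧ zmIn (-ℓ) c (lev ℓ c + 1) c γ

lemma zm_in {ℓ : V d} {h : ℤ} {l : Pa d} (hl : Br ℓ h l) (a : V d) : zmIn ℓ a h a l :=
  fun y hy => hl.1 _ ((mem_dep_shift a y l).1 hy)

lemma zm_left {ℓ a x : V d} {T : ℤ} {b r : Pa d} (h : zmIn ℓ a T x (b ++ r)) : zmIn ℓ a T x b :=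
  fun y hy => h y (by rw [dep_append]; exact Finset.mem_union_left _ hy)

lemma zm_right {ℓ a x : V d} {T : ℤ} {b r : Pa d} (h : zmIn ℓ a T x (b ++ r)) :
    zmIn ℓ a T (x + disp b) r :=
  fun y hy => h y (by rw [dep_append]; exact Finset.mem_union_right _ hy)

lemma zm_mem (x : V d) (b : Pa d) {r : Pa d} (hr : r ≠ []) : x + disp b ∈ dep x (b ++ r) := by
  obtain ⟨e, r, rfl⟩ := List.exists_cons_of_ne_nil hr
  exact (mem_dep_iff _ _ _).2 ⟨b, e, r, rfl, rfl⟩

lemma zm_ext {ℓ a : V d} {K T : ℤ} {ω : V d → St d → ℝ} {l : Pa d} (h : zmIn ℓ a T a l)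
    (h' : zmS ℓ a K T ω (a + disp l) ∨ ∃ y ∈ dep a l, zmS ℓ a K T ω y) :
    ∃ b r, zmB ℓ a K T ω b ∧ l = b ++ r := by
  obtain ⟨b, r, rfl, h1⟩ := exists_first a _ l h'
  exact ⟨b, r, ⟨h1, zm_left h⟩, rfl⟩

lemma zm_cut {ℓ c : V d} {K h : ℤ} {β γ : Pa d} (hβ : Br ℓ h β) (hγ : zmP ℓ K c β γ) :
    ∃ b r, zmG ℓ K c β b ∧ γ = b ++ r := by
  obtain ⟨x, hx, hx'⟩ := hγ.2.1
  obtain ⟨b, r, rfl, h1⟩ := exists_first c (· ∈ dep 0 β) γ (Or.inr ⟨x, hx', hx⟩)
  have hr : r ≠ [] := by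
    rintro rfl
    have h2 := hγ.1.2
    have h3 := (hβ.1 _ h1.1).1
    rw [List.append_nil, lev_neg] at h2
    rw [lev_add] at h3
    omega
  have := hγ.2.2 _ h1.1 (zm_mem c b hr)
  exact ⟨b, r, ⟨h1, this.1, this.2, zm_left (zm_in hγ.1 c)⟩, rfl⟩

lemma zm_half {ω : V d → St d → ℝ} (hω : SubSt ω) (ℓ : V d) {K T : ℤ} {c : V d} (hK : 0 < K)
    (hKT : K ≤ T) (hcT : lev ℓ c < T) (x : V d) :
    ∑' r, (if zmC ℓ 0 T x r then q ω x r else 0) ≤ 2⁻¹ ∨
      ∑' r, (if zmC (-ℓ) c (lev ℓ c + 1) x r then q ω x r else 0) ≤ 2⁻¹ := by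
  by_contra hc
  rw [not_or, not_le, not_le] at hc
  have h0 := ENNReal.add_lt_add hc.1 hc.2
  rw [ENNReal.inv_two_add_inv_two, ← ENNReal.tsum_add] at h0
  refine h0.not_ge (le_trans (ENNReal.tsum_le_tsum fun r => ?_)
    (L0 hω (pf_first x fun y => lev ℓ y < 0 ∨ T ≤ lev ℓ y) x))
  have a1 : zmC ℓ 0 T x r → T ≤ lev ℓ (x + disp r) ∧
      ∀ y ∈ dep x r, ¬(lev ℓ y < 0 ∨ T ≤ lev ℓ y) := fun h =>
    ⟨by simpa using h.2, fun y hy => by
      have := h.1 y hy
      rw [sub_zero] at this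
      omega⟩
  have a2 : zmC (-ℓ) c (lev ℓ c + 1) x r → lev ℓ (x + disp r) < 0 ∧
      ∀ y ∈ dep x r, ¬(lev ℓ y < 0 ∨ T ≤ lev ℓ y) := fun h => by
    have h2 := h.2
    rw [lev_neg, lev_sub] at h2
    refine ⟨by omega, fun y hy => ?_⟩
    have := h.1 y hy
    rw [lev_neg, lev_sub] at this
    omega
  by_cases h1 : zmC ℓ 0 T x r <;> by_cases h2 : zmC (-ℓ) c (lev ℓ c + 1) x r
  · have := (a1 h1).1
    have := (a2 h2).1
    omega
  · rw [if_pos h1, if_neg h2, if_pos ⟨Or.inr (a1 h1).1, (a1 h1).2⟩, add_zero]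
  · rw [if_neg h1, if_pos h2, if_pos ⟨Or.inl (a2 h2).1, (a2 h2).2⟩, zero_add]
  · rw [if_neg h1, if_neg h2, add_zero]
    exact zero_le

lemma zm_mq (P : Prop) [Decidable P] (x : V d) (l : Pa d) :
    Measurable fun ω : V d → St d → ℝ => if P then q ω x l else 0 := by
  split_ifs
  · exact measurable_q x l
  · exact measurable_const

lemma zm_meas (ℓ a : V d) (K T : ℤ) :
    Measurable fun ω => ∑' b, if zmB ℓ a K T ω b then q ω a b else 0 := by
  have hS : ∀ x, Measurable fun ω => zmS ℓ a K T ω x := fun x => measurable_const.and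
    (measurableSet_setOfPred.1 (measurableSet_le (Measurable.tsum fun r => zm_mq _ _ _)
      measurable_const))
  refine Measurable.tsum fun b => Measurable.ite (measurableSet_setOfPred.2 ?_)
    (measurable_q a b) measurable_const
  exact ((hS _).and (Measurable.forall fun y => measurable_const.imp (hS y).not)).and
    measurable_const

lemma zm_quench {ω : V d → St d → ℝ} (hω : SubSt ω) (ℓ a : V d) {K T : ℤ} (hKT : K ≤ T) :
    ∑' l, (if Br ℓ T l then q ω a l else 0) +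
      2⁻¹ * ∑' b, (if zmB ℓ a K T ω b then q ω a b else 0) ≤
        ∑' l, if Br ℓ K l then q ω a l else 0 := by
  have hB : PF (zmB ℓ a K T ω) := (pf_first a _).mono fun _ h => h.1
  have h1 : ∑' l, (if zmE ℓ a K T T ω l then q ω a l else 0) ≤
      2⁻¹ * ∑' b, if zmB ℓ a K T ω b then q ω a b else 0 := by
    refine (ext_le' ω (fun _ h => h.2) a (fun _ => 2⁻¹) fun b hb =>
      le_trans (ENNReal.tsum_le_tsum fun r => ?_) hb.1.1.2).trans_eq ?_
    · split_ifs with h2 h3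
      · exact le_rfl
      · refine absurd ⟨zm_right (zm_in h2.1 a), ?_⟩ h3
        rw [add_assoc, add_sub_cancel_left, ← disp_append]
        exact h2.1.2
      all_goals exact zero_le
    · rw [← ENNReal.tsum_mul_left]
      exact tsum_congr fun b => by split_ifs <;> simp [mul_comm]
  have h2 : PF (zmU ℓ a K T ω) := by
    rintro b r (hb | hb) (hr | hr)
    · exact br_pf ℓ T b r hb.1 hr.1
    · by_contra h
      have h3 := (hr.2 _ (zm_mem a b h)).2
      rw [add_sub_cancel_left] at h3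
      exact absurd hb.1.2 (not_le.2 h3)
    · exact absurd ⟨hr.1, b, r, hb, rfl⟩ hr.2
    · exact hB b r hb hr
  calc _ ≤ ∑' l, ((if zmN ℓ a K T ω l then q ω a l else 0) +
        if zmE ℓ a K T T ω l then q ω a l else 0) + _ := by
        refine add_le_add_left (ENNReal.tsum_le_tsum fun l => ?_) _
        by_cases h3 : zmE ℓ a K T T ω l <;> by_cases h4 : Br ℓ T l <;> simp [zmN, h3, h4]
    _ ≤ ∑' l, (if zmN ℓ a K T ω l then q ω a l else 0) +
        ∑' b, if zmB ℓ a K T ω b then q ω a b else 0 := by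
        rw [ENNReal.tsum_add, add_assoc]
        refine add_le_add_right ((add_le_add_left h1 _).trans_eq ?_) _
        rw [← add_mul, ENNReal.inv_two_add_inv_two, one_mul]
    _ ≤ ∑' l, if zmU ℓ a K T ω l then q ω a l else 0 := by
        rw [← ENNReal.tsum_add]
        refine ENNReal.tsum_le_tsum fun l => ?_
        by_cases h3 : zmN ℓ a K T ω l <;> by_cases h4 : zmB ℓ a K T ω l
        · exact absurd ⟨h3.1, l, [], h4, by simp⟩ h3.2
        all_goals simp [zmU, h3, h4]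
    _ ≤ _ := by
        refine ext_le hω h2 (fun l hl => ?_) a
        rcases hl with hl | hl
        · exact hl.1.exists_init hKT
        have h3 := hl.1.1.1
        rw [add_sub_cancel_left] at h3
        obtain ⟨b, r, rfl, h4, h5⟩ := exists_first 0 (fun y => K ≤ lev ℓ y) l
          (Or.inl (by rwa [zero_add]))
        refine ⟨b, r, ⟨fun y hy => ⟨?_, not_le.1 (h5 y hy)⟩, by rwa [zero_add] at h4⟩, rfl⟩
        simpa using (zm_left hl.2 (y + a) ((mem_dep_shift _ _ _).2 (by simpa using hy))).1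

lemma zm_bad (hμ : Elliptic μ) (ℓ a : V d) {K T : ℤ} (hKT : K ≤ T) {δ : ℝ≥0∞}
    (h : U μ ℓ K ≤ U μ ℓ T + δ) :
    ∫⁻ ω, ∑' b, (if zmB ℓ a K T ω b then q ω a b else 0) ∂env μ ≤ 2 * δ := by
  have h1 := lintegral_mono_ae ((ae_subSt hμ).mono fun ω hω => zm_quench hω ℓ a hKT)
  rw [lintegral_add_left (Measurable.tsum fun r => zm_mq _ _ _), ← tsum_w_eq,
    ← tsum_w_eq, lintegral_const_mul' _ _ (by simp)] at h1
  have h2 := (ENNReal.add_le_add_iff_left
    (ne_top_of_le_ne_top ENNReal.one_ne_top (U_le_one hμ ℓ T))).1 (h1.trans h)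
  calc _ = 2 * (2⁻¹ * _) := (ENNReal.mul_inv_cancel_left (by simp) (by simp)).symm
    _ ≤ _ := mul_le_mul_right h2 _


theorem zm (hμ : Elliptic μ) (ℓ : V d) (K T h : ℤ) (c : V d) (δ₁ δ₂ : ℝ≥0∞) (hK : 0 < K)
    (hhT : h ≤ T) (hcT : lev ℓ c < T) (hKT : K ≤ T) (hKc : K ≤ lev ℓ c + 1)
    (h1 : U μ ℓ K ≤ U μ ℓ T + δ₁) (h2 : U μ (-ℓ) K ≤ U μ (-ℓ) (lev ℓ c + 1) + δ₂) :
    ∑' β, ∑' γ, (if Br ℓ h β ∧ Br (-ℓ) (lev ℓ c + 1) γ ∧ Hit β c γ ∧
        (∀ x ∈ dep 0 β, x ∈ dep c γ → K ≤ lev ℓ x ∧ lev ℓ x ≤ lev ℓ c - K)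
      then w μ β * w μ γ else 0) ≤ 2 * δ₁ + 2 * δ₂ := by
  have m1 := zm_meas ℓ 0 K T
  calc _ ≤ ∑' β, ∑' γ, ∫⁻ ω, (if Br ℓ h β then q ω 0 β else 0) *
        (if zmG ℓ K c β γ then q ω c γ else 0) ∂env μ := by
        refine ENNReal.tsum_le_tsum fun β => ?_
        by_cases hβ : Br ℓ h β
        swap
        · simp [hβ]
        calc _ ≤ ∑' γ, w μ β * if zmP ℓ K c β γ then w μ γ else 0 :=
              ENNReal.tsum_le_tsum fun γ => by
                split_ifs with h1 h2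
                · exact le_rfl
                · exact absurd h1.2 h2
                all_goals exact zero_le
          _ ≤ w μ β * ∑' γ, if zmG ℓ K c β γ then w μ γ else 0 := by
              rw [ENNReal.tsum_mul_left]
              exact mul_le_mul_right (ext_le_w hμ ((br_pf _ _).mono fun _ h => h.1)
                fun _ h => zm_cut hβ h) _
          _ = _ := by
              rw [← ENNReal.tsum_mul_left]
              refine tsum_congr fun γ => ?_
              simp only [if_pos hβ]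
              split_ifs with h1
              · exact (indep2 (Finset.disjoint_right.2 h1.1.2)).symm
              · simp
    _ = ∫⁻ ω, ∑' β, ∑' γ, (if Br ℓ h β then q ω 0 β else 0) *
        (if zmG ℓ K c β γ then q ω c γ else 0) ∂env μ := by
        have m : ∀ β γ, Measurable fun ω => (if Br ℓ h β then q ω 0 β else 0) *
            (if zmG ℓ K c β γ then q ω c γ else 0) := fun β γ => (zm_mq _ _ _).mul (zm_mq _ _ _)
        rw [lintegral_tsum fun β => (Measurable.tsum (m β)).aemeasurable]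
        exact tsum_congr fun β => (lintegral_tsum fun γ => (m β γ).aemeasurable).symm
    _ ≤ ∫⁻ ω, (∑' b, if zmB ℓ 0 K T ω b then q ω 0 b else 0) +
        ∑' b, if zmB (-ℓ) c K (lev ℓ c + 1) ω b then q ω c b else 0 ∂env μ := by
        refine lintegral_mono_ae ((ae_subSt hμ).mono fun ω hω => ?_)
        set Y := ∑' b, if zmB (-ℓ) c K (lev ℓ c + 1) ω b then q ω c b else 0
        calc _ ≤ ∑' β, ((if zmE ℓ 0 K T h ω β then q ω 0 β else 0) +
              (if Br ℓ h β then q ω 0 β else 0) * Y) := by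
              refine ENNReal.tsum_le_tsum fun β => ?_
              rw [ENNReal.tsum_mul_left]
              have hG : PF (zmG ℓ K c β) := (pf_first c (· ∈ dep 0 β)).mono fun _ h => h.1
              by_cases hβ : Br ℓ h β
              swap
              · simp [hβ]
              by_cases hE : zmE ℓ 0 K T h ω β
              · rw [if_pos hE, if_pos hβ]
                exact le_add_right (mul_le_of_le_one_right' (L0 hω hG c))
              refine le_add_left (mul_le_mul_right (ext_le hω hG (fun γ hγ => ?_) c) _)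
              rcases zm_half hω ℓ hK hKT hcT (c + disp γ) with h3 | h3
              · refine absurd ⟨hβ, zm_ext (fun y hy => ?_) (Or.inr ⟨_, hγ.1.1, ?_, h3⟩)⟩ hE
                · have := hβ.1 y hy
                  rw [sub_zero]
                  omega
                · rw [sub_zero]
                  exact hγ.2.1
              · refine zm_ext hγ.2.2.2 (Or.inl ⟨?_, h3⟩)
                have := hγ.2.2.1
                rw [lev_neg, lev_sub]
                omega
          _ ≤ _ := by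
              rw [ENNReal.tsum_add, ENNReal.tsum_mul_right]
              exact add_le_add (ext_le hω ((br_pf ℓ h).mono fun _ h => h.1) (fun _ h => h.2) 0)
                (mul_le_of_le_one_left' (L0 hω (br_pf ℓ h) 0))
    _ ≤ _ := by
        rw [lintegral_add_left m1]
        exact add_le_add (zm_bad hμ ℓ 0 hKT h1) (zm_bad hμ (-ℓ) c hKc h2)

end Vale.Agent.P147
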